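import Crest.Agent.R129.A.Rho

/-! # Riemann sums over the unitriangular group (task R129/A-Riem). Statements frozen. -/

set_option autoImplicit false
open scoped BigOperators Matrix

namespace Crest.Agent.R129.A

private theorem rm_tent_lip (x y : ℝ) : |max 0 (1 - |x|) - max 0 (1 - |y|)| ≤ |x - y| := by
  rw [max_comm, max_comm 0]
  refine (abs_max_sub_max_le_abs _ _ _).trans ?_
  rw [sub_sub_sub_cancel_left, abs_sub_comm x]
  exact abs_abs_sub_abs_le_abs_sub _ _

theorem psi_nonneg (y : ℝ) : 0 ≤ psi y := by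
  unfold psi
  positivity

theorem psi_ne {y : ℝ} (h : psi y ≠ 0) : |y| < 1 := by
  by_contra h1
  exact h (by rw [psi, max_eq_left (by linarith), mul_zero])

theorem psi_lip : LipschitzWith (3 / 2) psi := by
  refine LipschitzWith.of_dist_le_mul fun x y => ?_
  have h1 : Real.sqrt (3 / 2) ≤ 3 / 2 := Real.sqrt_le_iff.2 ⟨by norm_num, by norm_num⟩
  rw [Real.dist_eq, Real.dist_eq, psi, psi, ← mul_sub, abs_mul, abs_of_nonneg (Real.sqrt_nonneg _)]
  push_cast
  exact mul_le_mul h1 (rm_tent_lip x y) (abs_nonneg _) (by norm_num)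

private theorem rm_sq (y : ℝ) : psi y ^ 2 = 3 / 2 * max 0 (1 - |y|) ^ 2 := by
  rw [psi, mul_pow, Real.sq_sqrt (by norm_num)]

private theorem rm_cont : Continuous fun y => psi y ^ 2 := psi_lip.continuous.pow 2

private theorem rm_lip (x y : ℝ) : |psi x ^ 2 - psi y ^ 2| ≤ 3 * |x - y| := by
  have h : ∀ z : ℝ, 0 ≤ max 0 (1 - |z|) ∧ max 0 (1 - |z|) ≤ 1 := fun z =>
    ⟨le_max_left _ _, max_le zero_le_one (sub_le_self _ (abs_nonneg _))⟩
  rw [rm_sq, rm_sq, ← mul_sub, sq_sub_sq, abs_mul, abs_mul,
    abs_of_nonneg (add_nonneg (h x).1 (h y).1), abs_of_pos (by norm_num : (0 : ℝ) < 3 / 2)]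
  have := mul_le_mul (add_le_add (h x).2 (h y).2) (rm_tent_lip x y) (abs_nonneg _) (by norm_num)
  linarith

private theorem rm_cell (z : ℝ) {r : ℝ} (hr : 0 ≤ r) :
    |r * psi z ^ 2 - ∫ u in z..z + r, psi u ^ 2| ≤ 3 / 2 * r ^ 2 := by
  have h := intervalIntegral.norm_integral_le_of_norm_le (μ := MeasureTheory.volume)
    (f := fun u => psi z ^ 2 - psi u ^ 2) (g := fun u => 3 * (u - z)) (le_add_of_nonneg_right hr)
    (Filter.Eventually.of_forall fun t ht => (rm_lip z t).trans_eq (by
      rw [abs_sub_comm, abs_of_pos (sub_pos.2 ht.1)]))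
    (Continuous.intervalIntegrable (by fun_prop) _ _)
  rw [intervalIntegral.integral_sub intervalIntegrable_const (rm_cont.intervalIntegrable _ _),
    intervalIntegral.integral_const_mul,
    intervalIntegral.integral_sub intervalIntegral.intervalIntegrable_id intervalIntegrable_const]
    at h
  simp only [intervalIntegral.integral_const, add_sub_cancel_left, smul_eq_mul, integral_id] at h
  exact h.trans_eq (by ring)

private theorem rm_total {A B : ℝ} (hA : A ≤ -1) (hB : 1 ≤ B) : ∫ u in A..B, psi u ^ 2 = 1 := by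
  have hi : ∀ a b, IntervalIntegrable (fun u => psi u ^ 2) MeasureTheory.volume a b :=
    fun a b => rm_cont.intervalIntegrable _ _
  have h1 : ∫ u in A..(-1), psi u ^ 2 = ∫ _ in A..(-1), (0 : ℝ) :=
    intervalIntegral.integral_congr fun u hu => by
      rw [Set.uIcc_of_le hA] at hu
      simp only [rm_sq]
      rw [max_eq_left (by linarith [hu.2, neg_le_abs u])]
      simp
  have h2 : ∫ u in (1 : ℝ)..B, psi u ^ 2 = ∫ _ in (1 : ℝ)..B, (0 : ℝ) :=
    intervalIntegral.integral_congr fun u hu => by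
      rw [Set.uIcc_of_le hB] at hu
      simp only [rm_sq]
      rw [max_eq_left (by linarith [hu.1, le_abs_self u])]
      simp
  have h3 : ∫ u in (-1 : ℝ)..0, psi u ^ 2 = ∫ u in (-1 : ℝ)..0, 3 / 2 * (u + 1) ^ 2 :=
    intervalIntegral.integral_congr fun u hu => by
      rw [Set.uIcc_of_le (by norm_num)] at hu
      simp only [rm_sq]
      rw [abs_of_nonpos hu.2, max_eq_right (by linarith [hu.1])]
      ring
  have h4 : ∫ u in (0 : ℝ)..1, psi u ^ 2 = ∫ u in (0 : ℝ)..1, 3 / 2 * (u - 1) ^ 2 :=
    intervalIntegral.integral_congr fun u hu => by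
      rw [Set.uIcc_of_le (by norm_num)] at hu
      simp only [rm_sq]
      rw [abs_of_nonneg hu.1, max_eq_right (by linarith [hu.2])]
      ring
  rw [← intervalIntegral.integral_add_adjacent_intervals (hi A (-1)) (hi _ B),
    ← intervalIntegral.integral_add_adjacent_intervals (hi (-1) 0) (hi _ B),
    ← intervalIntegral.integral_add_adjacent_intervals (hi 0 1) (hi _ B), h1, h2, h3, h4,
    intervalIntegral.integral_const_mul, intervalIntegral.integral_const_mul,
    intervalIntegral.integral_comp_add_right (fun u => u ^ 2),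
    intervalIntegral.integral_comp_sub_right (fun u => u ^ 2)]
  simp only [integral_pow]
  norm_num

/-- `g = psi²` is `3`-Lipschitz, supported in `[-1,1]`, `∫ g = 1`.  `|r g(z) - ∫_z^{z+r} g| ≤ 3 r² / 2`, at most
`2/r + 2` intervals `[y + r k, y + r (k+1)]` meet `(-1,1)`, and the integrals add up to `1`
(`intervalIntegral.sum_integral_adjacent_intervals`). -/
theorem riem1 (r y : ℝ) (hr : 0 < r) (hr1 : r ≤ 1) :
    {k : ℤ | psi (y + r * k) ≠ 0}.Finite ∧
      |(∑ᶠ k : ℤ, r * psi (y + r * k) ^ 2) - 1| ≤ 6 * r := by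
  obtain ⟨a, ha1, ha2⟩ : ∃ a : ℤ, y + r * a ≤ -1 ∧ -1 < y + r * (a + 1) :=
    ⟨⌊(-1 - y) / r⌋, by linarith [(le_div_iff₀' hr).1 (Int.floor_le ((-1 - y) / r))],
      by linarith [(div_lt_iff₀' hr).1 (Int.lt_floor_add_one ((-1 - y) / r))]⟩
  obtain ⟨N, hN1, hN2⟩ : ∃ N : ℕ, 1 ≤ y + r * a + r * N ∧ y + r * a + r * N < 1 + r :=
    ⟨⌈(1 - (y + r * a)) / r⌉₊, by
      linarith [(div_le_iff₀' hr).1 (Nat.le_ceil ((1 - (y + r * a)) / r))], by
      have h := Nat.ceil_lt_add_one (show 0 ≤ (1 - (y + r * a)) / r by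
        apply div_nonneg <;> linarith)
      rw [← sub_lt_iff_lt_add, lt_div_iff₀' hr] at h
      linarith⟩
  have hs : {k : ℤ | psi (y + r * k) ≠ 0} ⊆ ((Finset.range N).image fun i : ℕ => a + i : Finset ℤ) := by
    intro k hk
    obtain ⟨h1, h2⟩ := abs_lt.1 (psi_ne hk)
    have h3 : a < k := by
      have : (a : ℝ) < k := lt_of_mul_lt_mul_left (by linarith) hr.le
      exact_mod_cast this
    have h4 : k < a + N := by
      have : (k : ℝ) < a + N := lt_of_mul_lt_mul_left (by linarith) hr.le
      exact_mod_cast this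
    exact Finset.mem_coe.2 (Finset.mem_image.2
      ⟨(k - a).toNat, Finset.mem_range.2 (by omega), by omega⟩)
  refine ⟨(Finset.finite_toSet _).subset hs, ?_⟩
  rw [finsum_eq_sum_of_support_subset _ fun k hk => hs fun h => hk (by simp [h]),
    Finset.sum_image fun i _ j _ h => by simpa using h,
    ← rm_total (A := y + r * a + r * (0 : ℕ)) (by simpa using ha1) hN1,
    ← intervalIntegral.sum_integral_adjacent_intervals (a := fun i : ℕ => y + r * a + r * i)
      fun k _ => rm_cont.intervalIntegrable _ _, ← Finset.sum_sub_distrib]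
  refine (Finset.abs_sum_le_sum_abs _ _).trans ((Finset.sum_le_sum
    (g := fun _ => 3 / 2 * r ^ 2) fun i _ => ?_).trans ?_)
  · have := rm_cell (y + r * a + r * i) hr.le
    push_cast
    rwa [mul_add, mul_add, mul_one, ← add_assoc, ← add_assoc]
  · rw [Finset.sum_const, Finset.card_range, nsmul_eq_mul]
    have h1 : r * N ≤ 4 := by linarith
    nlinarith

/-- Triangular systems.  Induction on the number of coordinates (generalising the index type): split off a
coordinate `a₀` of maximal rank (`Equiv.funSplitAt`/`Equiv.piSplitAt`); the other factors do not depend on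
it.  (It may be easier to prove the `ℝ≥0∞`-valued `tsum` version first.) -/
theorem sum_triangular {κ : Type} [Fintype κ] [DecidableEq κ] (rk : κ → ℕ)
    (f : κ → (κ → ℤ) → ℝ) (lo hi : ℝ) (hlo : 0 ≤ lo) (h0 : ∀ a A, 0 ≤ f a A)
    (hdep : ∀ a A A', A a = A' a → (∀ a', rk a' < rk a → A a' = A' a') → f a A = f a A')
    (hfin : ∀ a A, {z : ℤ | f a (Function.update A a z) ≠ 0}.Finite)
    (hsum : ∀ a A, lo ≤ ∑ᶠ z : ℤ, f a (Function.update A a z) ∧
      ∑ᶠ z : ℤ, f a (Function.update A a z) ≤ hi) :
    {A : κ → ℤ | ∏ a, f a A ≠ 0}.Finite ∧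
      lo ^ Fintype.card κ ≤ ∑ᶠ A : κ → ℤ, ∏ a, f a A ∧
      ∑ᶠ A : κ → ℤ, ∏ a, f a A ≤ hi ^ Fintype.card κ := by
  have key : ∀ (s : Finset κ) (B : κ → ℤ),
      (Function.support fun A : κ → ℤ =>
        if ∀ a, a ∉ s → A a = B a then ∏ a ∈ s, f a A else 0).Finite ∧
      lo ^ s.card ≤ ∑ᶠ A : κ → ℤ, (if ∀ a, a ∉ s → A a = B a then ∏ a ∈ s, f a A else 0) ∧
      ∑ᶠ A : κ → ℤ, (if ∀ a, a ∉ s → A a = B a then ∏ a ∈ s, f a A else 0) ≤ hi ^ s.card := by
    intro s
    induction s using Finset.induction_on_min_value rk with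
    | empty =>
      intro B
      have e : ∀ A : κ → ℤ, A ≠ B →
          (if ∀ a, a ∉ (∅ : Finset κ) → A a = B a then ∏ a ∈ ∅, f a A else 0) = 0 :=
        fun A hA => if_neg fun h => hA (funext fun a => h a (by simp))
      refine ⟨(Set.finite_singleton B).subset fun A hA => by_contra fun h => hA (e A h), ?_⟩
      rw [finsum_eq_single _ B e]
      simp
    | insert b s hb hmin ih =>
      intro B
      set Z := (hfin b B).toFinset with hZ
      have e : ∀ A : κ → ℤ,
          (if ∀ a, a ∉ insert b s → A a = B a then ∏ a ∈ insert b s, f a A else 0) =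
          ∑ z ∈ Z, f b (Function.update B b z) *
            if ∀ a, a ∉ s → A a = Function.update B b z a then ∏ a ∈ s, f a A else 0 := by
        intro A
        rw [Finset.sum_eq_single (A b)]
        · by_cases h : ∀ a, a ∉ insert b s → A a = B a
          · have h1 : ∀ a, a ∉ s → A a = Function.update B b (A b) a := fun a ha => by
              rcases eq_or_ne a b with rfl | hab
              · simp
              · rw [Function.update_of_ne hab, h a (by simp [hab, ha])]
            rw [if_pos h, if_pos h1, Finset.prod_insert hb,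
              hdep b A _ (h1 b hb) fun a ha => h1 a fun h2 => not_le.2 ha (hmin a h2)]
          · rw [if_neg h, if_neg, mul_zero]
            refine fun h1 => h fun a ha => ?_
            rw [Finset.mem_insert, not_or] at ha
            rw [h1 a ha.2, Function.update_of_ne ha.1]
        · intro z _ hz
          rw [if_neg fun h1 => hz (by simpa using (h1 b hb).symm), mul_zero]
        · intro h
          rw [show f b (Function.update B b (A b)) = 0 by simpa [hZ] using h, zero_mul]
      have h1 := hsum b B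
      rw [finsum_eq_sum_of_support_subset _ (s := Z) (by simp [hZ, Function.support])] at h1
      have h2 : ∀ z, (Function.support fun A : κ → ℤ => f b (Function.update B b z) *
          if ∀ a, a ∉ s → A a = Function.update B b z a then ∏ a ∈ s, f a A else 0).Finite :=
        fun z => (ih _).1.subset (Function.support_mul_subset_right _ _)
      simp only [e]
      refine ⟨(Z.finite_toSet.biUnion fun z _ => h2 z).subset (Finset.support_sum _ _), ?_⟩
      rw [finsum_sum_comm _ _ fun z _ => h2 z, Finset.card_insert_of_notMem hb, pow_succ', pow_succ']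
      simp only [← mul_finsum]
      constructor
      · refine (mul_le_mul_of_nonneg_right h1.1 (by positivity)).trans ?_
        rw [Finset.sum_mul]
        exact Finset.sum_le_sum fun z _ => mul_le_mul_of_nonneg_left (ih _).2.1 (h0 _ _)
      · refine le_trans ?_ (mul_le_mul_of_nonneg_right h1.2
          (pow_nonneg (hlo.trans (h1.1.trans h1.2)) _))
        rw [Finset.sum_mul]
        exact Finset.sum_le_sum fun z _ => mul_le_mul_of_nonneg_left (ih _).2.2 (h0 _ _)
  simpa [Function.support] using key Finset.univ 0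

/-- `sum_triangular` with `rk = Idx.dist`; by `affU_apply` the coordinate `a` is `φ * g.co a` plus a function of
the coordinates of smaller `dist`; `riem1` with `r = φ / lam a`. -/
theorem riemU {n : ℕ} (φ η : ℝ) (lam X : Idx n → ℝ) (hφ : 0 < φ) (hlam : ∀ a, 0 < lam a)
    (hη : ∀ a, φ / lam a ≤ η) (hη1 : η ≤ 1 / 6) :
    {g : UT n ℤ | ∏ a, φ / lam a * psi (affU g φ X a / lam a) ^ 2 ≠ 0}.Finite ∧
      (1 - 6 * η) ^ Fintype.card (Idx n) ≤
        ∑ᶠ g : UT n ℤ, ∏ a, φ / lam a * psi (affU g φ X a / lam a) ^ 2 ∧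
      ∑ᶠ g : UT n ℤ, ∏ a, φ / lam a * psi (affU g φ X a / lam a) ^ 2 ≤
        (1 + 6 * η) ^ Fintype.card (Idx n) := by
  have hr : ∀ a, 0 < φ / lam a := fun a => div_pos hφ (hlam a)
  obtain ⟨c, hc⟩ : ∃ c : Idx n → (Idx n → ℤ) → ℝ, c = fun a A =>
    (X a + ∑ l, ((su A a.1.1 l : ℤ) : ℝ) * su X l a.1.2) / lam a := ⟨_, rfl⟩
  have h1 : ∀ A a, affU ⟨A⟩ φ X a / lam a = c a A + φ / lam a * A a := fun A a => by
    rw [affU_apply, hc]
    ring
  have h2 : ∀ a A A', (∀ a', a'.dist < a.dist → A a' = A' a') → c a A = c a A' := by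
    intro a A A' h
    rw [hc]
    refine congrArg (fun t => (X a + t) / lam a) (Finset.sum_congr rfl fun l _ => ?_)
    by_cases h3 : a.1.1 < l
    · by_cases h4 : l < a.1.2
      · rw [su_apply_lt _ h3, su_apply_lt _ h3, h]
        rw [Fin.lt_def] at h3 h4
        simp only [Idx.dist]
        omega
      · rw [isSU_su X _ _ (not_lt.1 h4), mul_zero, mul_zero]
    · rw [isSU_su _ _ _ (not_lt.1 h3), isSU_su _ _ _ (not_lt.1 h3)]
  have h3 : ∀ a A z, affU ⟨Function.update A a z⟩ φ X a / lam a = c a A + φ / lam a * z := by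
    intro a A z
    rw [h1, Function.update_self, h2 a _ A fun a' h => Function.update_of_ne (by
      rintro rfl; exact lt_irrefl _ h) _ _]
  have h4 := fun a A => riem1 (φ / lam a) (c a A) (hr a) (by linarith [hη a])
  have h := sum_triangular Idx.dist
    (fun a A => φ / lam a * psi (affU ⟨A⟩ φ X a / lam a) ^ 2) (1 - 6 * η) (1 + 6 * η) (by linarith)
    (fun a A => by have := hr a; positivity)
    (fun a A A' h h' => by simp only [h1, h, h2 a A A' h'])
    (fun a A => (h4 a A).1.subset fun z hz h => hz (by simp only [h3]; simp [h]))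
    (fun a A => by
      simp only [h3]
      have := abs_le.1 (h4 a A).2
      constructor <;> linarith [this.1, this.2, hη a])
  rw [← finsum_comp_equiv UT.equivCo.symm]
  exact ⟨(h.1.image UT.mk).subset fun g hg => ⟨g.co, hg, rfl⟩, h.2⟩

end Crest.Agent.R129.A
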