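import Crest.Agent.R129.A.Chi

/-! # The `θ` factor is Lipschitz at its own scale (task R129/A-ThLip). Statement frozen. -/

set_option autoImplicit false
open scoped BigOperators

namespace Crest.Agent.R129.A

/-- bounded by `B` and Lipschitz with constant `B * Λ` -/
def TlBL (f : ℝ → ℝ) (B Λ : ℝ) : Prop :=
  (∀ x, |f x| ≤ B) ∧ ∀ x y, |f x - f y| ≤ B * Λ * |x - y|

theorem TlBL.mul {f g : ℝ → ℝ} {B B' Λ Λ' : ℝ} (hf : TlBL f B Λ) (hg : TlBL g B' Λ') :
    TlBL (fun x => f x * g x) (B * B') (Λ + Λ') := by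
  have hB : 0 ≤ B := (abs_nonneg _).trans (hf.1 0)
  have hB' : 0 ≤ B' := (abs_nonneg _).trans (hg.1 0)
  refine ⟨fun x => ?_, fun x y => ?_⟩
  · rw [abs_mul]
    exact mul_le_mul (hf.1 x) (hg.1 x) (abs_nonneg _) hB
  · have e : f x * g x - f y * g y = (f x - f y) * g x + f y * (g x - g y) := by ring
    rw [e]
    refine (abs_add_le _ _).trans ?_
    rw [abs_mul, abs_mul]
    have h1 : |f x - f y| * |g x| ≤ B * Λ * |x - y| * B' :=
      mul_le_mul (hf.2 x y) (hg.1 x) (abs_nonneg _) ((abs_nonneg _).trans (hf.2 x y))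
    have h2 : |f y| * |g x - g y| ≤ B * (B' * Λ' * |x - y|) :=
      mul_le_mul (hf.1 y) (hg.2 x y) (abs_nonneg _) hB
    nlinarith

theorem TlBL.pow {f : ℝ → ℝ} {B Λ : ℝ} (hf : TlBL f B Λ) (D : ℕ) :
    TlBL (fun x => f x ^ D) (B ^ D) (D * Λ) := by
  induction D with
  | zero => exact ⟨fun x => by simp, fun x y => by simp⟩
  | succ D ih =>
    have := ih.mul hf
    simp only [← pow_succ] at this
    push_cast
    rwa [add_mul, one_mul]

theorem tl_clamp (c d x y : ℝ) : |max c (min d x) - max c (min d y)| ≤ |x - y| := by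
  have h1 := le_abs_self (x - y)
  have h2 := neg_abs_le (x - y)
  rw [abs_le]
  simp only [max_def, min_def]
  split_ifs <;> constructor <;> linarith

theorem tl_ramp {P : ℝ} (hP : 2 ≤ P) (k : ℤ) (u u' : ℝ) :
    |ramp P k u - ramp P k u'| ≤ |u - u'| / (wp P (k + 1) - wp P k) := by
  have hI : 0 < wp P (k + 1) - wp P k := sub_pos.2 (wp_strictMono hP (by omega))
  refine (tl_clamp _ _ _ _).trans (le_of_eq ?_)
  rw [← sub_div, abs_div, abs_of_pos hI, sub_sub_sub_cancel_right]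

theorem tl_trig {P : ℝ} (hP : 2 ≤ P) (k : ℤ) (β c : ℝ) (hβ : 0 ≤ β) (T : ℝ → ℝ)
    (h1 : ∀ x, |T x| ≤ 1) (h2 : ∀ x y, |T x - T y| ≤ |x - y|) :
    TlBL (fun θ => T (Real.pi / 2 * ramp P k (β * θ - c))) 1
      (2 * β / (wp P (k + 1) - wp P k)) := by
  have hI : 0 < wp P (k + 1) - wp P k := sub_pos.2 (wp_strictMono hP (by omega))
  refine ⟨fun x => h1 _, fun x y => (h2 _ _).trans ?_⟩
  rw [← mul_sub, abs_mul, abs_of_pos (by positivity : 0 < Real.pi / 2)]
  have h3 := tl_ramp hP k (β * x - c) (β * y - c)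
  rw [sub_sub_sub_cancel_right, ← mul_sub, abs_mul, abs_of_nonneg hβ] at h3
  have h4 : Real.pi / 2 ≤ 2 := by linarith [Real.pi_le_four]
  refine (mul_le_mul h4 h3 (abs_nonneg _) zero_le_two).trans (le_of_eq ?_)
  ring

theorem tl_sqrt {P : ℝ} (hP : 2 ≤ P) (γ κ τ : ℝ) (hτ : 0 < τ) :
    TlBL (fun θ => Real.sqrt (max (1 / P ^ 2) (min (P ^ 2) ((γ * θ - κ) / τ)))) P (|γ| / τ) := by
  have hP0 : 0 < P := by linarith
  have hPP : 1 / P ^ 2 ≤ P ^ 2 := by
    rw [div_le_iff₀ (by positivity)]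
    have : 1 ≤ P ^ 2 := by nlinarith
    nlinarith
  have hlow : ∀ z, 1 / P ^ 2 ≤ z → 1 / P ≤ Real.sqrt z := by
    intro z hz
    refine Real.le_sqrt_of_sq_le ?_
    rwa [div_pow, one_pow]
  refine ⟨fun x => ?_, fun x y => ?_⟩
  · rw [abs_of_nonneg (Real.sqrt_nonneg _)]
    exact Real.sqrt_le_iff.2 ⟨hP0.le, max_le hPP (min_le_left _ _)⟩
  · set z := max (1 / P ^ 2) (min (P ^ 2) ((γ * x - κ) / τ)) with hz
    set w := max (1 / P ^ 2) (min (P ^ 2) ((γ * y - κ) / τ)) with hw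
    have hz1 : 1 / P ^ 2 ≤ z := le_max_left _ _
    have hw1 : 1 / P ^ 2 ≤ w := le_max_left _ _
    have h0 : 0 < 1 / P ^ 2 := by positivity
    have h1 : |z - w| ≤ |γ| / τ * |x - y| := by
      refine (tl_clamp _ _ _ _).trans (le_of_eq ?_)
      rw [← sub_div, abs_div, abs_of_pos hτ, sub_sub_sub_cancel_right, ← mul_sub, abs_mul]
      ring
    have h2 : z - w = (Real.sqrt z - Real.sqrt w) * (Real.sqrt z + Real.sqrt w) := by
      have e1 := Real.mul_self_sqrt (h0.le.trans hz1)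
      have e2 := Real.mul_self_sqrt (h0.le.trans hw1)
      linear_combination -e1 + e2
    have h3 : 1 / P ≤ Real.sqrt z + Real.sqrt w := by
      linarith [hlow z hz1, Real.sqrt_nonneg w]
    have h4 : |Real.sqrt z - Real.sqrt w| * (1 / P) ≤ |z - w| := by
      rw [h2, abs_mul, abs_of_nonneg (add_nonneg (Real.sqrt_nonneg z) (Real.sqrt_nonneg w))]
      exact mul_le_mul_of_nonneg_left h3 (abs_nonneg _)
    rw [mul_one_div, div_le_iff₀ hP0] at h4
    have h5 := mul_le_mul_of_nonneg_right h1 hP0.le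
    show |Real.sqrt z - Real.sqrt w| ≤ _
    linarith

theorem tl_I_up {P : ℝ} (hP : 2 ≤ P) (k : ℤ) :
    wp P (k + 1 + 1) - wp P (k + 1) ≤ P * (wp P (k + 1) - wp P k) := by
  rw [wp_succ_sub hP, wp_succ_sub hP]
  have h1 := wp_succ_le hP k
  have h2 : wp P (-(k + 1) - 1) ≤ wp P (-k - 1) := (wp_strictMono hP).monotone (by omega)
  have h3 := wp_pos hP (-(k + 1) - 1)
  have h4 := wp_pos hP k
  have h5 : wp P (k + 1) * wp P (-(k + 1) - 1) ≤ P * wp P k * wp P (-k - 1) :=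
    mul_le_mul h1 h2 h3.le (by positivity)
  have h6 := mul_le_mul_of_nonneg_left h5 (show 0 ≤ P - 1 by linarith)
  nlinarith

theorem tl_I_down {P : ℝ} (hP : 2 ≤ P) (k : ℤ) :
    wp P (k + 1) - wp P k ≤ P * (wp P (k + 1 + 1) - wp P (k + 1)) := by
  rw [wp_succ_sub hP, wp_succ_sub hP]
  have h1 := wp_succ_le hP (-(k + 1) - 1)
  rw [show -(k + 1) - 1 + 1 = -k - 1 by ring] at h1
  have h2 : wp P k ≤ wp P (k + 1) := (wp_strictMono hP).monotone (by omega)
  have h3 := wp_pos hP (-k - 1)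
  have h4 := wp_pos hP (k + 1)
  have h5 : wp P k * wp P (-k - 1) ≤ wp P (k + 1) * (P * wp P (-(k + 1) - 1)) :=
    mul_le_mul h2 h1 h3.le h4.le
  have h6 := mul_le_mul_of_nonneg_left h5 (show 0 ≤ P - 1 by linarith)
  nlinarith

theorem tl_delta {P : ℝ} (hP : 2 ≤ P) (m : ℤ) :
    wp P (m + 2) - wp P (m - 1) ≤ 3 * P ^ 2 * (wp P (m - 1 + 1) - wp P (m - 1)) ∧
    wp P (m + 2) - wp P (m - 1) ≤ 3 * P ^ 2 * (wp P (m + 1 + 1) - wp P (m + 1)) ∧
    wp P (m + 2) - wp P (m - 1) ≤ P ^ 2 * wp P m ∧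
    wp P (m + 2) - wp P (m - 1) ≤ P ^ 2 * wp P (-m) ∧
    1 ≤ (wp P (m + 2) - wp P (m - 1)) * (4 * P ^ (m.natAbs + 1)) := by
  have hP0 : 0 < P := by linarith
  have a1 := tl_I_up hP (m - 1)
  have a2 := tl_I_up hP m
  have a3 := tl_I_down hP (m - 1)
  have a4 := tl_I_down hP m
  rw [show m - 1 + 1 = m by ring] at a1 a3 ⊢
  rw [show m + 1 + 1 = m + 2 by ring] at a2 a4 ⊢
  have b1 : 0 < wp P m - wp P (m - 1) := sub_pos.2 (wp_strictMono hP (by omega))
  have b2 : 0 < wp P (m + 1) - wp P m := sub_pos.2 (wp_strictMono hP (by omega))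
  have b3 : 0 < wp P (m + 2) - wp P (m + 1) := sub_pos.2 (wp_strictMono hP (by omega))
  have hP1 : P ≤ P ^ 2 := by nlinarith
  have hP2 : 1 ≤ P ^ 2 := by nlinarith
  refine ⟨?_, ?_, ?_, ?_, ?_⟩
  · have c1 := mul_le_mul_of_nonneg_left a1 hP0.le
    have c2 := mul_le_mul_of_nonneg_right hP1 b1.le
    have c3 := mul_le_mul_of_nonneg_right hP2 b1.le
    nlinarith
  · have c1 := mul_le_mul_of_nonneg_left a4 hP0.le
    have c2 := mul_le_mul_of_nonneg_right hP1 b3.le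
    have c3 := mul_le_mul_of_nonneg_right hP2 b3.le
    nlinarith
  · have c1 := wp_succ_le hP m
    have c2 := wp_succ_le hP (m + 1)
    rw [show m + 1 + 1 = m + 2 by ring] at c2
    have c3 := mul_le_mul_of_nonneg_left c1 hP0.le
    have c4 := wp_pos hP (m - 1)
    nlinarith
  · have c1 := wp_succ_le hP (-m)
    have c2 := wp_neg hP (m - 1)
    rw [show -(m - 1) = -m + 1 by ring] at c2
    have c3 := wp_neg hP (m + 2)
    have c4 := wp_pos hP (-(m + 2))
    have c5 := mul_le_mul_of_nonneg_right hP1 (wp_pos hP (-m)).le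
    linarith
  · have c1 := wp_lower hP m
    have c2 := wp_lower hP (-m - 1)
    have c3 := wp_succ_sub hP m
    have c4 := wp_pos hP m
    have c5 := wp_pos hP (-m - 1)
    have c6 : wp P m * wp P (-m - 1) ≤ wp P (m + 2) - wp P (m - 1) := by
      have := mul_le_mul_of_nonneg_right (show 1 ≤ P - 1 by linarith) (mul_pos c4 c5).le
      nlinarith
    have c7 : P ^ (-m).toNat * P ^ (-(-m - 1)).toNat ≤ P ^ (m.natAbs + 1) := by
      rw [← pow_add]
      exact pow_le_pow_right₀ (by linarith) (by omega)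
    have c8 := mul_le_mul c1 c2 zero_le_one (by positivity)
    calc (1 : ℝ) ≤ _ := by simpa only [one_mul] using c8
      _ = wp P m * wp P (-m - 1) * (4 * (P ^ (-m).toNat * P ^ (-(-m - 1)).toNat)) := by ring
      _ ≤ _ := mul_le_mul c6 (by linarith) (by positivity) (by linarith)


/-- Take `a`, `a + ℓ` = the points with `uu = wp (m-1)`, `wp (m+2)`, so
`ℓ = (wp (m+2) - wp (m-1)) / (b (b+1))`.  With `D = card (Idx n)`,
`Th = chi ∘ uu · ∏_s g_s ^ D`, `g_s θ = sqrt (max (1/P²) (min P² (phi s θ / tau s)))` (equal to `Th` by `phi_bounds`; both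
vanish where `chi = 0`).  `|chi| ≤ 1`, `|g_s| ≤ P`; `g_s` is Lipschitz with constant `P |bet s| / tau s`
(`sqrt` is `P/2`-Lipschitz on `[1/P², ∞)`), and `|bet s| ℓ / tau s ≤ P²` since
`wp (m+2) - wp (m-1) ≤ min (wp (m+2)) (wp (-m+1))`; `chi ∘ uu` is Lipschitz with constant
`2 b (b+1) (1/|I (m-1)| + 1/|I (m+1)|)`, `|I k| = wp (k+1) - wp k = (P-1) wp k wp (-k-1)` (`wp_succ_sub`), and
`|I (k+1)| ≤ P |I k|`, `|I k| ≤ P |I (k+1)|`, so `(wp (m+2) - wp (m-1)) / |I (m±1)| ≤ 3 P²`.  A product of bounded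
Lipschitz functions is Lipschitz (prove a small lemma with explicit constants, e.g. for the predicate
`(∀ x, |f x| ≤ B) ∧ ∀ x y, |f x - f y| ≤ B * Λ * |x - y|`, which is multiplicative in `B` and additive in `Λ`).
Lower bound: `ℓ ≥ |I m| / (b+1)² ≥ wp m wp (-m-1) / (b+1)²` and `wp_lower`. -/
theorem th_lip (n R : ℕ) : ∃ A : ℝ, 3 ≤ A ∧ ∀ v0 b : ℕ, (Par.mk n R v0 b).Ok → ∀ m : ℤ,
    ∃ (L : NNReal) (a ℓ : ℝ), LipschitzWith L ((Par.mk n R v0 b).Th m) ∧
      (∀ y, (Par.mk n R v0 b).Th m y ≠ 0 → a < y ∧ y < a + ℓ) ∧ -(1 / 2) ≤ a ∧ a + ℓ ≤ 1 / 2 ∧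
      0 < ℓ ∧ (L : ℝ) * ℓ ≤ A ∧
      1 ≤ ℓ * (4 * ((b : ℝ) + 1) ^ 2 * ((R : ℝ) ^ n) ^ (m.natAbs + 1)) := by
  refine ⟨3 + (((R : ℝ) ^ n) ^ Fintype.card (Idx n) * ((R : ℝ) ^ n) ^ Fintype.card (Idx n)) *
    (12 * ((R : ℝ) ^ n) ^ 2 + 2 * Fintype.card (Idx n) * ((R : ℝ) ^ n) ^ 2),
    le_add_of_nonneg_right (by positivity), fun v0 b hok m => ?_⟩
  set p : Par := Par.mk n R v0 b with hp
  set D := Fintype.card (Idx n) with hD
  set P : ℝ := (R : ℝ) ^ n with hPdef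
  have hPP : (p.P : ℝ) = P := by simp [hp, Par.P, hPdef]
  have hP : 2 ≤ P := hPP ▸ hok.two_le_P
  have hP0 : 0 < P := by linarith
  have hb : (4 : ℝ) ≤ b := by exact_mod_cast hok.four_le_b
  have hb0 : (0 : ℝ) < b := by linarith
  set β : ℝ := b * ((b : ℝ) + 1) with hβ
  have hβ0 : 0 < β := by positivity
  have huu : ∀ θ, p.uu θ = β * θ - b := by
    intro θ
    simp only [hp, Par.uu, hβ]
    ring
  obtain ⟨d1, d2, d3, d4, d5⟩ := tl_delta hP m
  set Δ := wp P (m + 2) - wp P (m - 1) with hΔ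
  have hΔ0 : 0 < Δ := sub_pos.2 (wp_strictMono hP (by omega))
  have hI1 : 0 < wp P (m - 1 + 1) - wp P (m - 1) := sub_pos.2 (wp_strictMono hP (by omega))
  have hI2 : 0 < wp P (m + 1 + 1) - wp P (m + 1) := sub_pos.2 (wp_strictMono hP (by omega))
  have ht1 := hok.tau_pos m true
  have ht2 := hok.tau_pos m false
  have f1 := tl_trig hP (m - 1) β b hβ0.le Real.sin Real.abs_sin_le_one Real.abs_sin_sub_sin_le
  have f2 := tl_trig hP (m + 1) β b hβ0.le Real.cos Real.abs_cos_le_one Real.abs_cos_sub_cos_le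
  have g1 := (tl_sqrt hP (bet b true) (kap true) _ ht1).pow D
  have g2 := (tl_sqrt hP (bet b false) (kap false) _ ht2).pow D
  have hF := (f1.mul f2).mul (g1.mul g2)
  have hTh : p.Th m = fun θ => Real.sin (Real.pi / 2 * ramp P (m - 1) (β * θ - b)) *
      Real.cos (Real.pi / 2 * ramp P (m + 1) (β * θ - b)) *
      (Real.sqrt (max (1 / P ^ 2) (min (P ^ 2)
        (((bet b true : ℝ) * θ - (kap true : ℝ)) / p.tau m true))) ^ D *
      Real.sqrt (max (1 / P ^ 2) (min (P ^ 2)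
        (((bet b false : ℝ) * θ - (kap false : ℝ)) / p.tau m false))) ^ D) := by
    funext θ
    have e1 : Real.sin (Real.pi / 2 * ramp P (m - 1) (β * θ - b)) *
        Real.cos (Real.pi / 2 * ramp P (m + 1) (β * θ - b)) = chi p.P m (p.uu θ) := by
      rw [hPP, huu, chi]
    rw [e1, Par.Th]
    by_cases hc : chi p.P m (p.uu θ) = 0
    · rw [hc, zero_mul, zero_mul]
    · have e2 : ∀ s, max (1 / P ^ 2) (min (P ^ 2)
          (((bet b s : ℝ) * θ - (kap s : ℝ)) / p.tau m s)) = phi p.b s θ / p.tau m s := by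
        intro s
        have ht := hok.tau_pos m s
        obtain ⟨h1, h2⟩ := hok.phi_bounds hc s
        rw [hPP] at h1 h2
        change max (1 / P ^ 2) (min (P ^ 2) (phi p.b s θ / p.tau m s)) = _
        rw [min_eq_right ((div_le_iff₀ ht).2 h2), max_eq_right]
        rw [div_le_div_iff₀ (by positivity) ht]
        linarith
      rw [e2, e2, Fintype.prod_bool]
  set Λ := 2 * β / (wp P (m - 1 + 1) - wp P (m - 1)) + 2 * β / (wp P (m + 1 + 1) - wp P (m + 1)) +
    ((D : ℝ) * (|(bet b true : ℝ)| / p.tau m true) + (D : ℝ) * (|(bet b false : ℝ)| / p.tau m false))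
    with hΛ
  have hΛ0 : 0 ≤ Λ := by positivity
  have hw1 := wp_pos hP (m - 1)
  have hw2 : wp P (m + 2) ≤ 1 := by
    have h1 := wp_neg hP (m + 2)
    have h2 := wp_pos hP (-(m + 2))
    linarith
  refine ⟨⟨1 * 1 * (P ^ D * P ^ D) * Λ, by positivity⟩, (wp P (m - 1) + b) / β, Δ / β, ?_, ?_, ?_,
    ?_, by positivity, ?_, ?_⟩
  · rw [hTh]
    exact LipschitzWith.of_dist_le_mul fun x y => hF.2 x y
  · intro y hy
    have hc : chi p.P m (p.uu y) ≠ 0 := left_ne_zero_of_mul hy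
    rw [hPP, huu] at hc
    obtain ⟨h1, h2⟩ := chi_ne hP hc
    rw [← add_div, div_lt_iff₀ hβ0, lt_div_iff₀ hβ0]
    constructor <;> linarith
  · have : 0 ≤ (wp P (m - 1) + b) / β := by positivity
    linarith
  · rw [← add_div, div_le_iff₀ hβ0]
    nlinarith
  · have e1 : 2 * β / (wp P (m - 1 + 1) - wp P (m - 1)) * (Δ / β) ≤ 6 * P ^ 2 := by
      rw [div_mul_div_comm, div_le_iff₀ (by positivity)]
      linear_combination 2 * mul_le_mul_of_nonneg_left d1 hβ0.le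
    have e2 : 2 * β / (wp P (m + 1 + 1) - wp P (m + 1)) * (Δ / β) ≤ 6 * P ^ 2 := by
      rw [div_mul_div_comm, div_le_iff₀ (by positivity)]
      linear_combination 2 * mul_le_mul_of_nonneg_left d2 hβ0.le
    have e3 : |(bet b true : ℝ)| / p.tau m true * (Δ / β) ≤ P ^ 2 := by
      have h1 : |(bet b true : ℝ)| = b + 1 := by
        simp only [bet, if_true]
        push_cast
        exact abs_of_pos (by linarith)
      have h2 : p.tau m true = wp P m / b := by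
        rw [← hPP]; simp [Par.tau, sgn, hp]
      have h3 := wp_pos hP m
      have h4 : ((b : ℝ) + 1) / (wp P m / b) * (Δ / β) = Δ / wp P m := by
        rw [hβ]; field_simp
      rw [h1, h2, h4, div_le_iff₀ h3]
      exact d3
    have e4 : |(bet b false : ℝ)| / p.tau m false * (Δ / β) ≤ P ^ 2 := by
      have h1 : |(bet b false : ℝ)| = b := by
        simp [bet]
      have h2 : p.tau m false = wp P (-m) / (b + 1) := by
        rw [← hPP]; simp [Par.tau, sgn, hp]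
      have h3 := wp_pos hP (-m)
      have h4 : (b : ℝ) / (wp P (-m) / (b + 1)) * (Δ / β) = Δ / wp P (-m) := by
        rw [hβ]; field_simp
      rw [h1, h2, h4, div_le_iff₀ h3]
      exact d4
    have e5 : Λ * (Δ / β) ≤ 12 * P ^ 2 + 2 * D * P ^ 2 := by
      have h1 := mul_le_mul_of_nonneg_left e3 (Nat.cast_nonneg (α := ℝ) D)
      have h2 := mul_le_mul_of_nonneg_left e4 (Nat.cast_nonneg (α := ℝ) D)
      rw [hΛ, add_mul, add_mul, add_mul, mul_assoc (D : ℝ), mul_assoc (D : ℝ)]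
      linarith
    have e6 := mul_le_mul_of_nonneg_left e5 (show 0 ≤ P ^ D * P ^ D by positivity)
    change 1 * 1 * (P ^ D * P ^ D) * Λ * (Δ / β) ≤ _
    rw [one_mul, one_mul, mul_assoc]
    linarith
  · have e1 : Δ / β * (4 * ((b : ℝ) + 1) ^ 2 * P ^ (m.natAbs + 1)) =
        Δ * (4 * P ^ (m.natAbs + 1)) * (((b : ℝ) + 1) / b) := by
      rw [hβ]; field_simp
    have e2 : (1 : ℝ) ≤ ((b : ℝ) + 1) / b := by
      rw [le_div_iff₀ hb0]; linarith
    rw [e1]
    exact one_le_mul_of_one_le_of_one_le d5 e2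

end Crest.Agent.R129.A
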