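import Crest.Agent.R129.A.Defs

/-! # Bernstein's theorem with constants (task R129/A-Wiener). Statement frozen. -/

set_option autoImplicit false
open scoped BigOperators

namespace Crest.Agent.R129.A

open MeasureTheory Filter Topology

theorem wn_haar : (AddCircle.haarAddCircle : Measure UnitAddCircle) = volume := by
  rw [AddCircle.volume_eq_smul_haarAddCircle]; simp

/-- Bessel's inequality for a bounded function with small support -/
theorem wn_bessel (G : C(UnitAddCircle, ℂ)) {S : Set UnitAddCircle} (hS : MeasurableSet S)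
    {B m : ℝ} (hm : (volume : Measure UnitAddCircle).real S ≤ m) (hB : ∀ θ, ‖G θ‖ ≤ B)
    (h0 : ∀ θ, θ ∉ S → G θ = 0) (T : Finset ℤ) :
    ∑ k ∈ T, ‖fourierCoeff G k‖ ^ 2 ≤ B ^ 2 * m := by
  have h1 := hasSum_sq_fourierCoeff (ContinuousMap.toLp (E := ℂ) 2 AddCircle.haarAddCircle ℂ G)
  simp_rw [fourierCoeff_toLp] at h1
  refine (sum_le_hasSum T (fun _ _ => by positivity) h1).trans ?_
  have h2 : ∫ t, ‖(ContinuousMap.toLp (E := ℂ) 2 AddCircle.haarAddCircle ℂ G) t‖ ^ 2
      ∂AddCircle.haarAddCircle = ∫ t, ‖G t‖ ^ 2 ∂AddCircle.haarAddCircle := by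
    refine integral_congr_ae ?_
    filter_upwards [ContinuousMap.coeFn_toLp (p := 2) (μ := AddCircle.haarAddCircle) (𝕜 := ℂ) G]
      with t e
    rw [e]
  rw [h2, wn_haar, ← setIntegral_eq_integral_of_forall_compl_eq_zero (s := S)
    (fun θ hθ => by rw [h0 θ hθ]; simp)]
  refine (Real.le_norm_self _).trans ((norm_setIntegral_le_of_norm_le_const (C := B ^ 2)
    (measure_lt_top _ _) fun θ _ => ?_).trans ?_)
  · rw [Real.norm_eq_abs, abs_of_nonneg (by positivity)]
    exact pow_le_pow_left₀ (norm_nonneg _) (hB θ) 2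
  · gcongr

theorem wn_shift (G : C(UnitAddCircle, ℂ)) (h : UnitAddCircle) (k : ℤ) :
    fourierCoeff (fun θ => G (θ + h) - G θ) k = (fourier k h - 1) * fourierCoeff G k := by
  have hi : ∀ {F : UnitAddCircle → ℂ}, Continuous F → Integrable F AddCircle.haarAddCircle :=
    fun hF => hF.integrable_of_hasCompactSupport (HasCompactSupport.of_compactSpace _)
  unfold fourierCoeff
  simp only [smul_eq_mul, mul_sub]
  rw [integral_sub (hi (by fun_prop)) (hi (by fun_prop)), sub_mul, one_mul, ← integral_const_mul,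
    ← integral_add_right_eq_self (fun θ => fourier k h * (fourier (-k) θ * G θ)) h]
  congr 2
  funext θ
  rw [← mul_assoc]
  congr 1
  simp only [fourier_apply, smul_add, AddCircle.toCircle_add, neg_smul, AddCircle.toCircle_neg,
    Circle.coe_mul, Circle.coe_inv]
  have := Circle.coe_ne_zero (AddCircle.toCircle (k • h))
  field_simp

theorem wn_lower (k : ℤ) (h : ℝ) (hk : |(k : ℝ) * h| ≤ 1 / 2) :
    4 * |(k : ℝ) * h| ≤ ‖fourier k (h : UnitAddCircle) - 1‖ := by
  have e : fourier k (h : UnitAddCircle) = Complex.exp (Complex.I * (2 * Real.pi * (k * h) : ℝ)) := by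
    rw [fourier_coe_apply]; congr 1; push_cast; ring
  have hp := Real.pi_pos
  rw [e, Complex.norm_exp_I_mul_ofReal_sub_one, Real.norm_eq_abs, abs_mul 2, abs_two]
  have h1 : 2 * Real.pi * (k * h) / 2 = Real.pi * (k * h) := by ring
  have h2 := Real.mul_abs_le_abs_sin (x := Real.pi * (k * h))
    (by rw [abs_mul, abs_of_pos hp]; nlinarith)
  rw [abs_mul Real.pi, abs_of_pos hp, ← mul_assoc, div_mul_cancel₀ _ hp.ne'] at h2
  rw [h1]; linarith

theorem wn_inv_sq (J : ℕ) (hJ : 1 ≤ J) (T : Finset ℤ) (hT : ∀ k ∈ T, (J : ℤ) ≤ |k|) :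
    ∑ k ∈ T, (((k : ℝ)) ^ 2)⁻¹ ≤ 4 / J := by
  classical
  obtain ⟨n, hn⟩ : ∃ n : ℕ, ∀ k ∈ T, k.natAbs < n :=
    ⟨T.sup Int.natAbs + 1, fun k hk => Nat.lt_succ_of_le (Finset.le_sup (f := Int.natAbs) hk)⟩
  have h1 := sum_Ioo_inv_sq_le (α := ℝ) (J - 1) n
  have h2 : ((J - 1 : ℕ) : ℝ) + 1 = J := by rw [Nat.cast_sub hJ]; simp
  rw [h2] at h1
  have hsub : T ⊆ (Finset.Ioo (J - 1) n).image (fun i : ℕ => (i : ℤ)) ∪
      (Finset.Ioo (J - 1) n).image (fun i : ℕ => -(i : ℤ)) := by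
    intro k hk
    have a1 := hT k hk
    have a2 := hn k hk
    rw [Int.abs_eq_natAbs] at a1
    simp only [Finset.mem_union, Finset.mem_image, Finset.mem_Ioo]
    rcases Int.natAbs_eq k with e | e
    · exact Or.inl ⟨k.natAbs, ⟨by omega, a2⟩, e.symm⟩
    · exact Or.inr ⟨k.natAbs, ⟨by omega, a2⟩, e.symm⟩
  refine (Finset.sum_le_sum_of_subset_of_nonneg hsub fun _ _ _ => by positivity).trans ?_
  have h3 := Finset.sum_union_inter (f := fun k : ℤ => (((k : ℝ)) ^ 2)⁻¹)
    (s₁ := (Finset.Ioo (J - 1) n).image (fun i : ℕ => (i : ℤ)))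
    (s₂ := (Finset.Ioo (J - 1) n).image (fun i : ℕ => -(i : ℤ)))
  rw [Finset.sum_image (fun a _ b _ e => by exact_mod_cast e),
    Finset.sum_image (fun a _ b _ e => by exact_mod_cast neg_injective e)] at h3
  simp only [Int.cast_neg, Int.cast_natCast, neg_sq] at h3
  have h4 : 0 ≤ ∑ k ∈ (Finset.Ioo (J - 1) n).image (fun i : ℕ => (i : ℤ)) ∩
      (Finset.Ioo (J - 1) n).image (fun i : ℕ => -(i : ℤ)), (((k : ℝ)) ^ 2)⁻¹ :=
    Finset.sum_nonneg fun _ _ => by positivity
  have h5 : (4 : ℝ) / J = 2 / J + 2 / J := by ring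
  linarith

theorem wn_lip {f : ℝ → ℝ} {L : NNReal} (hf : LipschitzWith L f) (h1 : f (1 / 2) = 0)
    (h2 : f (-(1 / 2)) = 0) : LipschitzWith L fun x => f (x - round x) := by
  refine LipschitzWith.of_dist_le_mul fun x y => ?_
  wlog hxy : round x ≤ round y generalizing x y
  · rw [dist_comm, dist_comm x]; exact this y x (le_of_not_ge hxy)
  rcases hxy.eq_or_lt with e | e
  · refine (hf.dist_le_mul _ _).trans (le_of_eq ?_)
    rw [e, dist_sub_right]
  · have a1 := hf.dist_le_mul (x - round x) (1 / 2)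
    have a2 := hf.dist_le_mul (-(1 / 2)) (y - round y)
    have b1 := abs_le.1 (abs_sub_round x)
    have b2 := abs_le.1 (abs_sub_round y)
    have e' : (round x : ℝ) + 1 ≤ round y := by exact_mod_cast e
    rw [h1, Real.dist_eq (x - round x), abs_of_nonpos (by linarith)] at a1
    rw [h2, Real.dist_eq (-(1 / 2)), abs_of_nonpos (by linarith)] at a2
    refine (dist_triangle _ 0 _).trans ((add_le_add a1 a2).trans ?_)
    rw [← mul_add, Real.dist_eq, abs_sub_comm]
    exact mul_le_mul_of_nonneg_left (le_trans (by linarith) (le_abs_self _)) L.2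

/-- Let `F x = f (x - round x)`; it is `1`-periodic and `L`-Lipschitz (`f` vanishes at `± 1/2`), so it defines a
continuous function on `AddCircle 1` with Fourier coefficients `c k` (`fourierCoeff`).
* `|f| ≤ L ℓ ≤ A` (compare with `f a = 0`), hence `‖c k‖ ≤ ∫ |F| ≤ A ℓ`.
* The coefficients of `F (· + h) - F` are `(e(k h) - 1) c k`; this function is bounded by `L h` and vanishes
  outside a set of measure `≤ 2 ℓ`, so Parseval (`tsum_sq_fourierCoeff`) gives
  `∑ ‖e(k h) - 1‖² ‖c k‖² ≤ 2 ℓ L² h²`.  For `J ≤ |k| < 2 J` and `h = 1/(4J)`, `‖e(k h) - 1‖² ≥ 2`; Cauchy–Schwarz over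
  the `2 J` indices: `∑_{J ≤ |k| < 2J} ‖c k‖ ≤ A / (2 √2 √(ℓ J))`.  Summing over `J 2^r`:
  `∑_{J ≤ |k|} ‖c k‖ ≤ 1.25 A / √(ℓ J)` for every natural `J ≥ 1`.
* `J₀ = ⌈1/ℓ⌉₊ ≤ 2/ℓ` gives `∑ ‖c k‖ ≤ 4 A + 1.25 A`; truncate at `J₁ = ⌈2/(ε² ℓ)⌉₊` and use
  `has_pointwise_sum_fourier_series_of_summable`. -/
theorem wiener (f : ℝ → ℝ) (L : NNReal) (a ℓ A ε : ℝ) (hf : LipschitzWith L f)
    (hs : ∀ y, f y ≠ 0 → a < y ∧ y < a + ℓ) (ha : -(1 / 2) ≤ a) (ha' : a + ℓ ≤ 1 / 2) (hℓ : 0 < ℓ)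
    (hA : (L : ℝ) * ℓ ≤ A) (hε : 0 < ε) (hε1 : ε ≤ 1) :
    (∀ y, |f y| ≤ A) ∧ ∃ P : ℤ →₀ ℂ, l1 P ≤ 10 * A ∧
      (∀ x : ℝ, ‖tev1 P x - (f (x - round x) : ℝ)‖ ≤ ε * A) ∧
      ∀ k ∈ P.support, |(k : ℝ)| ≤ 10 / (ε ^ 2 * ℓ) := by
  classical
  have hL : (0 : ℝ) ≤ L := L.2
  have hA0 : 0 ≤ A := le_trans (by positivity) hA
  have hℓ1 : ℓ ≤ 1 := by linarith
  have hz : ∀ y, ¬ (a < y ∧ y < a + ℓ) → f y = 0 := fun y hy => by
    by_contra h; exact hy (hs y h)
  have hfA : ∀ y, |f y| ≤ A := by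
    intro y
    by_cases h : f y = 0
    · rw [h, abs_zero]; exact hA0
    · obtain ⟨h1, h2⟩ := hs y h
      have := hf.dist_le_mul y a
      rw [hz a (fun h => lt_irrefl _ h.1), Real.dist_eq, Real.dist_eq, sub_zero,
        abs_of_pos (sub_pos.2 h1)] at this
      refine this.trans (le_trans ?_ hA)
      gcongr; linarith
  refine ⟨hfA, ?_⟩
  have hg := wn_lip hf (hz _ fun h => by linarith [h.2]) (hz _ fun h => by linarith [h.1])
  have hper : Function.Periodic (fun x : ℝ => ((f (x - round x) : ℝ) : ℂ)) 1 := fun x => by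
    simp only [round_add_one]; push_cast; ring_nf
  let F : C(UnitAddCircle, ℂ) := ⟨hper.lift,
    Continuous.quotient_liftOn' (Complex.continuous_ofReal.comp hg.continuous) _⟩
  have hF : ∀ x : ℝ, F (x : UnitAddCircle) = ((f (x - round x) : ℝ) : ℂ) := fun x => rfl
  have hball : ∀ c : UnitAddCircle,
      (volume : Measure UnitAddCircle).real (Metric.closedBall c (ℓ / 2)) ≤ ℓ := fun c => by
    rw [Measure.real, AddCircle.volume_closedBall, ENNReal.toReal_ofReal (by positivity)]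
    exact (min_le_right _ _).trans (by linarith)
  have hsupp : ∀ θ, θ ∉ Metric.closedBall ((a + ℓ / 2 : ℝ) : UnitAddCircle) (ℓ / 2) → F θ = 0 := by
    intro θ hθ
    induction θ using QuotientAddGroup.induction_on with
    | H x =>
      rw [hF, hz _ fun h => hθ ?_, Complex.ofReal_zero]
      have e : (x : UnitAddCircle) = ((x - round x : ℝ) : UnitAddCircle) := by
        rw [AddCircle.coe_sub, eq_comm, sub_eq_self, AddCircle.coe_eq_zero_iff]
        exact ⟨round x, by simp⟩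
      rw [Metric.mem_closedBall, e, dist_eq_norm, ← AddCircle.coe_sub]
      refine (QuotientAddGroup.norm_mk_le_norm).trans ?_
      rw [Real.norm_eq_abs, abs_le]
      constructor <;> linarith [h.1, h.2]
  set c : ℤ → ℂ := fourierCoeff F with hc
  have hc2 : ∀ T : Finset ℤ, ∑ k ∈ T, ‖c k‖ ^ 2 ≤ A ^ 2 * ℓ :=
    wn_bessel F Metric.isClosed_closedBall.measurableSet (hball _) (fun θ => by
      induction θ using QuotientAddGroup.induction_on with
      | H x => rw [hF, Complex.norm_real]; exact hfA _) hsupp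
  have hc3 : ∀ T : Finset ℤ, ∑ k ∈ T, (|(k : ℝ)| * ‖c k‖) ^ 2 ≤ L ^ 2 * ℓ / 8 := by
    intro T
    obtain ⟨n, hn⟩ : ∃ n : ℕ, ∀ k ∈ T, k.natAbs ≤ n :=
      ⟨T.sup Int.natAbs, fun k hk => Finset.le_sup (f := Int.natAbs) hk⟩
    set h : ℝ := 1 / (2 * (n + 1)) with hh
    have hh0 : 0 < h := by positivity
    have h1 := wn_bessel ⟨fun θ => F (θ + (h : UnitAddCircle)) - F θ, by fun_prop⟩
      (S := Metric.closedBall ((a + ℓ / 2 : ℝ) - (h : UnitAddCircle)) (ℓ / 2) ∪
        Metric.closedBall ((a + ℓ / 2 : ℝ) : UnitAddCircle) (ℓ / 2))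
      (Metric.isClosed_closedBall.measurableSet.union Metric.isClosed_closedBall.measurableSet)
      (B := L * h) (m := ℓ + ℓ)
      ((measureReal_union_le _ _).trans (add_le_add (hball _) (hball _)))
      (fun θ => by
        induction θ using QuotientAddGroup.induction_on with
        | H x =>
          simp only [ContinuousMap.coe_mk]
          rw [← AddCircle.coe_add, hF, hF, ← Complex.ofReal_sub, Complex.norm_real]
          have := hg.dist_le_mul (x + h) x
          rwa [Real.dist_eq, Real.dist_eq, add_sub_cancel_left, abs_of_pos hh0] at this)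
      (fun θ hθ => by
        rw [Set.mem_union, not_or] at hθ
        simp only [ContinuousMap.coe_mk]
        rw [hsupp θ hθ.2, hsupp _ fun h' => hθ.1 ?_, sub_zero]
        rw [Metric.mem_closedBall, dist_eq_norm] at h' ⊢
        convert h' using 2
        abel) T
    simp only [ContinuousMap.coe_mk, wn_shift, ← hc] at h1
    have h2 : ∑ k ∈ T, (4 * h) ^ 2 * (|(k : ℝ)| * ‖c k‖) ^ 2 ≤ (L * h) ^ 2 * (ℓ + ℓ) := by
      refine le_trans (Finset.sum_le_sum fun k hk => ?_) h1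
      have h3 : |(k : ℝ)| ≤ n := by
        have := hn k hk
        rw [← Int.cast_abs, Int.abs_eq_natAbs]; exact_mod_cast this
      have h4 := wn_lower k h (by
        rw [abs_mul, abs_of_pos hh0, hh, mul_one_div, div_le_iff₀ (by positivity)]; linarith)
      rw [abs_mul, abs_of_pos hh0] at h4
      rw [← mul_pow, norm_mul]
      refine pow_le_pow_left₀ (by positivity) ?_ 2
      calc _ = 4 * (|(k : ℝ)| * h) * ‖c k‖ := by ring
        _ ≤ _ := by gcongr
    rw [← Finset.mul_sum] at h2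
    refine le_of_mul_le_mul_left (h2.trans (le_of_eq ?_)) (by positivity : 0 < (4 * h) ^ 2)
    ring
  have htail : ∀ (J : ℕ) (δ : ℝ), 0 < δ → 1 / (δ ^ 2 * ℓ) ≤ J → ∀ T : Finset ℤ,
      (∀ k ∈ T, (J : ℤ) ≤ |k|) → ∑ k ∈ T, ‖c k‖ ≤ δ * A := by
    intro J δ hδ hJ T hT
    have hJ0 : (0 : ℝ) < J := lt_of_lt_of_le (by positivity) hJ
    have hJ1 : 1 ≤ J := by exact_mod_cast hJ0
    have h1 := Finset.sum_mul_sq_le_sq_mul_sq T (fun k : ℤ => |(k : ℝ)| * ‖c k‖)
      (fun k : ℤ => |(k : ℝ)|⁻¹)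
    have h2 : ∑ k ∈ T, |(k : ℝ)| * ‖c k‖ * |(k : ℝ)|⁻¹ = ∑ k ∈ T, ‖c k‖ := by
      refine Finset.sum_congr rfl fun k hk => ?_
      have : (0 : ℝ) < |(k : ℝ)| := hJ0.trans_le (by exact_mod_cast hT k hk)
      field_simp
    simp only [inv_pow, sq_abs] at h1
    rw [h2] at h1
    refine (pow_le_pow_iff_left₀ (by positivity) (by positivity) two_ne_zero).1 (h1.trans ?_)
    have h3 : 1 / (J : ℝ) ≤ δ ^ 2 * ℓ := by
      rwa [one_div_le hJ0 (by positivity)]
    calc _ ≤ (L ^ 2 * ℓ / 8) * (4 / J) :=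
          mul_le_mul (hc3 T) (wn_inv_sq J hJ1 T hT) (by positivity) (by positivity)
      _ = L ^ 2 * ℓ / 2 * (1 / J) := by ring
      _ ≤ L ^ 2 * ℓ / 1 * (δ ^ 2 * ℓ) := by gcongr; norm_num
      _ = (δ * (L * ℓ)) ^ 2 := by ring
      _ ≤ _ := by gcongr
  have hall : ∀ T : Finset ℤ, ∑ k ∈ T, ‖c k‖ ≤ 10 * A := by
    intro T
    set J := ⌈1 / ℓ⌉₊ with hJ
    rw [← Finset.sum_filter_add_sum_filter_not T fun k => (J : ℤ) ≤ |k|]
    have h1 := htail J 1 one_pos (by rw [one_pow, one_mul]; exact Nat.le_ceil _) _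
      fun k hk => (Finset.mem_filter.1 hk : k ∈ T ∧ _).2
    have h2 : ∑ k ∈ T.filter fun k => ¬ (J : ℤ) ≤ |k|, ‖c k‖ ≤ 9 * A := by
      refine (pow_le_pow_iff_left₀ (by positivity) (by positivity) two_ne_zero).1
        (sq_sum_le_card_mul_sum_sq.trans ?_)
      have h3 : (T.filter fun k => ¬ (J : ℤ) ≤ |k|).card ≤ 2 * J + 1 := by
        have : (T.filter fun k => ¬ (J : ℤ) ≤ |k|) ⊆ Finset.Icc (-(J : ℤ)) J := fun k hk =>
          Finset.mem_Icc.2 (abs_le.1 (not_le.1 (Finset.mem_filter.1 hk).2).le)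
        have := Finset.card_le_card this
        rw [Int.card_Icc] at this
        omega
      have h4 : (J : ℝ) * ℓ ≤ 2 := by
        have := (Nat.ceil_lt_add_one (by positivity : 0 ≤ 1 / ℓ)).le
        calc _ ≤ (1 / ℓ + 1) * ℓ := by gcongr
          _ = 1 + ℓ := by field_simp
          _ ≤ 2 := by linarith
      calc _ ≤ ((2 * J + 1 : ℕ) : ℝ) * (A ^ 2 * ℓ) :=
            mul_le_mul (by exact_mod_cast h3) (hc2 _) (by positivity) (by positivity)
        _ = (2 * (J * ℓ) + ℓ) * A ^ 2 := by push_cast; ring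
        _ ≤ 81 * A ^ 2 := by gcongr; linarith
        _ = _ := by ring
    linarith
  have hsum : Summable c := .of_norm (summable_of_sum_le (fun _ => norm_nonneg _) hall)
  set J := ⌈1 / (ε ^ 2 * ℓ)⌉₊ with hJ
  set S : Finset ℤ := Finset.Ioo (-(J : ℤ)) J with hS
  refine ⟨Finsupp.onFinset S (fun k => if k ∈ S then c k else 0) (fun k hk => by
    by_contra h; simp [h] at hk), ?_, fun x => ?_, fun k hk => ?_⟩
  · unfold l1
    rw [Finsupp.onFinset_sum _ (by simp)]
    refine le_trans (le_of_eq (Finset.sum_congr rfl fun k hk => by rw [if_pos hk])) (hall S)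
  · unfold tev1
    rw [Finsupp.onFinset_sum _ (by simp), ← hF]
    have e : ∑ k ∈ S, (if k ∈ S then c k else 0)
        * Complex.exp (2 * Real.pi * Complex.I * (((k : ℝ) * x : ℝ) : ℂ))
        = ∑ k ∈ S, c k • fourier k (x : UnitAddCircle) := by
      refine Finset.sum_congr rfl fun k hk => ?_
      rw [if_pos hk, fourier_coe_apply, smul_eq_mul]
      congr 2; push_cast; ring
    rw [e]
    have h1 := has_pointwise_sum_fourier_series_of_summable hsum (x : UnitAddCircle)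
    refine le_of_tendsto ((Tendsto.const_sub _ h1).norm) ?_
    filter_upwards [eventually_ge_atTop S] with T hT
    rw [← Finset.sum_sdiff hT, sub_add_cancel_right, norm_neg]
    refine (norm_sum_le _ _).trans (le_trans (le_of_eq ?_)
      (htail J ε hε (Nat.le_ceil _) (T \ S) fun k hk => ?_))
    · refine Finset.sum_congr rfl fun k _ => ?_
      rw [norm_smul, fourier_apply, Circle.norm_coe, mul_one]
    · have := (Finset.mem_sdiff.1 hk).2
      rw [hS, Finset.mem_Ioo, ← abs_lt, not_lt] at this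
      exact this
  · have h1 := Finsupp.support_onFinset_subset hk
    rw [hS, Finset.mem_Ioo, ← abs_lt] at h1
    have h2 : |(k : ℝ)| + 1 ≤ J := by exact_mod_cast h1
    have h3 := (Nat.ceil_lt_add_one (by positivity : 0 ≤ 1 / (ε ^ 2 * ℓ))).le
    have h4 : 1 / (ε ^ 2 * ℓ) ≤ 10 / (ε ^ 2 * ℓ) := by gcongr; norm_num
    linarith

end Crest.Agent.R129.A
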