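import Crest.Agent.R129.A.Sym
import Crest.Agent.R129.A.Wiener
import Crest.Agent.R129.A.ThLip
import Crest.Agent.R129.A.Riem

/-! # Trigonometric approximation of the bumps (task R129/A-Apx). Statements frozen. -/

set_option autoImplicit false
open scoped BigOperators

namespace Crest.Agent.R129.A

theorem apx_prod_le {ι : Type} (s : Finset ι) (a : ι → ℂ) (B : ℝ) (ha : ∀ i, ‖a i‖ ≤ B) :
    ‖∏ i ∈ s, a i‖ ≤ B ^ s.card := by
  rw [norm_prod, ← Finset.prod_const]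
  exact Finset.prod_le_prod (fun i _ => norm_nonneg _) (fun i _ => ha i)

theorem apx_tele {ι : Type} [DecidableEq ι] (s : Finset ι) (a b : ι → ℂ) (B e : ℝ) (hB : 1 ≤ B)
    (he : 0 ≤ e) (ha : ∀ i, ‖a i‖ ≤ B) (hb : ∀ i, ‖b i‖ ≤ B) (hab : ∀ i, ‖a i - b i‖ ≤ e) :
    ‖∏ i ∈ s, a i - ∏ i ∈ s, b i‖ ≤ s.card * e * B ^ s.card := by
  induction s using Finset.induction_on with
  | empty => simp
  | insert j s hj ih =>
    rw [Finset.prod_insert hj, Finset.prod_insert hj, Finset.card_insert_of_notMem hj]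
    have e1 : a j * ∏ i ∈ s, a i - b j * ∏ i ∈ s, b i =
        (a j - b j) * ∏ i ∈ s, a i + b j * (∏ i ∈ s, a i - ∏ i ∈ s, b i) := by ring
    have hB0 : 0 ≤ B := by linarith
    have h1 : ‖(a j - b j) * ∏ i ∈ s, a i‖ ≤ e * B ^ s.card := by
      rw [norm_mul]
      exact mul_le_mul (hab j) (apx_prod_le s a B ha) (norm_nonneg _) he
    have h2 : ‖b j * (∏ i ∈ s, a i - ∏ i ∈ s, b i)‖ ≤ B * (s.card * e * B ^ s.card) := by
      rw [norm_mul]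
      exact mul_le_mul (hb j) ih (norm_nonneg _) hB0
    have h3 : e * B ^ s.card ≤ e * B ^ s.card * B :=
      le_mul_of_one_le_right (by positivity) hB
    rw [e1]
    refine (norm_add_le _ _).trans ?_
    push_cast
    rw [pow_succ]
    linarith

theorem apx_tev1_le (P : ℤ →₀ ℂ) (x : ℝ) : ‖tev1 P x‖ ≤ l1 P := by
  unfold tev1 l1 Finsupp.sum
  refine (norm_sum_le _ _).trans (le_of_eq (Finset.sum_congr rfl fun k _ => ?_))
  have : (2 * Real.pi * Complex.I * (((k : ℝ) * x : ℝ) : ℂ)) =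
      ((2 * Real.pi * ((k : ℝ) * x) : ℝ) : ℂ) * Complex.I := by
    push_cast
    ring
  rw [norm_mul, this, Complex.norm_exp_ofReal_mul_I, mul_one]

/-- Tensor product: `Q = ∑_{k ∈ piFinset supports} single k (∏ i, P i (k i))`; `tev Q x = ∏ i, tev1 (P i) (x i)`
and `l1 Q ≤ ∏ l1 (P i)` by `Finset.prod_univ_sum`; `‖tev1 (P i) y‖ ≤ l1 (P i) ≤ B`; telescoping
`‖∏ a i - ∏ b i‖ ≤ card * e * B ^ card` for factors bounded by `B ≥ 1` (induction on a Finset). -/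
theorem exists_prod {ι : Type} [Fintype ι] [DecidableEq ι] (f : ι → ℝ → ℝ) (P : ι → ℤ →₀ ℂ)
    (B e Ξ : ℝ) (hB : 1 ≤ B) (he : 0 ≤ e) (hf : ∀ i y, |f i y| ≤ B) (hP : ∀ i, l1 (P i) ≤ B)
    (herr : ∀ i x, ‖tev1 (P i) x - (f i (x - round x) : ℝ)‖ ≤ e)
    (hΞ : ∀ i, ∀ k ∈ (P i).support, |(k : ℝ)| ≤ Ξ) :
    ∃ Q : (ι → ℤ) →₀ ℂ, l1 Q ≤ B ^ Fintype.card ι ∧
      (∀ x, ‖tev Q x - ((∏ i, f i (rep x i) : ℝ) : ℂ)‖ ≤
        Fintype.card ι * e * B ^ Fintype.card ι) ∧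
      ∀ k ∈ Q.support, ∀ i, |(k i : ℝ)| ≤ Ξ := by
  let T : Finset (ι → ℤ) := Fintype.piFinset fun i => (P i).support
  have hT : ∀ k : ι → ℤ, ∏ i, P i (k i) ≠ 0 → k ∈ T := fun k hk =>
    Fintype.mem_piFinset.2 fun i => Finsupp.mem_support_iff.2
      (Finset.prod_ne_zero_iff.1 hk i (Finset.mem_univ i))
  refine ⟨Finsupp.onFinset T (fun k => ∏ i, P i (k i)) hT, ?_, fun x => ?_, fun k hk i => ?_⟩
  · rw [l1_eq_sum _ T Finsupp.support_onFinset_subset]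
    simp only [Finsupp.onFinset_apply, norm_prod]
    rw [← Finset.prod_univ_sum (fun i => (P i).support) (fun i k => ‖P i k‖), ← Finset.card_univ,
      ← Finset.prod_const]
    exact Finset.prod_le_prod (fun i _ => l1_nonneg (P i)) (fun i _ => hP i)
  · have e1 : tev (Finsupp.onFinset T (fun k => ∏ i, P i (k i)) hT) x = ∏ i, tev1 (P i) (x i) := by
      unfold tev tev1
      rw [Finsupp.onFinset_sum hT (by simp)]
      simp only [Finsupp.sum]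
      rw [Finset.prod_univ_sum]
      refine Finset.sum_congr rfl fun k _ => ?_
      rw [Finset.prod_mul_distrib, ← Complex.exp_sum, ← Finset.mul_sum, ch]
      push_cast
      rfl
    rw [e1, Complex.ofReal_prod, ← Finset.card_univ]
    refine apx_tele _ _ _ B e hB he (fun i => (apx_tev1_le _ _).trans (hP i)) (fun i => ?_)
      (fun i => herr i (x i))
    rw [Complex.norm_real, Real.norm_eq_abs]
    exact hf i _
  · exact hΞ i _ (Fintype.mem_piFinset.1 (Finsupp.support_onFinset_subset hk) i)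

theorem apx_lam {p : Par} (h : p.Ok) (m : ℤ) (sa : Bool × Idx p.n) :
    p.tau m sa.1 ≤ p.lam m sa ∧ p.lam m sa ≤ 1 / 4 := by
  have hv : (1 : ℝ) ≤ p.vr m sa.1 := by exact_mod_cast h.v0_pos.trans (h.v0_le_vr m sa.1)
  have ht := h.tau_pos m sa.1
  refine ⟨le_mul_of_one_le_right ht.le (one_le_pow₀ hv), ?_⟩
  have h1 : p.lam m sa ≤ p.tau m sa.1 * (p.vr m sa.1 : ℝ) ^ p.n :=
    mul_le_mul_of_nonneg_left (pow_le_pow_right₀ hv sa.2.dist_lt.le) ht.le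
  refine h1.trans ((h.tau_vr m sa.1).trans ?_)
  have hb : (0 : ℝ) < p.b := by
    have := h.four_le_b
    positivity
  have hP : 0 < p.P := by
    have := h.two_le_P
    exact_mod_cast (by linarith : (0 : ℝ) < p.P)
  have hK : 0 < p.K := by
    unfold Par.K
    positivity
  have h2 : 4 * p.v0 ^ p.n ≤ p.b := by
    refine le_trans ?_ h.b_ge
    refine Nat.mul_le_mul_right _ ?_
    rw [mul_assoc, mul_assoc]
    exact Nat.le_mul_of_pos_right _ (by positivity)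
  have h3 : (4 : ℝ) * (p.v0 : ℝ) ^ p.n ≤ p.b := by exact_mod_cast h2
  rw [div_le_div_iff₀ hb (by norm_num)]
  linarith

theorem apx_fac {p : Par} (h : p.Ok) (A ε : ℝ) (hA : 3 ≤ A) (hε : 0 < ε) (hε1 : ε ≤ 1) (m : ℤ)
    (hth : ∃ (L : NNReal) (a ℓ : ℝ), LipschitzWith L (p.Th m) ∧
      (∀ y, p.Th m y ≠ 0 → a < y ∧ y < a + ℓ) ∧ -(1 / 2) ≤ a ∧ a + ℓ ≤ 1 / 2 ∧
      0 < ℓ ∧ (L : ℝ) * ℓ ≤ A ∧
      1 ≤ ℓ * (4 * ((p.b : ℝ) + 1) ^ 2 * ((p.R : ℝ) ^ p.n) ^ (m.natAbs + 1))) (i : I p.n) :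
    (∀ y, |p.fac m i y| ≤ A) ∧ ∃ P : ℤ →₀ ℂ, l1 P ≤ 10 * A ∧
      (∀ x : ℝ, ‖tev1 P x - (p.fac m i (x - round x) : ℝ)‖ ≤ ε * A) ∧
      ∀ k ∈ P.support, |(k : ℝ)| ≤
        10 / ε ^ 2 * (4 * ((p.b : ℝ) + 1) ^ 2 * ((p.R : ℝ) ^ p.n) ^ (m.natAbs + 1)) := by
  have key : ∃ (L : NNReal) (a ℓ : ℝ), LipschitzWith L (p.fac m i) ∧
      (∀ y, p.fac m i y ≠ 0 → a < y ∧ y < a + ℓ) ∧ -(1 / 2) ≤ a ∧ a + ℓ ≤ 1 / 2 ∧
      0 < ℓ ∧ (L : ℝ) * ℓ ≤ A ∧
      1 ≤ ℓ * (4 * ((p.b : ℝ) + 1) ^ 2 * ((p.R : ℝ) ^ p.n) ^ (m.natAbs + 1)) := by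
    rcases i with _ | sa
    · exact hth
    · obtain ⟨h1, h2⟩ := apx_lam h m sa
      have ht := h.tau_pos m sa.1
      have hl : 0 < p.lam m sa := ht.trans_le h1
      obtain ⟨L, hL⟩ : ∃ L : NNReal, (L : ℝ) = 3 / 2 * (p.lam m sa)⁻¹ :=
        ⟨⟨3 / 2 * (p.lam m sa)⁻¹, by positivity⟩, rfl⟩
      refine ⟨L, -p.lam m sa, 2 * p.lam m sa, ?_, ?_,
        by linarith, by linarith, by positivity, ?_, ?_⟩
      · refine LipschitzWith.of_dist_le_mul fun x y => ?_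
        refine (psi_lip.dist_le_mul (x / p.lam m sa) (y / p.lam m sa)).trans (le_of_eq ?_)
        rw [Real.dist_eq, Real.dist_eq, ← sub_div, abs_div, abs_of_pos hl, hL]
        push_cast
        ring
      · intro y hy
        have h3 : |y / p.lam m sa| < 1 := psi_ne hy
        rw [abs_div, abs_of_pos hl, div_lt_one hl, abs_lt] at h3
        constructor <;> linarith [h3.1, h3.2]
      · refine le_trans (le_of_eq ?_) hA
        rw [hL]
        field_simp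
      · have h3 := h.tau_lower m sa.1
        have hP : (p.P : ℝ) = (p.R : ℝ) ^ p.n := by simp [Par.P]
        have hP2 := h.two_le_P
        rw [← hP]
        have hb : (1 : ℝ) ≤ (p.b : ℝ) + 1 := by
          have : (0 : ℝ) ≤ p.b := by positivity
          linarith
        have h4 : ((p.b : ℝ) + 1) * (p.P : ℝ) ^ m.natAbs ≤
            4 * ((p.b : ℝ) + 1) ^ 2 * (p.P : ℝ) ^ (m.natAbs + 1) := by
          refine mul_le_mul ?_ (pow_le_pow_right₀ (by linarith) (Nat.le_succ _)) (by positivity)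
            (by positivity)
          nlinarith
        calc (1 : ℝ) ≤ 2 * p.tau m sa.1 * (((p.b : ℝ) + 1) * (p.P : ℝ) ^ m.natAbs) := by linarith
          _ ≤ _ := mul_le_mul (by linarith) h4 (by positivity) (by positivity)
  obtain ⟨L, a, ℓ, k1, k2, k3, k4, k5, k6, k7⟩ := key
  obtain ⟨w1, P, w2, w3, w4⟩ := wiener (p.fac m i) L a ℓ A ε k1 k2 k3 k4 k5 k6 hε hε1
  refine ⟨w1, P, w2, w3, fun k hk => (w4 k hk).trans ?_⟩
  rw [← div_div, div_le_iff₀ k5, mul_assoc, mul_comm _ ℓ]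
  exact le_mul_of_one_le_right (by positivity) k7

/-- `A` from `th_lip`, `B = (10 A)^card`, `ε' = ε / (card A B)` (cut at `1`).  Apply `wiener` to every factor:
`Th m` by `th_lip`; `psi (· / lam)` has support in `(-lam, lam)`, Lipschitz constant `3/(2 lam)`
(`psi_lip`), `lam ≤ tau vr^n ≤ v0^n / b ≤ 1/4` (`tau_vr`, `b_ge`) and `lam ≥ tau` (`tau_lower`).  Then
`exists_prod`; `C = ⌈40 R^n / ε'²⌉₊`. -/
theorem exists_apx (n R : ℕ) : ∃ B : ℝ, 1 ≤ B ∧ ∀ ε : ℝ, 0 < ε → ∃ C : ℕ, ∀ v0 b : ℕ,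
    (Par.mk n R v0 b).Ok → ∃ f : ℤ → (I n → ℤ) →₀ ℂ, ∀ m : ℤ,
      l1 (f m) ≤ B ∧ (∀ x, |(Par.mk n R v0 b).G m x| ≤ B) ∧
      (∀ x, ‖tev (f m) x - (((Par.mk n R v0 b).G m (rep x) : ℝ) : ℂ)‖ ≤ ε) ∧
      ∀ k ∈ (f m).support, ∀ i, |k i| ≤ ((C * (b + 1) ^ 2 * (R ^ n) ^ m.natAbs : ℕ) : ℤ) := by
  obtain ⟨A, hA, hth⟩ := th_lip n R
  set c : ℕ := Fintype.card (I n) with hc
  have hB1 : 1 ≤ 10 * A := by linarith
  have hA0 : 0 < A := by linarith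
  refine ⟨(10 * A) ^ c, one_le_pow₀ hB1, fun ε hε => ?_⟩
  set ε' : ℝ := min 1 (ε / (c * A * (10 * A) ^ c + 1)) with hε'
  have hε0 : 0 < ε' := lt_min one_pos (by positivity)
  refine ⟨⌈40 * (R : ℝ) ^ n / ε' ^ 2⌉₊, fun v0 b h => ?_⟩
  have key : ∀ m : ℤ, ∃ Q : (I n → ℤ) →₀ ℂ,
      l1 Q ≤ (10 * A) ^ c ∧ (∀ x, |(Par.mk n R v0 b).G m x| ≤ (10 * A) ^ c) ∧
      (∀ x, ‖tev Q x - (((Par.mk n R v0 b).G m (rep x) : ℝ) : ℂ)‖ ≤ ε) ∧
      ∀ k ∈ Q.support, ∀ i,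
        |k i| ≤ ((⌈40 * (R : ℝ) ^ n / ε' ^ 2⌉₊ * (b + 1) ^ 2 * (R ^ n) ^ m.natAbs : ℕ) : ℤ) := by
    intro m
    have hf := apx_fac h A ε' hA hε0 (min_le_left _ _) m (hth v0 b h m)
    choose hf1 P hP1 hP2 hP3 using hf
    have hf2 : ∀ i y, |(Par.mk n R v0 b).fac m i y| ≤ 10 * A := fun i y =>
      (hf1 i y).trans (by linarith)
    obtain ⟨Q, hQ1, hQ2, hQ3⟩ := exists_prod (ι := I n) ((Par.mk n R v0 b).fac m) P (10 * A) (ε' * A) _
      hB1 (by positivity) hf2 hP1 hP2 hP3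
    refine ⟨Q, hQ1, fun x => ?_, fun x => (hQ2 x).trans ?_, fun k hk i => ?_⟩
    · unfold Par.G
      rw [Finset.abs_prod, hc, ← Finset.card_univ, ← Finset.prod_const]
      exact Finset.prod_le_prod (fun i _ => abs_nonneg _) (fun i _ => hf2 i _)
    · have h1 : ε' * (c * A * (10 * A) ^ c + 1) ≤ ε := by
        rw [← le_div_iff₀ (by positivity)]
        exact min_le_right _ _
      rw [← hc]
      nlinarith
    · have h1 := hQ3 k hk i
      have h2 : 40 * (R : ℝ) ^ n / ε' ^ 2 ≤ ⌈40 * (R : ℝ) ^ n / ε' ^ 2⌉₊ := Nat.le_ceil _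
      have h3 : |(k i : ℝ)| ≤
          (⌈40 * (R : ℝ) ^ n / ε' ^ 2⌉₊ : ℝ) * (((b : ℝ) + 1) ^ 2 * ((R : ℝ) ^ n) ^ m.natAbs) := by
        refine h1.trans (le_trans (le_of_eq ?_) (mul_le_mul_of_nonneg_right h2 (by positivity)))
        rw [pow_succ ((R : ℝ) ^ n)]
        ring
      rw [← mul_assoc] at h3
      exact_mod_cast h3
  choose f hf using key
  exact ⟨f, hf⟩

end Crest.Agent.R129.A
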