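import Crest.Agent.R129.A.Defs

/-! # Banded matrices of convolution operators (task R129/A-Band).  Statements frozen; add lemmas
freely.  Use the kernel calculus `Crest.Agent.R129.Ker` (`schur₁`, `mat_ext`, `hasSum_mat_comp`,
`mat_adj`, `emb`, `norm_le_of_blocks`, ...). -/

set_option autoImplicit false
open scoped BigOperators Matrix

namespace Crest.Agent.R129.A
variable {A : Type}

theorem l1_nonneg (a : A →₀ ℂ) : 0 ≤ l1 a := by
  exact Finset.sum_nonneg fun _ _ => norm_nonneg _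

theorem l1_eq_sum (a : A →₀ ℂ) (s : Finset A) (hs : a.support ⊆ s) : l1 a = ∑ x ∈ s, ‖a x‖ := by
  unfold l1
  exact Finsupp.sum_of_support_subset a hs (fun _ c => ‖c‖) (fun _ _ => norm_zero)

theorem sum_norm_le_l1 (a : A →₀ ℂ) (s : Finset A) : ∑ x ∈ s, ‖a x‖ ≤ l1 a := by
  classical
  rw [l1_eq_sum a (s ∪ a.support) Finset.subset_union_right]
  exact Finset.sum_le_sum_of_subset_of_nonneg Finset.subset_union_left fun _ _ _ => norm_nonneg _

theorem l1_zero : l1 (0 : A →₀ ℂ) = 0 := by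
  simp [l1]

theorem l1_single (x : A) (c : ℂ) : l1 (Finsupp.single x c) = ‖c‖ := by
  unfold l1
  exact Finsupp.sum_single_index norm_zero

theorem l1_add_le (a b : A →₀ ℂ) : l1 (a + b) ≤ l1 a + l1 b := by
  classical
  rw [l1_eq_sum (a + b) (a + b).support le_rfl]
  calc ∑ x ∈ (a + b).support, ‖(a + b) x‖ ≤ ∑ x ∈ (a + b).support, (‖a x‖ + ‖b x‖) :=
        Finset.sum_le_sum fun x _ => by rw [Finsupp.add_apply]; exact norm_add_le _ _
    _ ≤ _ := by
        rw [Finset.sum_add_distrib]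
        exact add_le_add (sum_norm_le_l1 _ _) (sum_norm_le_l1 _ _)

theorem l1_sub_le (a b : A →₀ ℂ) : l1 (a - b) ≤ l1 a + l1 b := by
  classical
  rw [l1_eq_sum (a - b) (a - b).support le_rfl]
  calc ∑ x ∈ (a - b).support, ‖(a - b) x‖ ≤ ∑ x ∈ (a - b).support, (‖a x‖ + ‖b x‖) :=
        Finset.sum_le_sum fun x _ => by rw [Finsupp.sub_apply]; exact norm_sub_le _ _
    _ ≤ _ := by
        rw [Finset.sum_add_distrib]
        exact add_le_add (sum_norm_le_l1 _ _) (sum_norm_le_l1 _ _)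

theorem l1_smul (c : ℂ) (a : A →₀ ℂ) : l1 (c • a) = ‖c‖ * l1 a := by
  rw [l1_eq_sum (c • a) a.support Finsupp.support_smul, l1_eq_sum a a.support le_rfl,
    Finset.mul_sum]
  exact Finset.sum_congr rfl fun x _ => by rw [Finsupp.smul_apply, smul_eq_mul, norm_mul]

theorem l1_sum_le {ι : Type} (s : Finset ι) (a : ι → A →₀ ℂ) :
    l1 (∑ i ∈ s, a i) ≤ ∑ i ∈ s, l1 (a i) := by
  classical
  induction s using Finset.induction_on with
  | empty => simp [l1_zero]
  | insert i s hi ih =>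
    rw [Finset.sum_insert hi, Finset.sum_insert hi]
    exact (l1_add_le _ _).trans (by linarith)

theorem l1_mapDomain_le {B : Type} (f : A → B) (a : A →₀ ℂ) : l1 (a.mapDomain f) ≤ l1 a := by
  unfold Finsupp.mapDomain
  rw [Finsupp.sum]
  refine (l1_sum_le _ _).trans (le_of_eq ?_)
  simp only [l1_single]
  rfl

variable [Group A]

theorem l1_mul_le (a b : MonoidAlgebra ℂ A) : l1 (a * b).coeff ≤ l1 a.coeff * l1 b.coeff := by
  rw [MonoidAlgebra.mul_def, Finsupp.sum, MonoidAlgebra.coeff_sum]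
  refine (l1_sum_le _ _).trans ?_
  rw [l1_eq_sum a.coeff a.coeff.support le_rfl, Finset.sum_mul]
  refine Finset.sum_le_sum fun x _ => ?_
  rw [Finsupp.sum, MonoidAlgebra.coeff_sum]
  refine (l1_sum_le _ _).trans (le_of_eq ?_)
  rw [l1_eq_sum b.coeff b.coeff.support le_rfl, Finset.mul_sum]
  refine Finset.sum_congr rfl fun y _ => ?_
  rw [MonoidAlgebra.coeff_single, l1_single, norm_mul]

theorem adjM_adjM (a : MonoidAlgebra ℂ A) : adjM (adjM a) = a := by
  apply MonoidAlgebra.coeff_injective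
  ext x
  rw [adjM_coeff, adjM_coeff, inv_inv, Complex.conj_conj]

omit [Group A] in
theorem sum_norm_comp_le_l1 {B : Type} (a : A →₀ ℂ) (f : B → A) (hf : Function.Injective f)
    (s : Finset B) : ∑ x ∈ s, ‖a (f x)‖ ≤ l1 a := by
  have := sum_norm_le_l1 a (s.map ⟨f, hf⟩)
  rwa [Finset.sum_map] at this

theorem l1_adjM (a : MonoidAlgebra ℂ A) : l1 (adjM a).coeff = l1 a.coeff := by
  have key : ∀ b : MonoidAlgebra ℂ A, l1 (adjM b).coeff ≤ l1 b.coeff := fun b => by
    rw [l1_eq_sum _ (adjM b).coeff.support le_rfl]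
    simp only [adjM_coeff, RCLike.norm_conj]
    exact sum_norm_comp_le_l1 b.coeff (fun x => x⁻¹) inv_injective _
  refine le_antisymm (key a) ?_
  have := key (adjM a)
  rwa [adjM_adjM] at this

theorem adjM_zero : adjM (0 : MonoidAlgebra ℂ A) = 0 := by
  apply MonoidAlgebra.coeff_injective
  ext x
  rw [adjM_coeff]; simp

theorem cvop_schur (a : MonoidAlgebra ℂ A) :
    (∀ p q, mat (cvop a) p q = a.coeff (p * q⁻¹)) ∧
      ‖cvop a‖ ≤ Real.sqrt (l1 a.coeff * l1 a.coeff) := by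
  unfold cvop
  refine schur₁ _ _ _ (l1_nonneg _) (l1_nonneg _) (fun p s => ?_) (fun q s => ?_)
  · exact sum_norm_comp_le_l1 a.coeff (fun q => p * q⁻¹)
      (fun x y h => inv_injective (mul_left_cancel h)) s
  · exact sum_norm_comp_le_l1 a.coeff (fun p => p * q⁻¹) (fun x y h => mul_right_cancel h) s

theorem norm_cvop_le_l1 (a : MonoidAlgebra ℂ A) : ‖cvop a‖ ≤ l1 a.coeff := by
  have := (cvop_schur a).2
  rwa [Real.sqrt_mul_self (l1_nonneg _)] at this

omit [Group A] in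
theorem band_sum_le (f : A × ℤ → ℝ) (hf : ∀ q, 0 ≤ f q) (c : ℤ) (w : ℕ) (L : ℝ)
    (h0 : ∀ q : A × ℤ, (w : ℤ) < |c - q.2| → f q = 0)
    (h1 : ∀ i (t : Finset A), ∑ x ∈ t, f (x, i) ≤ L) (s : Finset (A × ℤ)) :
    ∑ q ∈ s, f q ≤ (2 * w + 1) * L := by
  classical
  have e : ∑ q ∈ s, f q = ∑ q ∈ s.filter (fun q => q.2 ∈ Finset.Icc (c - w) (c + w)), f q := by
    rw [Finset.sum_filter_of_ne]
    intro q _ hq
    by_contra hc
    refine hq (h0 q ?_)
    rw [Finset.mem_Icc] at hc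
    rw [lt_abs]; omega
  rw [e]
  calc _ ≤ ∑ q ∈ (s.image Prod.fst) ×ˢ Finset.Icc (c - w) (c + w), f q := by
        refine Finset.sum_le_sum_of_subset_of_nonneg (fun q hq => ?_) fun _ _ _ => hf _
        rw [Finset.mem_filter] at hq
        exact Finset.mem_product.2 ⟨Finset.mem_image_of_mem _ hq.1, hq.2⟩
    _ = ∑ i ∈ Finset.Icc (c - w) (c + w), ∑ x ∈ s.image Prod.fst, f (x, i) :=
        Finset.sum_product_right _ _ _
    _ ≤ ∑ _i ∈ Finset.Icc (c - w) (c + w), L := Finset.sum_le_sum fun i _ => h1 i _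
    _ = (2 * w + 1) * L := by
        rw [Finset.sum_const, Int.card_Icc, nsmul_eq_mul]
        congr 1
        have : (c + w + 1 - (c - w)).toNat = 2 * w + 1 := by omega
        rw [this]; push_cast; ring

/-- `schur₁` with `α = β = l1 a.coeff` (the maps `q ↦ p * q⁻¹`, `p ↦ p * q⁻¹` are injective). -/
theorem mat_cvop (a : MonoidAlgebra ℂ A) (p q : A) : mat (cvop a) p q = a.coeff (p * q⁻¹) := by
  exact (cvop_schur a).1 p q

/-- `schur₁` with `α = β = (2 w + 1) L`. -/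
theorem mat_Bnd {X : ℤ → ℤ → MonoidAlgebra ℂ A} {w : ℕ} {L : ℝ} (h : Band X w L) (p q : A × ℤ) :
    mat (Bnd X) p q = (X p.2 q.2).coeff (p.1 * q.1⁻¹) := by
  have hL : 0 ≤ L := (l1_nonneg _).trans (h.2 0 0)
  have hα : 0 ≤ (2 * (w : ℝ) + 1) * L := by positivity
  unfold Bnd
  refine (schur₁ _ _ _ hα hα (fun p s => ?_) (fun q s => ?_)).1 p q
  · refine band_sum_le _ (fun _ => norm_nonneg _) p.2 w L (fun q hq => ?_) (fun i t => ?_) s
    · rw [h.1 _ _ hq]; simp
    · exact (sum_norm_comp_le_l1 (X p.2 i).coeff (fun q => p.1 * q⁻¹)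
        (fun x y h => inv_injective (mul_left_cancel h)) t).trans (h.2 _ _)
  · refine band_sum_le _ (fun _ => norm_nonneg _) q.2 w L (fun p hp => ?_) (fun i t => ?_) s
    · rw [h.1 _ _ (by rwa [abs_sub_comm])]; simp
    · exact (sum_norm_comp_le_l1 (X i q.2).coeff (fun p => p * q.1⁻¹)
        (fun x y h => mul_right_cancel h) t).trans (h.2 _ _)

theorem emb_apply_eq {I J : Type} {f : I → J} (hf : Function.Injective f) (ξ : L2 I) (i : I) :
    (emb f ξ : J → ℂ) (f i) = (ξ : I → ℂ) i := by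
  classical
  have h := hasSum_apply (emb f) ξ (f i)
  simp only [mat_emb hf] at h
  refine h.unique ?_
  have := hasSum_single (f := fun i' => (if f i = f i' then (1 : ℂ) else 0) * (ξ : I → ℂ) i') i
    (fun i' hi' => by rw [if_neg (fun e => hi' (hf e).symm), zero_mul])
  simpa using this

theorem emb_apply_ne {I J : Type} {f : I → J} (hf : Function.Injective f) (ξ : L2 I) (j : J)
    (hj : ∀ i, j ≠ f i) : (emb f ξ : J → ℂ) j = 0 := by
  classical
  have h := hasSum_apply (emb f) ξ j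
  simp only [mat_emb hf, if_neg (hj _), zero_mul] at h
  exact h.unique hasSum_zero

theorem emb_dl {I J : Type} {f : I → J} (hf : Function.Injective f) (i : I) :
    emb f (dl i) = dl (f i) := by
  classical
  ext j
  rw [dl_apply]
  have := mat_emb hf j i
  unfold mat at this
  rw [this]

theorem mat_comp_emb {I J K : Type} {f : I → J} (hf : Function.Injective f)
    (T : L2 J →L[ℂ] L2 K) (k : K) (i : I) : mat (T ∘L emb f) k i = mat T k (f i) := by
  unfold mat
  rw [ContinuousLinearMap.comp_apply, emb_dl hf]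

/-- `Bnd X = ∑_{|d| ≤ w} Bnd (X on the diagonal j - i = d)` (`mat_ext`, `mat_sum`); each diagonal is
block diagonal (`norm_le_of_blocks` with `c = Prod.snd`, `c' p = p.2 - d`), and on a vector supported
in the block `i` it acts as `emb (·, i + d) ∘ cvop (X (i + d) i) ∘ adj (emb (·, i))`. -/
theorem norm_Bnd_le {X : ℤ → ℤ → MonoidAlgebra ℂ A} {w : ℕ} {L : ℝ} (h : Band X w L) (r : ℝ)
    (hr : ∀ j i, ‖cvop (X j i)‖ ≤ r) : ‖Bnd X‖ ≤ (2 * w + 1) * r := by
  classical
  have hr0 : 0 ≤ r := (norm_nonneg _).trans (hr 0 0)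
  have hL : 0 ≤ L := (l1_nonneg _).trans (h.2 0 0)
  let D : ℤ → ℤ → ℤ → MonoidAlgebra ℂ A := fun d j i => if j - i = d then X j i else 0
  have hD : ∀ d, Band (D d) w L := fun d => by
    refine ⟨fun j i hji => ?_, fun j i => ?_⟩
    · simp only [D, h.1 j i hji, ite_self]
    · simp only [D]
      split_ifs
      · exact h.2 j i
      · rw [MonoidAlgebra.coeff_zero, l1_zero]; exact hL
  have e : Bnd X = ∑ d ∈ Finset.Icc (-(w : ℤ)) w, Bnd (D d) := by
    refine mat_ext fun p q => ?_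
    rw [mat_sum, mat_Bnd h]
    simp only [mat_Bnd (hD _), D]
    by_cases hw : (w : ℤ) < |p.2 - q.2|
    · rw [h.1 _ _ hw]; simp
    · rw [Finset.sum_eq_single (p.2 - q.2)]
      · rw [if_pos rfl]
      · intro d _ hd
        rw [if_neg (Ne.symm hd)]; simp
      · intro hn
        exfalso; apply hn
        rw [Finset.mem_Icc]; rw [not_lt, abs_le] at hw; exact hw
  have hn : ∀ d, ‖Bnd (D d)‖ ≤ r := fun d => by
    refine norm_le_of_blocks _ Prod.snd (fun p => p.2 - d) (fun p q hpq => ?_) r hr0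
      (fun i ξ hξ => ?_)
    · rw [mat_Bnd (hD d)] at hpq
      simp only [D] at hpq
      by_contra hc
      rw [if_neg (by omega)] at hpq
      simp at hpq
    · have hi : ∀ l : ℤ, Function.Injective fun a : A => (a, l) :=
        fun l a b hab => congrArg Prod.fst hab
      have e1 : ξ = emb (fun a : A => (a, i)) (adj (emb fun a : A => (a, i)) ξ) := by
        ext q
        by_cases hq : q.2 = i
        · have : q = (q.1, i) := Prod.ext rfl hq
          rw [this, emb_apply_eq (hi i), adj_emb_apply (hi i)]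
        · rw [emb_apply_ne (hi i) _ _ (fun a ha => hq (congrArg Prod.snd ha))]
          by_contra hc
          exact hq (hξ q hc)
      have e2 : Bnd (D d) ∘L emb (fun a : A => (a, i)) =
          emb (fun a : A => (a, i + d)) ∘L cvop (X (i + d) i) := by
        refine mat_ext fun p a => ?_
        rw [mat_comp_emb (hi i), mat_Bnd (hD d)]
        simp only [D]
        by_cases hp : p.2 = i + d
        · have : p = (p.1, i + d) := Prod.ext rfl hp
          rw [if_pos (by omega), hp]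
          conv_rhs => rw [this]
          unfold mat
          rw [ContinuousLinearMap.comp_apply, emb_apply_eq (hi (i + d))]
          exact (mat_cvop _ _ _).symm
        · rw [if_neg (by omega)]
          unfold mat
          rw [ContinuousLinearMap.comp_apply,
            emb_apply_ne (hi (i + d)) _ _ (fun a ha => hp (congrArg Prod.snd ha))]
          simp
      set η := adj (emb fun a : A => (a, i)) ξ with hη
      have e3 : Bnd (D d) ξ = emb (fun a : A => (a, i + d)) (cvop (X (i + d) i) η) := by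
        conv_lhs => rw [e1]
        exact congrArg (fun T : L2 A →L[ℂ] L2 (A × ℤ) => T η) e2
      have e4 : ‖ξ‖ = ‖η‖ := by
        conv_lhs => rw [e1]
        exact norm_emb_apply (hi i) η
      rw [e3, norm_emb_apply (hi _), e4]
      exact ((cvop _).le_opNorm η).trans (mul_le_mul_of_nonneg_right (hr _ _) (norm_nonneg _))
  rw [e]
  refine (norm_sum_le _ _).trans ((Finset.sum_le_sum fun d _ => hn d).trans (le_of_eq ?_))
  rw [Finset.sum_const, Int.card_Icc, nsmul_eq_mul]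
  congr 1
  have : ((w : ℤ) + 1 - (-w)).toNat = 2 * w + 1 := by omega
  rw [this]; push_cast; ring

/-- `cvop (X j i) = adj (emb (·, j)) ∘ Bnd X ∘ emb (·, i)`. -/
theorem norm_cvop_le_Bnd {X : ℤ → ℤ → MonoidAlgebra ℂ A} {w : ℕ} {L : ℝ} (h : Band X w L)
    (j i : ℤ) : ‖cvop (X j i)‖ ≤ ‖Bnd X‖ := by
  have hi : ∀ l : ℤ, Function.Injective fun a : A => (a, l) :=
    fun l a b hab => congrArg Prod.fst hab
  have e : cvop (X j i) =
      adj (emb fun a : A => (a, j)) ∘L (Bnd X ∘L emb fun a : A => (a, i)) := by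
    refine mat_ext fun p q => ?_
    rw [mat_cvop]
    have := mat_comp_emb (hi i) (Bnd X) (p, j) q
    rw [mat_Bnd h] at this
    unfold mat at this ⊢
    rw [ContinuousLinearMap.comp_apply, adj_emb_apply (hi j), this]
  have hn : ∀ l : ℤ, ‖emb fun a : A => (a, l)‖ ≤ 1 := fun l =>
    ContinuousLinearMap.opNorm_le_bound _ zero_le_one fun ξ => by
      rw [norm_emb_apply (hi l), one_mul]
  rw [e]
  calc _ ≤ ‖adj (emb fun a : A => (a, j))‖ * (‖Bnd X‖ * ‖emb fun a : A => (a, i)‖) :=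
        (ContinuousLinearMap.opNorm_comp_le _ _).trans
          (mul_le_mul_of_nonneg_left (ContinuousLinearMap.opNorm_comp_le _ _) (norm_nonneg _))
    _ ≤ 1 * (‖Bnd X‖ * 1) := by
        have : ‖adj (emb fun a : A => (a, j))‖ = ‖emb fun a : A => (a, j)‖ :=
          LinearIsometryEquiv.norm_map _ _
        rw [this]
        gcongr
        · exact hn j
        · exact hn i
    _ = _ := by ring

theorem hasSum_conv (a b : MonoidAlgebra ℂ A) (p q : A) :
    HasSum (fun r => a.coeff (p * r⁻¹) * b.coeff (r * q⁻¹)) ((a * b).coeff (p * q⁻¹)) := by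
  rw [MonoidAlgebra.coeff_mul_apply_left, Finsupp.sum]
  have h : HasSum (fun x => a.coeff x * b.coeff (x⁻¹ * (p * q⁻¹)))
      (∑ x ∈ a.coeff.support, a.coeff x * b.coeff (x⁻¹ * (p * q⁻¹))) :=
    hasSum_sum_of_ne_finset_zero fun x hx => by
      rw [Finsupp.notMem_support_iff.1 hx, zero_mul]
  have := ((Equiv.inv A).trans (Equiv.mulLeft p)).hasSum_iff.2 h
  refine this.congr_fun ?_
  intro r
  simp [mul_assoc]

theorem mat_comp_band {X Y : ℤ → ℤ → MonoidAlgebra ℂ A} {T T' : L2 (A × ℤ) →L[ℂ] L2 (A × ℤ)}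
    (hT : ∀ p q, mat T p q = (X p.2 q.2).coeff (p.1 * q.1⁻¹))
    (hT' : ∀ p q, mat T' p q = (Y p.2 q.2).coeff (p.1 * q.1⁻¹))
    (s : ℤ → ℤ → Finset ℤ) (hs : ∀ j l i, X j l * Y l i ≠ 0 → l ∈ s j i) (p q : A × ℤ) :
    mat (T ∘L T') p q = (∑ l ∈ s p.2 q.2, X p.2 l * Y l q.2).coeff (p.1 * q.1⁻¹) := by
  have h := hasSum_mat_comp T T' p q
  simp only [hT, hT'] at h
  have h' := (Equiv.prodComm ℤ A).hasSum_iff.2 h
  have h2 := h'.prod_fiberwise (g := fun l => (X p.2 l * Y l q.2).coeff (p.1 * q.1⁻¹))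
    (fun l => hasSum_conv (X p.2 l) (Y l q.2) p.1 q.1)
  refine h2.unique ?_
  rw [MonoidAlgebra.coeff_sum, Finsupp.finsetSum_apply]
  refine hasSum_sum_of_ne_finset_zero fun l hl => ?_
  have : X p.2 l * Y l q.2 = 0 := by
    by_contra hc
    exact hl (hs _ _ _ hc)
  rw [this]; simp

/-- First show `Bnd X ∘L Bnd Y = Bnd (fun j i => ∑ l ∈ s j i, X j l * Y l i)` whenever `s j i`
contains all `l` with `X j l * Y l i ≠ 0` (`hasSum_mat_comp`, `HasSum.unique`,
`MonoidAlgebra.coeff_mul`, reindex `x ↦ p * x⁻¹`), and `adj (Bnd X) = Bnd (fun i j => adjM (X j i))`. -/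
theorem Bnd_tri {X : ℤ → ℤ → MonoidAlgebra ℂ A} {L : ℝ}
    (hX : ∀ j i, X j i ≠ 0 → i = j + 1 ∨ i = j - 1) (hL : ∀ j i, l1 (X j i).coeff ≤ L) :
    Band X 1 L ∧ (∃ L', Band (tri X) 3 L') ∧
      Bnd X ∘L adj (Bnd X) ∘L Bnd X - Bnd X = Bnd (tri X) := by
  classical
  have hL0 : 0 ≤ L := (l1_nonneg _).trans (hL 0 0)
  have hB : Band X 1 L := by
    refine ⟨fun j i hji => ?_, hL⟩
    by_contra hc
    rcases hX j i hc with rfl | rfl <;> simp at hji
  refine ⟨hB, ⟨2 * (2 * (L * L * L)) + L, fun j i hji => ?_, fun j i => ?_⟩, ?_⟩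
  · unfold tri
    have h0 : X j i = 0 := hB.1 j i (by push_cast at hji ⊢; omega)
    rw [h0, sub_zero]
    refine Finset.sum_eq_zero fun i' hi' => Finset.sum_eq_zero fun j' hj' => ?_
    have : X j' i' = 0 := by
      by_contra hc
      have := hX _ _ hc
      simp only [Finset.mem_insert, Finset.mem_singleton] at hi' hj'
      rw [lt_abs] at hji
      push_cast at hji
      omega
    rw [this, adjM_zero, mul_zero, zero_mul]
  · unfold tri
    rw [MonoidAlgebra.coeff_sub]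
    refine (l1_sub_le _ _).trans (add_le_add ?_ (hL j i))
    have two : ∀ (c : ℤ) (f : ℤ → MonoidAlgebra ℂ A) (M : ℝ), (∀ x, l1 (f x).coeff ≤ M) →
        l1 (∑ x ∈ ({c - 1, c + 1} : Finset ℤ), f x).coeff ≤ 2 * M := fun c f M hM => by
      rw [Finset.sum_pair (by omega), MonoidAlgebra.coeff_add]
      exact (l1_add_le _ _).trans (by linarith [hM (c - 1), hM (c + 1)])
    refine two _ _ _ fun i' => two _ _ _ fun j' => ?_
    refine (l1_mul_le _ _).trans (mul_le_mul ((l1_mul_le _ _).trans ?_) (hL _ _) (l1_nonneg _)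
      (by positivity))
    rw [l1_adjM]
    exact mul_le_mul (hL _ _) (hL _ _) (l1_nonneg _) hL0
  · symm
    unfold Bnd
    refine eq_kop fun p q => ?_
    change mat (Bnd X ∘L adj (Bnd X) ∘L Bnd X - Bnd X) p q = _
    have hadj : ∀ p q : A × ℤ, mat (adj (Bnd X)) p q =
        ((fun i j => adjM (X j i)) p.2 q.2).coeff (p.1 * q.1⁻¹) := fun p q => by
      rw [mat_adj, mat_Bnd hB, adjM_coeff, mul_inv_rev, inv_inv]
    have h1 := mat_comp_band (X := fun i j => adjM (X j i)) (Y := X) hadj (mat_Bnd hB) (fun _ i => {i - 1, i + 1})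
      (fun i' l i hl => by
        have : X l i ≠ 0 := fun e => hl (by rw [e, mul_zero])
        have := hX _ _ this
        simp only [Finset.mem_insert, Finset.mem_singleton]
        omega)
    have h2 := mat_comp_band (X := X)
      (Y := fun i' i => ∑ l ∈ ({i - 1, i + 1} : Finset ℤ), adjM (X l i') * X l i)
      (mat_Bnd hB) h1 (fun j _ => {j - 1, j + 1})
      (fun j l i hl => by
        have : X j l ≠ 0 := fun e => hl (by rw [e, zero_mul])
        have := hX _ _ this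
        simp only [Finset.mem_insert, Finset.mem_singleton]
        omega)
    rw [mat_sub, h2, mat_Bnd hB]
    unfold tri
    rw [MonoidAlgebra.coeff_sub, Finsupp.sub_apply]
    simp only [Finset.mul_sum, mul_assoc]

/-- `Z = V* V`; `‖V‖⁴ = ‖Z Z‖ ≤ ‖V‖ / 16 + ‖V‖²` gives `‖V‖ ≤ 2`, so `‖Z Z - Z‖ ≤ 1 / 8` and
`‖(Z - 1/2) ξ‖² = re ⟪ξ, (Z Z - Z) ξ⟫ + ‖ξ‖² / 4 ≥ ‖ξ‖² / 8`. -/
theorem gap_of_tri {J : Type} (V : L2 J →L[ℂ] L2 J) (h : ‖V ∘L adj V ∘L V - V‖ ≤ 1 / 16) :
    Gap (adj V ∘L V) (1 / 2) (1 / 4) := by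
  have hZa : adj (adj V ∘L V) = adj V ∘L V := by
    unfold adj
    rw [ContinuousLinearMap.adjoint_comp, ContinuousLinearMap.adjoint_adjoint]
  set Z := adj V ∘L V with hZ
  have hV : ‖adj V‖ = ‖V‖ := LinearIsometryEquiv.norm_map _ _
  have h1 : ‖Z‖ = ‖V‖ * ‖V‖ := ContinuousLinearMap.norm_adjoint_comp_self V
  have h2 : ‖Z ∘L Z‖ = ‖Z‖ * ‖Z‖ := by
    have := ContinuousLinearMap.norm_adjoint_comp_self Z
    rwa [show ContinuousLinearMap.adjoint Z = Z from hZa] at this
  have h3 : Z ∘L Z - Z = adj V ∘L (V ∘L adj V ∘L V - V) := by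
    rw [ContinuousLinearMap.comp_sub, hZ]
    rfl
  have h4 : ‖Z ∘L Z - Z‖ ≤ ‖V‖ * (1 / 16) := by
    rw [h3]
    refine (ContinuousLinearMap.opNorm_comp_le _ _).trans ?_
    rw [hV]
    exact mul_le_mul_of_nonneg_left h (norm_nonneg _)
  have h5 : ‖V‖ ≤ 2 := by
    have : ‖Z ∘L Z‖ ≤ ‖Z ∘L Z - Z‖ + ‖Z‖ := by
      have := norm_add_le (Z ∘L Z - Z) Z
      rwa [sub_add_cancel] at this
    rw [h2, h1] at this
    by_contra hc
    push Not at hc
    have hv : 4 < ‖V‖ * ‖V‖ := by nlinarith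
    nlinarith
  have h6 : ‖Z ∘L Z - Z‖ ≤ 1 / 8 := by linarith
  clear_value Z
  intro ξ
  have e1 : ‖Z ξ - (((1 / 2 : ℝ) : ℝ) : ℂ) • ξ‖ ^ 2 =
      RCLike.re (inner ℂ ξ ((Z ∘L Z - Z) ξ)) + ‖ξ‖ ^ 2 / 4 := by
    rw [@norm_sub_sq ℂ, sub_apply, ContinuousLinearMap.comp_apply,
      inner_sub_right, map_sub]
    have a1 : inner ℂ ξ (Z (Z ξ)) = inner ℂ (Z ξ) (Z ξ) := by
      conv_lhs => rw [← hZa]
      rw [ContinuousLinearMap.adjoint_inner_right, hZa]
    rw [a1, inner_self_eq_norm_sq, inner_smul_right, norm_smul, Complex.norm_real,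
      inner_re_symm ξ]
    simp only [RCLike.re_to_complex, Complex.re_ofReal_mul]
    rw [Real.norm_eq_abs, abs_of_pos (by norm_num : (0 : ℝ) < 1 / 2)]
    ring
  have e2 : -(1 / 8 * ‖ξ‖ ^ 2) ≤ RCLike.re (inner ℂ ξ ((Z ∘L Z - Z) ξ)) := by
    have a1 : |RCLike.re (inner ℂ ξ ((Z ∘L Z - Z) ξ))| ≤ ‖ξ‖ * ‖(Z ∘L Z - Z) ξ‖ :=
      (RCLike.abs_re_le_norm _).trans (norm_inner_le_norm _ _)
    have a2 : ‖(Z ∘L Z - Z) ξ‖ ≤ 1 / 8 * ‖ξ‖ :=
      ((Z ∘L Z - Z).le_opNorm ξ).trans (mul_le_mul_of_nonneg_right h6 (norm_nonneg _))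
    have a3 := (abs_le.1 a1).1
    nlinarith [norm_nonneg ξ]
  refine le_of_sq_le_sq ?_ (norm_nonneg _)
  rw [e1]
  nlinarith [sq_nonneg ‖ξ‖]

end Crest.Agent.R129.A
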