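import Crest.Agent.R129.A.Sym

/-! # The bracket calculus (task R129/A-Br). Statements frozen. -/

set_option autoImplicit false
open scoped BigOperators Matrix

namespace Crest.Agent.R129.A
variable {ι N : Type} [Fintype ι] [DecidableEq ι] [Group N] {ρ : N →* Matrix ι ι ℤ}

omit [Fintype ι] [DecidableEq ι] in
/-- `round x = ⌊x + 1/2⌋` (`round_eq`) -/
theorem rep_of_inQ {x : ι → ℝ} (h : InQ x) : rep x = x := by
  funext i
  unfold rep
  rw [round_eq_zero_iff.2 ⟨(h i).1, (h i).2⟩]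
  simp

omit [Fintype ι] [DecidableEq ι] in
theorem rep_add_int (x : ι → ℝ) (k : ι → ℤ) : rep (x + fun i => (k i : ℝ)) = rep x := by
  funext i
  simp only [rep, Pi.add_apply, round_add_intCast]
  push_cast; ring

/-- `x = rep x + integer`, `act_add`, `act_int`, `aff_act`. -/
theorem rep_act (L : Loc ρ) (g : N) (x : ι → ℝ) (h : InQ (L.aff g (rep x))) :
    rep (act ρ g x) = L.aff g (rep x) := by
  obtain ⟨k, hk⟩ := L.aff_act g (rep x)
  have e : x = rep x + fun i => ((round (x i) : ℤ) : ℝ) := by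
    funext i; simp [rep]
  have e2 : act ρ g x =
      L.aff g (rep x) + fun i => (((ρ g *ᵥ fun j => round (x j)) - k) i : ℝ) := by
    conv_lhs => rw [e, act_add, act_int]
    rw [hk]
    funext i
    simp only [Pi.add_apply, Pi.sub_apply]
    push_cast; ring
  rw [e2, rep_add_int, rep_of_inQ h]

theorem ip_aff (L : Loc ρ) (F G : (ι → ℝ) → ℝ) (g : N) (y : ι → ℝ) :
    ip L F G (L.aff g y) = ip L F G y := by
  unfold ip
  simp only [← L.aff_mul]
  exact finsum_comp_equiv (Equiv.mulRight g) (f := fun h => F (L.aff h y) * G (L.aff h y))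

/-- Termwise: if `F (aff h⁻¹ (rep x)) ≠ 0` then `rep (act h⁻¹ x) = aff h⁻¹ (rep x)`; reindex `h ↦ h⁻¹`. -/
theorem tw_br (L : Loc ρ) (F' m F G' m' G : (ι → ℝ) → ℝ) (hF : ∀ y, F y ≠ 0 → InQ y)
    (hfin : ∀ y, {h | F (L.aff h y) ≠ 0}.Finite) (hm' : ∀ g y, m' (L.aff g y) = m' y) :
    tw ρ (br L F' m F) (br L G' m' G) = br L F' (fun y => m y * m' y * ip L F G' y) G := by
  funext g x
  have hT : ∀ h, F (L.aff h (rep x)) ≠ 0 → h ∈ (hfin (rep x)).toFinset := fun h hh => by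
    rw [Set.Finite.mem_toFinset]; exact hh
  have e1 : ip L F G' (rep x) =
      ∑ h ∈ (hfin (rep x)).toFinset, F (L.aff h (rep x)) * G' (L.aff h (rep x)) := by
    unfold ip
    exact finsum_eq_sum_of_support_subset _ fun h hh => hT h (left_ne_zero_of_mul hh)
  unfold tw
  rw [← finsum_comp_equiv (Equiv.inv N)]
  simp only [Equiv.inv_apply, inv_inv]
  rw [finsum_eq_sum_of_support_subset (s := (hfin (rep x)).toFinset) _ (fun h hh => by
    refine hT h fun e => hh ?_
    simp only [br, inv_inv, e, mul_zero, Complex.ofReal_zero, zero_mul])]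
  simp only [br, inv_inv]
  rw [e1]
  simp only [Finset.mul_sum, Finset.sum_mul, Complex.ofReal_sum]
  refine Finset.sum_congr rfl fun h hh => ?_
  rw [Set.Finite.mem_toFinset] at hh
  rw [rep_act L h x (hF _ hh), hm', ← L.aff_mul, mul_inv_rev, inv_mul_cancel_right]
  push_cast; ring

/-- With `z = rep (act g⁻¹ x)`: if `F (aff g z) ≠ 0` then `aff g z = rep x` (apply `rep_act` to
`act g⁻¹ x`); if `F' (aff g⁻¹ (rep x)) ≠ 0` then `z = aff g⁻¹ (rep x)`.  In both cases the two sides agree,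
otherwise both vanish. -/
theorem st_br (L : Loc ρ) (F' m F : (ι → ℝ) → ℝ) (hF' : ∀ y, F' y ≠ 0 → InQ y)
    (hF : ∀ y, F y ≠ 0 → InQ y) (hm : ∀ g y, m (L.aff g y) = m y) :
    st ρ (br L F' m F) = br L F m F' := by
  funext g x
  simp only [st, br, inv_inv, Complex.conj_ofReal]
  congr 1
  have key : rep x = L.aff g (rep (act ρ g⁻¹ x)) →
      F' (rep (act ρ g⁻¹ x)) * m (rep (act ρ g⁻¹ x)) * F (L.aff g (rep (act ρ g⁻¹ x))) =
        F (rep x) * m (rep x) * F' (L.aff g⁻¹ (rep x)) := fun e => by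
    rw [e, hm, ← L.aff_mul, inv_mul_cancel, L.aff_one]; ring
  by_cases h1 : F (L.aff g (rep (act ρ g⁻¹ x))) = 0
  · by_cases h2 : F' (L.aff g⁻¹ (rep x)) = 0
    · rw [h1, h2, mul_zero, mul_zero]
    · refine key ?_
      rw [rep_act L g⁻¹ x (hF' _ h2), ← L.aff_mul, mul_inv_cancel, L.aff_one]
  · refine key ?_
    rw [← rep_act L g _ (hF _ h1), ← act_mul, mul_inv_cancel, act_one]

/-- the fibre pairing of a bracket at a point of the cube -/
theorem fibre_br (L : Loc ρ) (F' F : (ι → ℝ) → ℝ) (hF' : ∀ y, F' y ≠ 0 → InQ y) {x₀ : ι → ℝ}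
    (hx : InQ x₀) (g h : N) :
    (starRingEnd ℂ) ((F' (L.aff g x₀) : ℝ) : ℂ) * br L F' (fun _ => 1) F (g * h⁻¹) (act ρ g x₀) *
        ((F (L.aff h x₀) : ℝ) : ℂ) =
      ((F' (L.aff g x₀) ^ 2 * F (L.aff h x₀) ^ 2 : ℝ) : ℂ) := by
  by_cases h1 : F' (L.aff g x₀) = 0
  · simp [h1]
  · have e : rep (act ρ g x₀) = L.aff g x₀ := by
      have := rep_act L g x₀ (by rw [rep_of_inQ hx]; exact hF' _ h1)
      rwa [rep_of_inQ hx] at this
    simp only [br, Complex.conj_ofReal]
    rw [e, ← L.aff_mul, mul_inv_rev, inv_inv, inv_mul_cancel_right]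
    push_cast; ring

end Crest.Agent.R129.A
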