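import Crest.Agent.R129.A.Defs

/-! # The windows in `θ` (task R129/A-Chi). Statements frozen. -/

set_option autoImplicit false
open scoped BigOperators

namespace Crest.Agent.R129.A
variable {P : ℝ}

theorem wp_pos (hP : 2 ≤ P) (m : ℤ) : 0 < wp P m := by
  have : 0 < P ^ m := zpow_pos (by linarith) m
  unfold wp
  positivity

theorem wp_neg (hP : 2 ≤ P) (m : ℤ) : wp P (-m) = 1 - wp P m := by
  have : 0 < P ^ m := zpow_pos (by linarith) m
  rw [wp, wp, zpow_neg]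
  field_simp
  ring

theorem wp_strictMono (hP : 2 ≤ P) : StrictMono (wp P) := by
  refine strictMono_int_of_lt_succ fun m => ?_
  have h0 : 0 < P := by linarith
  have hx : 0 < P ^ m := zpow_pos h0 m
  rw [wp, wp, zpow_add_one₀ h0.ne', div_lt_div_iff₀ (by positivity) (by positivity)]
  nlinarith

theorem wp_succ_le (hP : 2 ≤ P) (m : ℤ) : wp P (m + 1) ≤ P * wp P m := by
  have h0 : 0 < P := by linarith
  have hx : 0 < P ^ m := zpow_pos h0 m
  rw [wp, wp, zpow_add_one₀ h0.ne', ← mul_div_assoc, mul_comm P]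
  exact div_le_div_of_nonneg_left (by positivity) (by positivity) (by nlinarith)

theorem wp_succ_sub (hP : 2 ≤ P) (m : ℤ) :
    wp P (m + 1) - wp P m = (P - 1) * wp P m * wp P (-m - 1) := by
  have h0 : 0 < P := by linarith
  have hx : 0 < P ^ m := zpow_pos h0 m
  rw [show -m - 1 = -(m + 1) by ring, wp_neg hP, wp, wp, zpow_add_one₀ h0.ne']
  field_simp
  ring

theorem wp_upper (hP : 2 ≤ P) (m : ℤ) : wp P m * P ^ (-m).toNat ≤ 1 := by
  have h0 : 0 < P := by linarith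
  obtain ⟨k, rfl | rfl⟩ := Int.eq_nat_or_neg m
  · have := wp_pos hP (-k)
    rw [wp_neg hP] at this
    simp only [Int.toNat_neg_natCast, pow_zero, mul_one]
    linarith
  · have hx : 0 < P ^ k := pow_pos h0 k
    rw [neg_neg, Int.toNat_natCast, wp, zpow_neg, zpow_natCast, div_mul_eq_mul_div,
      inv_mul_cancel₀ hx.ne', div_le_one (by positivity)]
    exact le_add_of_nonneg_right (by positivity)

theorem wp_lower (hP : 2 ≤ P) (m : ℤ) : 1 ≤ 2 * wp P m * P ^ (-m).toNat := by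
  have h0 : 0 < P := by linarith
  obtain ⟨k, rfl | rfl⟩ := Int.eq_nat_or_neg m
  · have hx : 1 ≤ P ^ k := one_le_pow₀ (by linarith)
    rw [Int.toNat_neg_natCast, pow_zero, mul_one, wp, zpow_natCast, ← mul_div_assoc,
      le_div_iff₀ (by positivity)]
    linarith
  · have hx : 1 ≤ P ^ k := one_le_pow₀ (by linarith)
    have hy : (P ^ k)⁻¹ ≤ 1 := inv_le_one_of_one_le₀ hx
    rw [neg_neg, Int.toNat_natCast, wp, zpow_neg, zpow_natCast, mul_assoc, div_mul_eq_mul_div,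
      inv_mul_cancel₀ (by positivity), ← mul_div_assoc, le_div_iff₀ (by positivity)]
    linarith

theorem abs_chi_le (m : ℤ) (u : ℝ) : |chi P m u| ≤ 1 := by
  rw [chi, abs_mul]
  exact mul_le_one₀ (Real.abs_sin_le_one _) (abs_nonneg _) (Real.abs_cos_le_one _)

theorem ramp_eq_zero (hP : 2 ≤ P) {m : ℤ} {u : ℝ} (h : u ≤ wp P m) : ramp P m u = 0 :=
  max_eq_left (min_le_of_right_le (div_nonpos_of_nonpos_of_nonneg (sub_nonpos.2 h)
    (sub_nonneg.2 (wp_strictMono hP (lt_add_one m)).le)))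

theorem ramp_eq_one (hP : 2 ≤ P) {m : ℤ} {u : ℝ} (h : wp P (m + 1) ≤ u) : ramp P m u = 1 := by
  rw [ramp, min_eq_left ((one_le_div (sub_pos.2 (wp_strictMono hP (lt_add_one m)))).2
    (by linarith)), max_eq_right zero_le_one]

theorem wp_add_two_le (hP : 2 ≤ P) (m : ℤ) : wp P (m + 2) ≤ P ^ 2 * wp P m := by
  have h1 := wp_succ_le hP (m + 1)
  have h2 := mul_le_mul_of_nonneg_left (wp_succ_le hP m) (by linarith : 0 ≤ P)
  rw [show m + 1 + 1 = m + 2 by ring] at h1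
  linarith

theorem chi_ne (hP : 2 ≤ P) {m : ℤ} {u : ℝ} (h : chi P m u ≠ 0) :
    wp P (m - 1) < u ∧ u < wp P (m + 2) := by
  constructor
  · by_contra hc
    exact h (by rw [chi, ramp_eq_zero hP (not_lt.1 hc), mul_zero, Real.sin_zero, zero_mul])
  · by_contra hc
    exact h (by
      rw [chi, ramp_eq_one hP (m := m + 1) (by rw [add_assoc]; exact not_lt.1 hc), mul_one,
        Real.cos_pi_div_two, mul_zero])

theorem chi_far (hP : 2 ≤ P) {j i : ℤ} {u : ℝ} (hj : chi P j u ≠ 0) (hi : chi P i u ≠ 0) :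
    |j - i| ≤ 2 := by
  have h1 := (wp_strictMono hP).lt_iff_lt.1 ((chi_ne hP hj).1.trans (chi_ne hP hi).2)
  have h2 := (wp_strictMono hP).lt_iff_lt.1 ((chi_ne hP hi).1.trans (chi_ne hP hj).2)
  rw [abs_le]
  omega

/-- on the support of `chi j`: `ramp (j-2) = 1`, `ramp (j+2) = 0` -/
theorem chi_sq (hP : 2 ≤ P) {j : ℤ} {u : ℝ} (hj : chi P j u ≠ 0) :
    chi P (j - 1) u ^ 2 + chi P (j + 1) u ^ 2 = 1 := by
  obtain ⟨h1, h2⟩ := chi_ne hP hj
  rw [chi, chi, sub_add_cancel, add_sub_cancel_right,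
    ramp_eq_one hP (m := j - 1 - 1) (by rw [sub_add_cancel]; exact h1.le),
    ramp_eq_zero hP (m := j + 1 + 1) (by rw [add_assoc]; exact h2.le)]
  simp

theorem chi_one (hP : 2 ≤ P) : chi P 0 (wp P 1) = 1 ∧ chi P 1 (wp P 1) = 1 := by
  have hm := (wp_strictMono hP).monotone
  rw [chi, chi, ramp_eq_one hP (hm (by norm_num)), ramp_eq_zero hP (hm (by norm_num)),
    ramp_eq_one hP (hm (by norm_num)), ramp_eq_zero hP (hm (by norm_num))]
  simp

namespace Par
variable {p : Par}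

theorem Ok.two_le_P (h : p.Ok) : (2 : ℝ) ≤ p.P := by
  have : 2 ≤ p.P := h.two_le.trans (Nat.le_self_pow (by have := h.n_pos; omega) _)
  exact_mod_cast this

theorem Ok.four_le_b (h : p.Ok) : 4 ≤ p.b := by
  have hR : 0 < p.R := by have := h.two_le; omega
  have hv : 0 < p.v0 := h.v0_pos
  have hP : 0 < p.P := pow_pos hR _
  have hK : 0 < p.K := by unfold K; positivity
  refine le_trans ?_ h.b_ge
  simp only [mul_assoc]
  exact Nat.le_mul_of_pos_right _ (by positivity)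

theorem Ok.b_pos (h : p.Ok) : (0 : ℝ) < p.b := by
  have := h.four_le_b
  exact_mod_cast (by omega : 0 < p.b)

theorem Ok.phi_true (h : p.Ok) (θ : ℝ) : phi p.b true θ = p.uu θ / p.b := by
  have := h.b_pos
  simp only [phi, bet, kap, uu, if_true]
  push_cast
  field_simp

theorem Ok.phi_false (h : p.Ok) (θ : ℝ) : phi p.b false θ = (1 - p.uu θ) / (p.b + 1) := by
  have := h.b_pos
  simp only [phi, bet, kap, uu, Bool.false_eq_true, if_false]
  push_cast
  field_simp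
  ring

theorem Ok.tau_pos (h : p.Ok) (m : ℤ) (s : Bool) : 0 < p.tau m s := by
  have := h.b_pos
  refine div_pos (wp_pos h.two_le_P _) ?_
  split_ifs <;> positivity

theorem sgn_le {j l : ℤ} (hj : |j - l| ≤ 1) (s : Bool) :
    sgn s j ≤ sgn s l + 1 ∧ sgn s l ≤ sgn s j + 1 := by
  rw [abs_le] at hj
  unfold sgn
  split_ifs <;> omega

/-- neighbouring scales are comparable -/
theorem Ok.tau_le (h : p.Ok) {j l : ℤ} (hj : |j - l| ≤ 1) (s : Bool) :
    p.tau j s ≤ p.P * p.tau l s := by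
  have := h.b_pos
  rw [tau, tau, ← mul_div_assoc]
  refine div_le_div_of_nonneg_right (((wp_strictMono h.two_le_P).monotone (sgn_le hj s).1).trans
    (wp_succ_le h.two_le_P _)) ?_
  split_ifs <;> positivity

theorem Ok.vr_le (h : p.Ok) {j l : ℤ} (hj : |j - l| ≤ 1) (s : Bool) :
    p.vr j s ≤ p.R * p.vr l s := by
  rw [vr, vr, mul_left_comm, ← pow_succ']
  refine Nat.mul_le_mul_left _ (Nat.pow_le_pow_right (by have := h.two_le; omega) ?_)
  have := sgn_le hj s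
  omega

theorem Ok.v0_le_vr (h : p.Ok) (m : ℤ) (s : Bool) : p.v0 ≤ p.vr m s := by
  exact Nat.le_mul_of_pos_right _ (pow_pos (by have := h.two_le; omega) _)

/-- `wp_upper`, `vr ^ n = v0 ^ n * P ^ (-(sgn s m)).toNat` -/
theorem Ok.tau_vr (h : p.Ok) (m : ℤ) (s : Bool) :
    p.tau m s * (p.vr m s : ℝ) ^ p.n ≤ (p.v0 : ℝ) ^ p.n / p.b := by
  have hb := h.b_pos
  have h1 := wp_upper h.two_le_P (sgn s m)
  have e : (p.vr m s : ℝ) ^ p.n = (p.v0 : ℝ) ^ p.n * (p.P : ℝ) ^ (-(sgn s m)).toNat := by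
    simp only [vr, P, Nat.cast_mul, Nat.cast_pow, mul_pow, ← pow_mul, mul_comm]
  have h2 : (p.b : ℝ) ≤ if s then (p.b : ℝ) else (p.b : ℝ) + 1 := by
    split_ifs <;> linarith
  rw [e, tau, div_mul_eq_mul_div, mul_left_comm]
  exact div_le_div₀ (by positivity) (mul_le_of_le_one_right (by positivity) h1) hb h2

theorem Ok.tau_lower (h : p.Ok) (m : ℤ) (s : Bool) :
    1 ≤ 2 * (p.b + 1) * (p.P : ℝ) ^ m.natAbs * p.tau m s := by
  have hb := h.b_pos
  have hP := h.two_le_P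
  have h0 := wp_pos hP (sgn s m)
  have h1 := wp_lower hP (sgn s m)
  have h2 : (p.P : ℝ) ^ (-(sgn s m)).toNat ≤ (p.P : ℝ) ^ m.natAbs := by
    refine pow_le_pow_right₀ (by linarith) ?_
    unfold sgn
    split_ifs <;> omega
  have h3 : wp p.P (sgn s m) ≤ (p.b + 1) * p.tau m s := by
    rw [tau, ← mul_div_assoc, le_div_iff₀ (by split_ifs <;> positivity), mul_comm]
    refine mul_le_mul_of_nonneg_right ?_ h0.le
    split_ifs <;> linarith
  calc 1 ≤ 2 * wp p.P (sgn s m) * (p.P : ℝ) ^ (-(sgn s m)).toNat := h1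
    _ ≤ 2 * ((p.b + 1) * p.tau m s) * (p.P : ℝ) ^ m.natAbs := by
        have := h.tau_pos m s
        gcongr
    _ = _ := by ring

/-- `u ∈ (wp (m-1), wp (m+2))`, `1 - u ∈ (wp (-m-2), wp (-m+1))` -/
theorem Ok.phi_bounds (h : p.Ok) {m : ℤ} {θ : ℝ} (hc : chi p.P m (p.uu θ) ≠ 0) (s : Bool) :
    p.tau m s ≤ (p.P : ℝ) ^ 2 * phi p.b s θ ∧ phi p.b s θ ≤ (p.P : ℝ) ^ 2 * p.tau m s := by
  have hb := h.b_pos
  have hP := h.two_le_P
  have hm := (wp_strictMono hP).monotone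
  have hP2 : (0 : ℝ) ≤ (p.P : ℝ) ^ 2 := sq_nonneg _
  obtain ⟨h1, h2⟩ := chi_ne hP hc
  have key : ∀ (a : ℤ) (x : ℝ), wp p.P (a - 2) ≤ x → x ≤ wp p.P (a + 2) → ∀ d : ℝ, 0 < d →
      wp p.P a / d ≤ (p.P : ℝ) ^ 2 * (x / d) ∧ x / d ≤ (p.P : ℝ) ^ 2 * (wp p.P a / d) := by
    intro a x hx1 hx2 d hd
    have h3 := wp_add_two_le hP (a - 2)
    rw [sub_add_cancel] at h3
    rw [← mul_div_assoc, ← mul_div_assoc]
    exact ⟨div_le_div_of_nonneg_right (h3.trans (mul_le_mul_of_nonneg_left hx1 hP2)) hd.le,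
      div_le_div_of_nonneg_right (hx2.trans (wp_add_two_le hP a)) hd.le⟩
  have h3 : wp p.P (m - 2) ≤ p.uu θ := (hm (by omega)).trans h1.le
  cases s
  · rw [h.phi_false]
    refine key (-m) _ ?_ ?_ _ (by positivity)
    · rw [show -m - 2 = -(m + 2) by ring, wp_neg hP]
      linarith
    · rw [show -m + 2 = -(m - 2) by ring, wp_neg hP]
      linarith
  · rw [h.phi_true]
    exact key m _ h3 h2.le _ hb

theorem Ok.theta_mem (h : p.Ok) {m : ℤ} {θ : ℝ} (hc : chi p.P m (p.uu θ) ≠ 0) :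
    0 < θ ∧ θ < 1 / 4 := by
  have hb := h.b_pos
  have hb4 : (4 : ℝ) ≤ p.b := by exact_mod_cast h.four_le_b
  have hP := h.two_le_P
  obtain ⟨h1, h2⟩ := chi_ne hP hc
  have h3 := (wp_pos hP _).trans h1
  have h4 := wp_pos hP (-(m + 2))
  rw [wp_neg hP] at h4
  have h5 : p.uu θ < 1 := by linarith
  rw [uu] at h3 h5
  have h6 := (mul_pos_iff_of_pos_left hb).1 h3
  constructor
  · by_contra hc
    nlinarith
  · by_contra hc
    have h7 : (p.b + 1) * (1 / 4) ≤ ((p.b : ℝ) + 1) * θ :=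
      mul_le_mul_of_nonneg_left (not_lt.1 hc) (by linarith)
    nlinarith

theorem Ok.exists_theta (h : p.Ok) (u : ℝ) : ∃ θ, p.uu θ = u := by
  have hb := h.b_pos
  refine ⟨(u / p.b + 1) / (p.b + 1), ?_⟩
  rw [uu]
  field_simp
  ring

end Par

end Crest.Agent.R129.A
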