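import Mathlib

/-!
# Row 129, part A: the unitriangular group in coordinates
-/

set_option autoImplicit false

namespace Crest.Agent.R129.A

open Matrix

/-- positions strictly above the diagonal -/
abbrev Idx (n : ℕ) : Type := {p : Fin n × Fin n // p.1 < p.2}

/-- distance from the diagonal -/
def Idx.dist {n : ℕ} (a : Idx n) : ℕ := (a.1.2 : ℕ) - (a.1.1 : ℕ)

theorem Idx.dist_pos {n : ℕ} (a : Idx n) : 0 < a.dist := by
  have := a.2
  unfold Idx.dist
  rw [Fin.lt_def] at this
  omega

theorem Idx.dist_lt {n : ℕ} (a : Idx n) : a.dist < n := by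
  have := a.1.2.2
  unfold Idx.dist
  omega

section ring

variable {n : ℕ} {R : Type} [CommRing R]

/-- the strictly upper triangular matrix with the given entries -/
def su (A : Idx n → R) : Matrix (Fin n) (Fin n) R :=
  Matrix.of fun i j => if h : i < j then A ⟨(i, j), h⟩ else 0

/-- the entries strictly above the diagonal -/
def co (M : Matrix (Fin n) (Fin n) R) : Idx n → R := fun a => M a.1.1 a.1.2

/-- strictly upper triangular -/
def IsSU (M : Matrix (Fin n) (Fin n) R) : Prop := ∀ i j, j ≤ i → M i j = 0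

theorem su_apply_lt (A : Idx n → R) {i j : Fin n} (h : i < j) : su A i j = A ⟨(i, j), h⟩ := by
  simp [su, h]

theorem isSU_su (A : Idx n → R) : IsSU (su A) := fun i j h => by
  simp [su, not_lt.2 h]

@[simp] theorem co_su (A : Idx n → R) : co (su A) = A := by
  funext a
  exact su_apply_lt A a.2

theorem su_co {M : Matrix (Fin n) (Fin n) R} (h : IsSU M) : su (co M) = M := by
  ext i j
  by_cases hij : i < j
  · rw [su_apply_lt _ hij]; rfl
  · rw [isSU_su _ _ _ (not_lt.1 hij), h _ _ (not_lt.1 hij)]

theorem co_add (M M' : Matrix (Fin n) (Fin n) R) : co (M + M') = co M + co M' := rfl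

theorem co_smul (r : R) (M : Matrix (Fin n) (Fin n) R) : co (r • M) = r • co M := rfl

@[simp] theorem co_one : co (1 : Matrix (Fin n) (Fin n) R) = 0 := by
  funext a
  exact Matrix.one_apply_ne a.2.ne

@[simp] theorem su_zero : su (0 : Idx n → R) = 0 := by
  ext i j
  simp [su]

theorem su_add (A B : Idx n → R) : su (A + B) = su A + su B := by
  ext i j
  by_cases h : i < j <;> simp [su, h]

theorem su_smul (r : R) (A : Idx n → R) : su (r • A) = r • su A := by
  ext i j
  by_cases h : i < j <;> simp [su, h]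

theorem IsSU.add {M M' : Matrix (Fin n) (Fin n) R} (h : IsSU M) (h' : IsSU M') :
    IsSU (M + M') := fun i j hij => by
  rw [Matrix.add_apply, h i j hij, h' i j hij, add_zero]

theorem IsSU.smul {M : Matrix (Fin n) (Fin n) R} (h : IsSU M) (r : R) : IsSU (r • M) :=
  fun i j hij => by rw [Matrix.smul_apply, h i j hij, smul_zero]

theorem IsSU.neg {M : Matrix (Fin n) (Fin n) R} (h : IsSU M) : IsSU (-M) := fun i j hij => by
  rw [Matrix.neg_apply, h i j hij, neg_zero]

theorem IsSU.mul {M M' : Matrix (Fin n) (Fin n) R} (h : IsSU M) (h' : IsSU M') :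
    IsSU (M * M') := fun i j hij => by
  rw [Matrix.mul_apply]
  refine Finset.sum_eq_zero fun l _ => ?_
  by_cases hl : l ≤ i
  · rw [h i l hl, zero_mul]
  · rw [h' l j (hij.trans (not_le.1 hl).le), mul_zero]

/-- the `k`-th power vanishes below the `k`-th superdiagonal -/
theorem IsSU.pow_apply {M : Matrix (Fin n) (Fin n) R} (h : IsSU M) :
    ∀ (k : ℕ) (i j : Fin n), (j : ℕ) < i + k → (M ^ k) i j = 0
  | 0, i, j, hij => by
    rw [pow_zero]
    exact Matrix.one_apply_ne (fun e => by rw [e] at hij; omega)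
  | k + 1, i, j, hij => by
    rw [pow_succ, Matrix.mul_apply]
    refine Finset.sum_eq_zero fun l _ => ?_
    by_cases hl : (l : ℕ) < i + k
    · rw [h.pow_apply k i l hl, zero_mul]
    · rw [h l j (by rw [Fin.le_def]; omega), mul_zero]

theorem IsSU.pow_card {M : Matrix (Fin n) (Fin n) R} (h : IsSU M) : M ^ n = 0 := by
  ext i j
  exact h.pow_apply n i j (by have := j.2; omega)

theorem IsSU.pow_succ {M : Matrix (Fin n) (Fin n) R} (h : IsSU M) (k : ℕ) : IsSU (M ^ (k + 1)) :=
  fun i j hij => h.pow_apply (k + 1) i j (by rw [Fin.le_def] at hij; omega)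

end ring

/-- the unitriangular group, in coordinates -/
@[ext] structure UT (n : ℕ) (R : Type) where
  co : Idx n → R

namespace UT

variable {n : ℕ} {R : Type} [CommRing R]

/-- the matrix of an element -/
def mat (g : UT n R) : Matrix (Fin n) (Fin n) R := 1 + su g.co

theorem co_mat (g : UT n R) : A.co g.mat = g.co := by
  rw [mat, co_add, co_one, co_su, zero_add]

theorem mat_injective : Function.Injective (mat : UT n R → _) := fun g h e => by
  ext1
  rw [← co_mat g, ← co_mat h, e]

theorem mat_mk_co {M : Matrix (Fin n) (Fin n) R} (h : IsSU M) :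
    mat (⟨A.co (1 + M)⟩ : UT n R) = 1 + M := by
  rw [mat, co_add, co_one, zero_add, su_co h]

instance : One (UT n R) := ⟨⟨0⟩⟩

instance : Mul (UT n R) := ⟨fun g h => ⟨A.co (g.mat * h.mat)⟩⟩

instance : Inv (UT n R) :=
  ⟨fun g => ⟨A.co (1 + ∑ k ∈ Finset.range n, (-su g.co) ^ (k + 1))⟩⟩

theorem one_co : (1 : UT n R).co = 0 := rfl

theorem mat_one : mat (1 : UT n R) = 1 := by rw [mat, one_co, su_zero, add_zero]

theorem mat_mul (g h : UT n R) : mat (g * h) = mat g * mat h := by
  have e : g.mat * h.mat = 1 + (su g.co + su h.co + su g.co * su h.co) := by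
    simp only [mat]; noncomm_ring
  change mat (⟨A.co (g.mat * h.mat)⟩ : UT n R) = _
  rw [e]
  exact mat_mk_co (((isSU_su _).add (isSU_su _)).add ((isSU_su _).mul (isSU_su _)))

theorem mat_inv (g : UT n R) :
    mat g⁻¹ = 1 + ∑ k ∈ Finset.range n, (-su g.co) ^ (k + 1) := by
  refine mat_mk_co fun i j hij => ?_
  rw [Matrix.sum_apply]
  exact Finset.sum_eq_zero fun k _ => (isSU_su g.co).neg.pow_succ k i j hij

theorem mat_inv_mul (g : UT n R) : mat g⁻¹ * mat g = 1 := by
  have h1 : (1 : Matrix (Fin n) (Fin n) R) + ∑ k ∈ Finset.range n, (-su g.co) ^ (k + 1)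
      = ∑ k ∈ Finset.range (n + 1), (-su g.co) ^ k := by
    rw [Finset.sum_range_succ', pow_zero, add_comm]
  have h2 := geom_sum_mul_neg (-su g.co) (n + 1)
  rw [pow_succ, (isSU_su g.co).neg.pow_card, zero_mul, sub_zero, sub_neg_eq_add] at h2
  rw [mat_inv, h1, mat, h2]

instance : Group (UT n R) :=
  Group.ofLeftAxioms
    (fun a b c => mat_injective (by simp only [mat_mul, mul_assoc]))
    (fun a => mat_injective (by rw [mat_mul, mat_one, one_mul]))
    (fun a => mat_injective (by rw [mat_mul, mat_inv_mul, mat_one]))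

/-- the matrix representation -/
def matHom : UT n R →* Matrix (Fin n) (Fin n) R where
  toFun := mat
  map_one' := mat_one
  map_mul' := mat_mul

theorem mul_co (g h : UT n R) : (g * h).co = A.co (g.mat * h.mat) := rfl

/-- coordinates of a product -/
theorem mul_co_apply (g h : UT n R) (a : Idx n) :
    (g * h).co a = g.co a + h.co a + ∑ l, su g.co a.1.1 l * su h.co l a.1.2 := by
  have e : g.mat * h.mat = 1 + (su g.co + su h.co + su g.co * su h.co) := by
    simp only [mat]; noncomm_ring
  rw [mul_co, e, co_add, co_one, zero_add, co_add, co_add, co_su, co_su]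
  rfl

/-- coordinates as an equivalence -/
def equivCo : UT n R ≃ (Idx n → R) where
  toFun := UT.co
  invFun := UT.mk
  left_inv _ := rfl
  right_inv _ := rfl

instance [DecidableEq R] : DecidableEq (UT n R) := equivCo.decidableEq

instance [Fintype R] : Fintype (UT n R) := Fintype.ofEquiv _ equivCo.symm

end UT

end Crest.Agent.R129.A
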