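import Crest.Agent.R129.Ker
import Crest.Agent.R129.A.UT

/-!
# Row 129, part A: definitions (owner helper8; do not edit)

`HG ρ = ℤ^ι ⋊ N`; an element of its group algebra is evaluated (`ev`) to a family, indexed by `N`,
of trigonometric polynomials on `ℝ^ι`.  The concrete group has `N = UT × UT` acting on
`(θ, X, X')`.
-/

set_option autoImplicit false
open scoped BigOperators Matrix

namespace Crest.Agent.R129.A

/-! ## group algebras and banded operators -/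

section alg
variable {A : Type}

/-- the `ℓ¹` norm of a finitely supported function -/
noncomputable def l1 (a : A →₀ ℂ) : ℝ := a.sum fun _ c => ‖c‖

/-- the involution of the group algebra -/
noncomputable def adjM [Group A] (a : MonoidAlgebra ℂ A) : MonoidAlgebra ℂ A :=
  MonoidAlgebra.ofCoeff (Finsupp.mapRange (starRingEnd ℂ) (map_zero _)
    (Finsupp.equivMapDomain (Equiv.inv A) a.coeff))

theorem adjM_coeff [Group A] (a : MonoidAlgebra ℂ A) (x : A) :
    (adjM a).coeff x = (starRingEnd ℂ) (a.coeff x⁻¹) := rfl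

/-- left convolution operator -/
noncomputable def cvop [Group A] (a : MonoidAlgebra ℂ A) : L2 A →L[ℂ] L2 A :=
  kop fun p q => a.coeff (p * q⁻¹)

/-- matrix of left convolution operators -/
noncomputable def Bnd [Group A] (X : ℤ → ℤ → MonoidAlgebra ℂ A) : L2 (A × ℤ) →L[ℂ] L2 (A × ℤ) :=
  kop fun p q => (X p.2 q.2).coeff (p.1 * q.1⁻¹)

/-- band width `w`, entries of `ℓ¹` norm at most `L` -/
def Band [Group A] (X : ℤ → ℤ → MonoidAlgebra ℂ A) (w : ℕ) (L : ℝ) : Prop :=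
  (∀ j i, (w : ℤ) < |j - i| → X j i = 0) ∧ ∀ j i, l1 (X j i).coeff ≤ L

/-- entries of `X X* X - X` for a matrix with two diagonals -/
noncomputable def tri [Group A] (X : ℤ → ℤ → MonoidAlgebra ℂ A) (j i : ℤ) : MonoidAlgebra ℂ A :=
  (∑ i' ∈ ({j - 1, j + 1} : Finset ℤ), ∑ j' ∈ ({i - 1, i + 1} : Finset ℤ),
    X j i' * adjM (X j' i') * X j' i) - X j i

end alg

/-! ## the semidirect product and its symbols -/

section tor
variable {ι N : Type} [Fintype ι] [DecidableEq ι] [Group N]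

/-- `ℤ^ι ⋊ N`; `(k, g)` stands for `ch k · u_g` -/
@[ext] structure HG (ρ : N →* Matrix ι ι ℤ) where
  k : ι → ℤ
  g : N

namespace HG
variable {ρ : N →* Matrix ι ι ℤ}

instance : One (HG ρ) := ⟨⟨0, 1⟩⟩
instance : Mul (HG ρ) := ⟨fun a b => ⟨a.k + b.k ᵥ* ρ a.g⁻¹, a.g * b.g⟩⟩
instance : Inv (HG ρ) := ⟨fun a => ⟨-(a.k ᵥ* ρ a.g), a.g⁻¹⟩⟩

@[simp] theorem one_k : (1 : HG ρ).k = 0 := rfl
@[simp] theorem one_g : (1 : HG ρ).g = 1 := rfl
@[simp] theorem mul_k (a b : HG ρ) : (a * b).k = a.k + b.k ᵥ* ρ a.g⁻¹ := rfl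
@[simp] theorem mul_g (a b : HG ρ) : (a * b).g = a.g * b.g := rfl
@[simp] theorem inv_k (a : HG ρ) : (a⁻¹).k = -(a.k ᵥ* ρ a.g) := rfl
@[simp] theorem inv_g (a : HG ρ) : (a⁻¹).g = a.g⁻¹ := rfl

instance : Group (HG ρ) :=
  Group.ofLeftAxioms
    (fun a b c => HG.ext
      (by simp only [mul_k, mul_g, mul_inv_rev, map_mul, Matrix.add_vecMul, Matrix.vecMul_vecMul,
        add_assoc])
      (mul_assoc _ _ _))
    (fun a => HG.ext (by simp) (one_mul _))
    (fun a => HG.ext (by simp) (inv_mul_cancel _))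

/-- the projection to `N` -/
def toN (ρ : N →* Matrix ι ι ℤ) : HG ρ →* N where
  toFun := HG.g
  map_one' := rfl
  map_mul' _ _ := rfl

end HG

/-- the linear action on `ℝ^ι` -/
noncomputable def act (ρ : N →* Matrix ι ι ℤ) (g : N) (x : ι → ℝ) : ι → ℝ :=
  (ρ g).map (Int.cast : ℤ → ℝ) *ᵥ x

/-- the character `e^{2πi k·x}` -/
noncomputable def ch (k : ι → ℤ) (x : ι → ℝ) : ℂ :=
  Complex.exp (2 * Real.pi * Complex.I * ((∑ i, (k i : ℝ) * x i : ℝ) : ℂ))

/-- value of a trigonometric polynomial -/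
noncomputable def tev (P : (ι → ℤ) →₀ ℂ) (x : ι → ℝ) : ℂ := P.sum fun k c => c * ch k x

/-- value of a trigonometric polynomial in one variable -/
noncomputable def tev1 (P : ℤ →₀ ℂ) (x : ℝ) : ℂ :=
  P.sum fun k c => c * Complex.exp (2 * Real.pi * Complex.I * (((k : ℝ) * x : ℝ) : ℂ))

/-- symbols -/
abbrev Fn (ι N : Type) : Type := N → (ι → ℝ) → ℂ

open Classical in
/-- the symbol of an element of the group algebra -/
noncomputable def ev {ρ : N →* Matrix ι ι ℤ} (a : MonoidAlgebra ℂ (HG ρ)) : Fn ι N :=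
  fun g x => a.coeff.sum fun h c => if h.g = g then c * ch h.k x else 0

/-- `∑_g sup_x |a g x| ≤ r` -/
def Bd (a : Fn ι N) (r : ℝ) : Prop :=
  ∃ (S : Finset N) (w : N → ℝ), (∀ g, g ∉ S → ∀ x, a g x = 0) ∧ (∀ g x, ‖a g x‖ ≤ w g) ∧
    ∑ g ∈ S, w g ≤ r

/-- twisted product of symbols -/
noncomputable def tw (ρ : N →* Matrix ι ι ℤ) (a b : Fn ι N) : Fn ι N :=
  fun g x => ∑ᶠ h, a h x * b (h⁻¹ * g) (act ρ h⁻¹ x)

/-- involution of symbols -/
noncomputable def st (ρ : N →* Matrix ι ι ℤ) (a : Fn ι N) : Fn ι N :=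
  fun g x => (starRingEnd ℂ) (a g⁻¹ (act ρ g⁻¹ x))

/-- a trigonometric polynomial as an element of the group algebra -/
noncomputable def fn (ρ : N →* Matrix ι ι ℤ) (P : (ι → ℤ) →₀ ℂ) : MonoidAlgebra ℂ (HG ρ) :=
  MonoidAlgebra.ofCoeff (P.mapDomain fun k => (⟨k, 1⟩ : HG ρ))

/-- `P · u_g · P'` -/
noncomputable def sand (ρ : N →* Matrix ι ι ℤ) (P : (ι → ℤ) →₀ ℂ) (g : N) (P' : (ι → ℤ) →₀ ℂ) :
    MonoidAlgebra ℂ (HG ρ) :=
  fn ρ P * MonoidAlgebra.single (⟨0, g⟩ : HG ρ) 1 * fn ρ P'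

/-- reduction modulo the lattice -/
noncomputable def rep (x : ι → ℝ) : ι → ℝ := fun i => x i - round (x i)

/-- the fundamental cube -/
def InQ (x : ι → ℝ) : Prop := ∀ i, -(1 / 2) ≤ x i ∧ x i < 1 / 2

/-- an action on `ℝ^ι` lifting the action on the torus -/
structure Loc (ρ : N →* Matrix ι ι ℤ) where
  aff : N → (ι → ℝ) → (ι → ℝ)
  aff_one : ∀ x, aff 1 x = x
  aff_mul : ∀ g h x, aff (g * h) x = aff g (aff h x)
  aff_act : ∀ g x, ∃ k : ι → ℤ, aff g x = act ρ g x + fun i => (k i : ℝ)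

/-- the symbol `[F', m, F]` -/
noncomputable def br {ρ : N →* Matrix ι ι ℤ} (L : Loc ρ) (F' m F : (ι → ℝ) → ℝ) : Fn ι N :=
  fun g x => ((F' (rep x) * m (rep x) * F (L.aff g⁻¹ (rep x)) : ℝ) : ℂ)

/-- the orbit sum `⟨F, G⟩` -/
noncomputable def ip {ρ : N →* Matrix ι ι ℤ} (L : Loc ρ) (F G : (ι → ℝ) → ℝ) (y : ι → ℝ) : ℝ :=
  ∑ᶠ h, F (L.aff h y) * G (L.aff h y)

end tor

/-! ## the concrete action -/

/-- coordinates `θ` (`none`) and `X_{s,a}` -/
abbrev I (n : ℕ) : Type := Option (Bool × Idx n)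

/-- the nilpotent group -/
abbrev NN (n : ℕ) : Type := Bool → UT n ℤ

/-- `g (t + X) = t + affU g t X` -/
def affU {n : ℕ} {R : Type} [CommRing R] (g : UT n ℤ) (t : R) (X : Idx n → R) : Idx n → R :=
  co (g.mat.map (Int.cast : ℤ → R) * (t • (1 : Matrix (Fin n) (Fin n) R) + su X))

/-- slopes `b + 1` and `-b` -/
def bet (b : ℕ) (s : Bool) : ℤ := if s then (b : ℤ) + 1 else -(b : ℤ)

/-- integer parts `1` and `-1` -/
def kap (s : Bool) : ℤ := if s then 1 else -1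

/-- the linear action -/
def lin {n : ℕ} {R : Type} [CommRing R] (b : ℕ) (g : NN n) (x : I n → R) : I n → R
  | none => x none
  | some sa => affU (g sa.1) ((bet b sa.1 : R) * x none) (fun a => x (some (sa.1, a))) sa.2

/-- the small diagonal entries -/
def phi (b : ℕ) (s : Bool) (θ : ℝ) : ℝ := (bet b s : ℝ) * θ - (kap s : ℝ)

/-- the local affine action -/
def aff {n : ℕ} (b : ℕ) (g : NN n) (x : I n → ℝ) : I n → ℝ
  | none => x none
  | some sa => affU (g sa.1) (phi b sa.1 (x none)) (fun a => x (some (sa.1, a))) sa.2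

/-- `ρ` is the matrix of `lin` and `L` is `aff` -/
def IsConc {n : ℕ} (b : ℕ) (ρ : NN n →* Matrix (I n) (I n) ℤ) (L : Loc ρ) : Prop :=
  (∀ g x, act ρ g x = lin b g x) ∧ ∀ g x, L.aff g x = aff b g x

/-! ## scales and bump functions -/

/-- the parameters: matrix size `n`, growth `R` of the boxes, base scale `v0`, slope `b` -/
structure Par where
  n : ℕ
  R : ℕ
  v0 : ℕ
  b : ℕ

/-- the break points `P^m / (1 + P^m)` -/
noncomputable def wp (P : ℝ) (m : ℤ) : ℝ := P ^ m / (1 + P ^ m)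

/-- the ramp from `0` to `1` on `[wp m, wp (m+1)]` -/
noncomputable def ramp (P : ℝ) (m : ℤ) (u : ℝ) : ℝ :=
  max 0 (min 1 ((u - wp P m) / (wp P (m + 1) - wp P m)))

/-- the window of node `m` -/
noncomputable def chi (P : ℝ) (m : ℤ) (u : ℝ) : ℝ :=
  Real.sin (Real.pi / 2 * ramp P (m - 1) u) * Real.cos (Real.pi / 2 * ramp P (m + 1) u)

/-- the `L²`-normalised tent -/
noncomputable def psi (y : ℝ) : ℝ := Real.sqrt (3 / 2) * max 0 (1 - |y|)

/-- `m` or `-m` -/
def sgn (s : Bool) (m : ℤ) : ℤ := if s then m else -m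

namespace Par
variable (p : Par)

/-- ratio of consecutive `θ`-scales -/
def P : ℕ := p.R ^ p.n

/-- constant in the size of the boxes -/
def K : ℕ := (p.n + 2) * p.P ^ 5

/-- the standing assumptions -/
structure Ok : Prop where
  n_pos : 1 ≤ p.n
  two_le : 2 ≤ p.R
  v0_pos : 1 ≤ p.v0
  b_ge : 4 * (p.n + 2) ^ (p.n + 1) * p.K ^ p.n * p.P ^ 5 * p.v0 ^ p.n ≤ p.b

/-- the coordinate `u ∈ (0,1)` on the arc: `phi true = u / b`, `phi false = (1 - u) / (b + 1)` -/
noncomputable def uu (θ : ℝ) : ℝ := p.b * (((p.b : ℝ) + 1) * θ - 1)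

/-- typical size of `phi s` on the window `m` -/
noncomputable def tau (m : ℤ) (s : Bool) : ℝ :=
  wp p.P (sgn s m) / (if s then (p.b : ℝ) else (p.b : ℝ) + 1)

/-- spreading scale -/
def vr (m : ℤ) (s : Bool) : ℕ := p.v0 * p.R ^ (-(sgn s m)).toNat

/-- width of the tent in coordinate `(s, a)` -/
noncomputable def lam (m : ℤ) (sa : Bool × Idx p.n) : ℝ :=
  p.tau m sa.1 * (p.vr m sa.1 : ℝ) ^ sa.2.dist

/-- the `θ` factor -/
noncomputable def Th (m : ℤ) (θ : ℝ) : ℝ :=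
  chi p.P m (p.uu θ) *
    ∏ s : Bool, Real.sqrt (phi p.b s θ / p.tau m s) ^ Fintype.card (Idx p.n)

/-- the one-dimensional factors -/
noncomputable def fac (m : ℤ) : I p.n → ℝ → ℝ
  | none => p.Th m
  | some sa => fun y => psi (y / p.lam m sa)

/-- the bump of node `m`, of height `O(1)` -/
noncomputable def G (m : ℤ) (x : I p.n → ℝ) : ℝ := ∏ i, p.fac m i (x i)

/-- the amplitude -/
noncomputable def amp (m : ℤ) : ℝ :=
  Real.sqrt (∏ sa : Bool × Idx p.n, ((p.vr m sa.1 : ℝ) ^ sa.2.dist)⁻¹)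

/-- the frame function of node `m` -/
noncomputable def F (m : ℤ) (x : I p.n → ℝ) : ℝ := p.amp m * p.G m x

/-- radius of the box of link `l` -/
def rad (l : ℤ) (s : Bool) (a : Idx p.n) : ℕ := (p.K * p.vr l s) ^ a.dist

/-- the box of link `l` in one factor -/
noncomputable def boxU (l : ℤ) (s : Bool) : Finset (UT p.n ℤ) :=
  (Fintype.piFinset fun a => Finset.Icc (-(p.rad l s a : ℤ)) (p.rad l s a)).map
    UT.equivCo.symm.toEmbedding

/-- the box of link `l` -/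
noncomputable def S (l : ℤ) : Finset (NN p.n) := Fintype.piFinset fun s => p.boxU l s

end Par

/-- row (even) node of link `(l, l+1)` -/
def row (l : ℤ) : ℤ := if Even l then l else l + 1

/-- column (odd) node of link `(l, l+1)` -/
def col (l : ℤ) : ℤ := if Even l then l + 1 else l

/-- the link element -/
noncomputable def vL (p : Par) (ρ : NN p.n →* Matrix (I p.n) (I p.n) ℤ)
    (f : ℤ → (I p.n → ℤ) →₀ ℂ) (l : ℤ) : MonoidAlgebra ℂ (HG ρ) :=
  ((p.amp (row l) * p.amp (col l) : ℝ) : ℂ) • ∑ g ∈ p.S l, sand ρ (f (row l)) g (f (col l))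

/-- the two-diagonal matrix built from link elements -/
noncomputable def vM {A : Type} [Group A] (v : ℤ → MonoidAlgebra ℂ A) (j i : ℤ) :
    MonoidAlgebra ℂ A :=
  if Even j ∧ (i = j + 1 ∨ i = j - 1) then v (min j i) else 0

/-- all coordinates are at most `Ξ` -/
def Sz {n : ℕ} {ρ : NN n →* Matrix (I n) (I n) ℤ} (x : HG ρ) (Ξ : ℕ) : Prop :=
  (∀ i, |x.k i| ≤ (Ξ : ℤ)) ∧ ∀ s a, |(x.g s).co a| ≤ (Ξ : ℤ)

end Crest.Agent.R129.A
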