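import Crest.Agent.R129.A.Chi
import Crest.Agent.R129.A.Riem

/-! # Supports and boxes (task R129/A-Est). Statements frozen. -/

set_option autoImplicit false
open scoped BigOperators

namespace Crest.Agent.R129.A
namespace Par
variable {p : Par}

theorem Ok.est_vr_pos (h : p.Ok) (m : ℤ) (s : Bool) : 1 ≤ p.vr m s :=
  h.v0_pos.trans (h.v0_le_vr m s)

theorem Ok.est_P (h : p.Ok) : 1 ≤ p.P := by
  have := h.two_le_P
  exact_mod_cast (by linarith : (1 : ℝ) ≤ p.P)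

theorem Ok.est_K (h : p.Ok) : 1 ≤ p.K :=
  Nat.mul_pos (by omega) (Nat.pow_pos h.est_P)

theorem est_near {l j : ℤ} (hj : j = l ∨ j = l + 1) : |j - l| ≤ 1 ∧ |l - j| ≤ 1 := by
  rcases hj with rfl | rfl <;> simp

theorem Ok.est_lam (h : p.Ok) {j l : ℤ} (hj : |j - l| ≤ 1) (s : Bool) (a : Idx p.n) :
    p.lam j (s, a) ≤ (p.P : ℝ) ^ 2 * p.tau l s * (p.vr l s : ℝ) ^ a.dist := by
  have h1 := h.tau_le hj s
  have h2 : (p.vr j s : ℝ) ≤ p.R * p.vr l s := by exact_mod_cast h.vr_le hj s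
  have h3 : (p.R : ℝ) ^ a.dist ≤ p.P := by
    have : p.R ^ a.dist ≤ p.R ^ p.n := Nat.pow_le_pow_right (by have := h.two_le; omega) a.dist_lt.le
    exact_mod_cast this
  have h4 := (h.tau_pos l s).le
  calc p.lam j (s, a) = p.tau j s * (p.vr j s : ℝ) ^ a.dist := rfl
    _ ≤ (p.P * p.tau l s) * (p.R * p.vr l s : ℝ) ^ a.dist := by gcongr
    _ = (p.P * p.tau l s) * ((p.R : ℝ) ^ a.dist * (p.vr l s : ℝ) ^ a.dist) := by rw [mul_pow]
    _ ≤ (p.P * p.tau l s) * (p.P * (p.vr l s : ℝ) ^ a.dist) := by gcongr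
    _ = _ := by ring

theorem Ok.est_quarter (h : p.Ok) (m : ℤ) (s : Bool) :
    ((p.n : ℝ) + 2) ^ (p.n + 1) * (p.K : ℝ) ^ p.n * (p.P : ℝ) ^ 5 *
      (p.tau m s * (p.vr m s : ℝ) ^ p.n) ≤ 1 / 4 := by
  have hb : (0 : ℝ) < p.b := by
    have := h.four_le_b
    exact_mod_cast (by omega : 0 < p.b)
  have h1 : (4 : ℝ) * ((p.n : ℝ) + 2) ^ (p.n + 1) * (p.K : ℝ) ^ p.n * (p.P : ℝ) ^ 5 *
      (p.v0 : ℝ) ^ p.n ≤ p.b := by exact_mod_cast h.b_ge
  refine (mul_le_mul_of_nonneg_left (h.tau_vr m s) (by positivity)).trans ?_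
  rw [← mul_div_assoc, div_le_iff₀ hb]
  linarith

theorem est_fac {m : ℤ} {y : I p.n → ℝ} (hy : p.F m y ≠ 0) (i : I p.n) : p.fac m i (y i) ≠ 0 :=
  Finset.prod_ne_zero_iff.1 (right_ne_zero_of_mul hy) i (Finset.mem_univ _)

theorem est_inQ {x : ℝ} (h : |x| ≤ 1 / 4) : -(1 / 2) ≤ x ∧ x < 1 / 2 := by
  obtain ⟨h1, h2⟩ := abs_le.1 h
  constructor <;> linarith

theorem mem_boxU {l : ℤ} {s : Bool} {g : UT p.n ℤ} :
    g ∈ p.boxU l s ↔ ∀ a, |g.co a| ≤ (p.rad l s a : ℤ) := by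
  rw [boxU, Finset.mem_map_equiv, Fintype.mem_piFinset]
  refine forall_congr' fun a => ?_
  rw [Finset.mem_Icc, abs_le]
  rfl

theorem mem_S {l : ℤ} {g : NN p.n} : g ∈ p.S l ↔ ∀ s a, |(g s).co a| ≤ (p.rad l s a : ℤ) := by
  rw [S, Fintype.mem_piFinset]
  exact forall_congr' fun s => mem_boxU

theorem card_boxU (l : ℤ) (s : Bool) : (p.boxU l s).card = ∏ a, (2 * p.rad l s a + 1) := by
  rw [boxU, Finset.card_map, Fintype.card_piFinset]
  refine Finset.prod_congr rfl fun a _ => ?_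
  rw [Int.card_Icc]
  omega

theorem S_nonempty (l : ℤ) : (p.S l).Nonempty := by
  refine ⟨1, mem_S.2 fun s a => ?_⟩
  change |(0 : ℤ)| ≤ _
  simp

theorem Ok.lam_pos (h : p.Ok) (m : ℤ) (sa : Bool × Idx p.n) : 0 < p.lam m sa := by
  have h1 : (0 : ℝ) < p.vr m sa.1 := by exact_mod_cast h.est_vr_pos m sa.1
  exact mul_pos (h.tau_pos m sa.1) (pow_pos h1 _)

theorem Ok.amp_pos (h : p.Ok) (m : ℤ) : 0 < p.amp m := by
  refine Real.sqrt_pos.2 (Finset.prod_pos fun sa _ => ?_)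
  have h1 : (0 : ℝ) < p.vr m sa.1 := by exact_mod_cast h.est_vr_pos m sa.1
  positivity

theorem F_chi {m : ℤ} {y : I p.n → ℝ} (hy : p.F m y ≠ 0) : chi p.P m (p.uu (y none)) ≠ 0 := by
  exact left_ne_zero_of_mul (est_fac hy none)

theorem Ok.F_lam (h : p.Ok) {m : ℤ} {y : I p.n → ℝ} (hy : p.F m y ≠ 0) (sa : Bool × Idx p.n) :
    |y (some sa)| < p.lam m sa := by
  have h1 : |y (some sa) / p.lam m sa| < 1 := psi_ne (est_fac hy (some sa))
  have h2 := h.lam_pos m sa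
  rwa [abs_div, abs_of_pos h2, div_lt_one h2] at h1

/-- `theta_mem`, and `lam ≤ tau vr^n ≤ v0^n / b ≤ 1/4` -/
theorem Ok.F_inQ (h : p.Ok) {m : ℤ} {y : I p.n → ℝ} (hy : p.F m y ≠ 0) : InQ y := by
  rintro (_ | ⟨s, a⟩)
  · obtain ⟨h1, h2⟩ := h.theta_mem (F_chi hy)
    constructor <;> linarith
  · refine est_inQ ((h.F_lam hy (s, a)).le.trans (le_trans ?_ (h.est_quarter m s)))
    have h1 : (1 : ℝ) ≤ p.vr m s := by exact_mod_cast h.est_vr_pos m s
    have h2 : (1 : ℝ) ≤ p.K := by exact_mod_cast h.est_K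
    have h3 : (1 : ℝ) ≤ p.P := by exact_mod_cast h.est_P
    have h4 : (1 : ℝ) ≤ (p.n : ℝ) + 2 := by linarith [Nat.cast_nonneg (α := ℝ) p.n]
    have h5 := (h.tau_pos m s).le
    have h6 : (1 : ℝ) ≤ ((p.n : ℝ) + 2) ^ (p.n + 1) * (p.K : ℝ) ^ p.n * (p.P : ℝ) ^ 5 :=
      one_le_mul_of_one_le_of_one_le (one_le_mul_of_one_le_of_one_le (one_le_pow₀ h4)
        (one_le_pow₀ h2)) (one_le_pow₀ h3)
    refine le_trans ?_ (le_mul_of_one_le_left (by positivity) h6)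
    exact mul_le_mul_of_nonneg_left (pow_le_pow_right₀ h1 a.dist_lt.le) h5

/-- `tri_bound` with `t = tau l s / P³`, `κ = P⁵`, `v = vr l s`, `φ = phi b s θ`:
`lam j (s,a) ≤ P tau l (R vr l)^d ≤ P² tau l vr l^d` (`R^d ≤ R^n = P`), `phi ≥ tau j / P² ≥ tau l / P³`. -/
theorem Ok.adequate (h : p.Ok) {l j i : ℤ} (hj : j = l ∨ j = l + 1) (hi : i = l ∨ i = l + 1)
    {g : NN p.n} {y : I p.n → ℝ} (h1 : p.F i y ≠ 0) (h2 : p.F j (aff p.b g y) ≠ 0) :
    g ∈ p.S l := by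
  refine mem_S.2 fun s a => ?_
  have hP : (1 : ℝ) ≤ p.P := by exact_mod_cast h.est_P
  have hτ := h.tau_pos l s
  have e : (p.P : ℝ) ^ 5 * (p.tau l s / (p.P : ℝ) ^ 3) = (p.P : ℝ) ^ 2 * p.tau l s := by
    field_simp
  have h3 := tri_bound (g s) (phi p.b s (y none)) (p.tau l s / (p.P : ℝ) ^ 3) ((p.P : ℝ) ^ 5)
    (p.vr l s) (by positivity) ?_ (one_le_pow₀ hP) (Nat.cast_nonneg _)
    (fun a => y (some (s, a))) (fun a => ?_) (fun a => ?_) a
  · have e2 : ((p.rad l s a : ℕ) : ℝ) = (((p.n : ℝ) + 2) * (p.P : ℝ) ^ 5 * p.vr l s) ^ a.dist := by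
      simp [rad, K]
    rw [← e2] at h3
    exact_mod_cast h3
  · have h4 := (h.phi_bounds (F_chi h1) s).1
    have h5 := h.tau_le (est_near hi).2 s
    rw [div_le_iff₀ (by positivity)]
    calc p.tau l s ≤ p.P * p.tau i s := h5
      _ ≤ p.P * ((p.P : ℝ) ^ 2 * phi p.b s (y none)) := by gcongr
      _ = _ := by ring
  · rw [e]
    exact (h.F_lam h1 (s, a)).le.trans (h.est_lam (est_near hi).1 s a)
  · rw [e]
    exact (h.F_lam h2 (s, a)).le.trans (h.est_lam (est_near hj).1 s a)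

/-- `inv_bound` then `affU_bound` with `v = (n+2) K vr l s`, `κ = P³ tau l s`; the result is at most
`(n+2)^(n+1) K^n P³ tau vr^n ≤ 1/4` by `tau_vr` and `b_ge`. -/
theorem Ok.contain (h : p.Ok) {l j : ℤ} (hj : j = l ∨ j = l + 1) {g : NN p.n} (hg : g ∈ p.S l)
    {y : I p.n → ℝ} (hy : p.F j y ≠ 0) : InQ (aff p.b g⁻¹ y) := by
  rintro (_ | ⟨s, a⟩)
  · exact h.F_inQ hy none
  · have h1 : (1 : ℝ) ≤ p.vr l s := by exact_mod_cast h.est_vr_pos l s
    have h2 : (1 : ℝ) ≤ p.K := by exact_mod_cast h.est_K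
    have h3 : (1 : ℝ) ≤ p.P := by exact_mod_cast h.est_P
    have h4 : (1 : ℝ) ≤ (p.n : ℝ) + 2 := by linarith [Nat.cast_nonneg (α := ℝ) p.n]
    have h5 := h.tau_pos l s
    have h6 : (p.vr l s : ℝ) ≤ ((p.n : ℝ) + 2) * ((p.K : ℝ) * p.vr l s) :=
      (le_mul_of_one_le_left (by positivity) h2).trans (le_mul_of_one_le_left (by positivity) h4)
    have hinv := inv_bound (g s) ((p.K : ℝ) * p.vr l s) (by positivity) fun a => by
      have h7 := mem_S.1 hg s a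
      have e2 : ((p.rad l s a : ℕ) : ℝ) = ((p.K : ℝ) * p.vr l s) ^ a.dist := by simp [rad]
      rw [← e2]
      exact_mod_cast h7
    have hb := affU_bound (g s)⁻¹ (phi p.b s (y none)) ((p.P : ℝ) ^ 3 * p.tau l s)
      (((p.n : ℝ) + 2) * ((p.K : ℝ) * p.vr l s)) (by positivity) (by positivity)
      (fun a => y (some (s, a))) hinv (fun a => ?_) ?_ a
    · refine est_inQ (le_trans hb (le_trans ?_ (h.est_quarter l s)))
      calc ((p.n : ℝ) + 2) * ((p.P : ℝ) ^ 3 * p.tau l s) *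
            (((p.n : ℝ) + 2) * ((p.K : ℝ) * p.vr l s)) ^ a.dist
          ≤ ((p.n : ℝ) + 2) * ((p.P : ℝ) ^ 5 * p.tau l s) *
            (((p.n : ℝ) + 2) * ((p.K : ℝ) * p.vr l s)) ^ p.n := by
            gcongr
            · norm_num
            · exact h1.trans h6
            · exact a.dist_lt.le
        _ = _ := by rw [mul_pow, mul_pow]; ring
    · refine (h.F_lam hy (s, a)).le.trans ((h.est_lam (est_near hj).1 s a).trans ?_)
      gcongr
      norm_num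
    · obtain ⟨h7, h8⟩ := h.phi_bounds (F_chi hy) s
      have h9 := h.tau_le (est_near hj).1 s
      have h10 : 0 < phi p.b s (y none) :=
        (mul_pos_iff_of_pos_left (by positivity)).1 ((h.tau_pos j s).trans_le h7)
      rw [abs_of_pos h10]
      calc phi p.b s (y none) ≤ (p.P : ℝ) ^ 2 * p.tau j s := h8
        _ ≤ (p.P : ℝ) ^ 2 * (p.P * p.tau l s) := by gcongr
        _ = _ := by ring

/-- `card (S l) = ∏_{s,a} (2 rad + 1) ≤ ∏ 3 (K vr l)^d` and `amp j * amp i ≤ ∏ (R / vr l)^d` (`vr_le`). -/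
theorem Ok.card_amp (h : p.Ok) {l j i : ℤ} (hj : j = l ∨ j = l + 1) (hi : i = l ∨ i = l + 1) :
    ((p.S l).card : ℝ) * (p.amp j * p.amp i) ≤
      (3 * ((p.K : ℝ) * p.R) ^ p.n) ^ (2 * Fintype.card (Idx p.n)) := by
  have hv : ∀ m s, (1 : ℝ) ≤ p.vr m s := fun m s => by exact_mod_cast h.est_vr_pos m s
  have hK : (1 : ℝ) ≤ p.K := by exact_mod_cast h.est_K
  have hR : (1 : ℝ) ≤ p.R := by
    have := h.two_le
    exact_mod_cast (by omega : 1 ≤ p.R)
  set Q : ℝ := ∏ sa : Bool × Idx p.n, ((p.R : ℝ) / p.vr l sa.1) ^ sa.2.dist with hQ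
  have hQ0 : 0 ≤ Q := Finset.prod_nonneg fun sa _ => by positivity
  have hamp : ∀ j : ℤ, j = l ∨ j = l + 1 → p.amp j ≤ Real.sqrt Q := by
    intro j hj
    refine Real.sqrt_le_sqrt (Finset.prod_le_prod (fun sa _ => by positivity) fun sa _ => ?_)
    have h1 : (p.vr l sa.1 : ℝ) ≤ p.R * p.vr j sa.1 := by
      exact_mod_cast h.vr_le (est_near hj).2 sa.1
    have h2 := hv l sa.1
    have h3 := hv j sa.1
    rw [← inv_pow]
    refine pow_le_pow_left₀ (by positivity) ?_ _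
    rw [inv_eq_one_div, div_le_div_iff₀ (by positivity) (by positivity), one_mul]
    exact h1
  have h1 : p.amp j * p.amp i ≤ Q := by
    rw [← Real.mul_self_sqrt hQ0]
    exact mul_le_mul (hamp j hj) (hamp i hi) (h.amp_pos i).le (Real.sqrt_nonneg _)
  have h2 : ((p.S l).card : ℝ) = ∏ sa : Bool × Idx p.n, (2 * (p.rad l sa.1 sa.2 : ℝ) + 1) := by
    rw [S, Fintype.card_piFinset, Fintype.prod_prod_type]
    simp only [card_boxU]
    push_cast
    rfl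
  refine (mul_le_mul_of_nonneg_left h1 (Nat.cast_nonneg _)).trans ?_
  rw [h2, hQ, ← Finset.prod_mul_distrib]
  refine (Finset.prod_le_prod (g := fun _ => 3 * ((p.K : ℝ) * p.R) ^ p.n)
    (fun sa _ => by positivity) fun sa _ => ?_).trans (le_of_eq (by simp))
  have h3 := hv l sa.1
  have e2 : ((p.rad l sa.1 sa.2 : ℕ) : ℝ) = ((p.K : ℝ) * p.vr l sa.1) ^ sa.2.dist := by simp [rad]
  have h4 : (1 : ℝ) ≤ ((p.K : ℝ) * p.vr l sa.1) ^ sa.2.dist :=
    one_le_pow₀ (one_le_mul_of_one_le_of_one_le hK h3)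
  have e3 : ((p.K : ℝ) * p.vr l sa.1) * ((p.R : ℝ) / p.vr l sa.1) = p.K * p.R := by field_simp
  calc (2 * (p.rad l sa.1 sa.2 : ℝ) + 1) * ((p.R : ℝ) / p.vr l sa.1) ^ sa.2.dist
      ≤ (3 * ((p.K : ℝ) * p.vr l sa.1) ^ sa.2.dist) * ((p.R : ℝ) / p.vr l sa.1) ^ sa.2.dist := by
        rw [e2]
        exact mul_le_mul_of_nonneg_right (by linarith) (by positivity)
    _ = 3 * ((p.K : ℝ) * p.R) ^ sa.2.dist := by rw [mul_assoc, ← mul_pow, e3]
    _ ≤ _ := by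
        gcongr
        · exact one_le_mul_of_one_le_of_one_le hK hR
        · exact sa.2.dist_lt.le

theorem Ok.vr_le_rad (h : p.Ok) (l : ℤ) (s : Bool) (a : Idx p.n) : p.vr l s ≤ p.rad l s a := by
  exact (Nat.le_mul_of_pos_left _ h.est_K).trans (Nat.le_self_pow a.dist_pos.ne' _)

theorem Ok.rad_le (h : p.Ok) (l : ℤ) (s : Bool) (a : Idx p.n) :
    p.rad l s a ≤ (p.K * p.v0 * p.R ^ l.natAbs) ^ p.n := by
  have h1 : p.vr l s ≤ p.v0 * p.R ^ l.natAbs := by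
    refine Nat.mul_le_mul_left _ (Nat.pow_le_pow_right (by have := h.two_le; omega) ?_)
    unfold sgn
    split_ifs <;> omega
  calc p.rad l s a ≤ (p.K * p.vr l s) ^ p.n :=
        Nat.pow_le_pow_right (Nat.mul_pos h.est_K (h.est_vr_pos l s)) a.dist_lt.le
    _ ≤ _ := by
        rw [mul_assoc]
        exact Nat.pow_le_pow_left (Nat.mul_le_mul_left _ h1) _

end Par

end Crest.Agent.R129.A
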