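import Crest.Agent.R129.A.Band

/-! # Symbol calculus (task R129/A-Sym).  Statements frozen; add lemmas freely. -/

set_option autoImplicit false
open scoped BigOperators Matrix

namespace Crest.Agent.R129.A
variable {ι N : Type} [Fintype ι] [DecidableEq ι] [Group N] {ρ : N →* Matrix ι ι ℤ}

theorem act_one (x : ι → ℝ) : act ρ 1 x = x := by
  unfold act
  rw [map_one, Matrix.map_one _ Int.cast_zero Int.cast_one, Matrix.one_mulVec]

theorem act_mul (g h : N) (x : ι → ℝ) : act ρ (g * h) x = act ρ g (act ρ h x) := by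
  unfold act
  rw [map_mul, Matrix.mulVec_mulVec]
  congr 1
  exact Matrix.map_mul (f := Int.castRingHom ℝ)

theorem act_add (g : N) (x y : ι → ℝ) : act ρ g (x + y) = act ρ g x + act ρ g y := by
  unfold act
  rw [Matrix.mulVec_add]

theorem act_int (g : N) (k : ι → ℤ) :
    act ρ g (fun i => (k i : ℝ)) = fun i => ((ρ g *ᵥ k) i : ℝ) := by
  funext i
  simp [act, Matrix.mulVec, dotProduct]

omit [DecidableEq ι] in
theorem norm_ch (k : ι → ℤ) (x : ι → ℝ) : ‖ch k x‖ = 1 := by
  unfold ch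
  rw [show (2 * Real.pi * Complex.I * ((∑ i, (k i : ℝ) * x i : ℝ) : ℂ) : ℂ) =
    ((2 * Real.pi * ∑ i, (k i : ℝ) * x i : ℝ) : ℂ) * Complex.I by push_cast; ring]
  exact Complex.norm_exp_ofReal_mul_I _

omit [DecidableEq ι] in
theorem ch_zero (x : ι → ℝ) : ch (0 : ι → ℤ) x = 1 := by
  simp [ch]

omit [DecidableEq ι] in
theorem ch_add (k k' : ι → ℤ) (x : ι → ℝ) : ch (k + k') x = ch k x * ch k' x := by
  unfold ch
  rw [← Complex.exp_add]
  congr 1
  simp only [Pi.add_apply, Int.cast_add, add_mul, Finset.sum_add_distrib]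
  push_cast; ring

omit [DecidableEq ι] in
theorem ch_neg (k : ι → ℤ) (x : ι → ℝ) : ch (-k) x = (starRingEnd ℂ) (ch k x) := by
  unfold ch
  rw [← Complex.exp_conj]
  congr 1
  simp only [Pi.neg_apply, Int.cast_neg, neg_mul, Finset.sum_neg_distrib, map_mul,
    Complex.conj_ofReal, Complex.conj_I, Complex.ofReal_neg, map_ofNat]
  ring

theorem ch_act (k : ι → ℤ) (g : N) (x : ι → ℝ) : ch k (act ρ g x) = ch (k ᵥ* ρ g) x := by
  unfold ch act
  congr 3
  simp only [Matrix.mulVec, Matrix.vecMul, dotProduct, Matrix.map_apply, Int.cast_sum,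
    Int.cast_mul, Finset.mul_sum, Finset.sum_mul]
  rw [Finset.sum_comm]
  exact Finset.sum_congr rfl fun _ _ => Finset.sum_congr rfl fun _ _ => by ring

omit [DecidableEq ι] in
theorem norm_tev_le (P : (ι → ℤ) →₀ ℂ) (x : ι → ℝ) : ‖tev P x‖ ≤ l1 P := by
  unfold tev l1 Finsupp.sum
  refine (norm_sum_le _ _).trans (le_of_eq (Finset.sum_congr rfl fun k _ => ?_))
  rw [norm_mul, norm_ch, mul_one]

theorem ev_zero : ev (0 : MonoidAlgebra ℂ (HG ρ)) = 0 := by
  funext g x
  simp [ev]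

open Classical in
theorem ev_single (h : HG ρ) (c : ℂ) (g : N) (x : ι → ℝ) :
    ev (MonoidAlgebra.single h c) g x = if h.g = g then c * ch h.k x else 0 := by
  unfold ev
  rw [MonoidAlgebra.coeff_single, Finsupp.sum_single_index (by simp)]

theorem ev_add (a b : MonoidAlgebra ℂ (HG ρ)) : ev (a + b) = ev a + ev b := by
  funext g x
  simp only [ev, Pi.add_apply, MonoidAlgebra.coeff_add]
  refine Finsupp.sum_add_index' (fun _ => by simp) (fun h c c' => ?_)
  split_ifs
  · ring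
  · simp

theorem ev_sub (a b : MonoidAlgebra ℂ (HG ρ)) : ev (a - b) = ev a - ev b := by
  have := ev_add (a - b) b
  rw [sub_add_cancel] at this
  rw [this, add_sub_cancel_right]

theorem ev_smul (c : ℂ) (a : MonoidAlgebra ℂ (HG ρ)) : ev (c • a) = c • ev a := by
  induction a using MonoidAlgebra.induction_linear with
  | zero => rw [smul_zero, ev_zero, smul_zero]
  | add a b ha hb => rw [smul_add, ev_add, ev_add, ha, hb, smul_add]
  | single h d =>
    funext g x
    rw [MonoidAlgebra.smul_single, Pi.smul_apply, Pi.smul_apply, ev_single, ev_single]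
    split_ifs
    · simp only [smul_eq_mul]; ring
    · simp

theorem ev_sum {κ : Type} (s : Finset κ) (a : κ → MonoidAlgebra ℂ (HG ρ)) :
    ev (∑ i ∈ s, a i) = ∑ i ∈ s, ev (a i) := by
  classical
  induction s using Finset.induction_on with
  | empty => simp [ev_zero]
  | insert i s hi ih => rw [Finset.sum_insert hi, Finset.sum_insert hi, ev_add, ih]

/-- finitely supported symbols -/
def FS (a : Fn ι N) : Prop := ∃ S : Finset N, ∀ g, g ∉ S → ∀ x, a g x = 0

theorem tw_eq_sum {a : Fn ι N} (b : Fn ι N) (S : Finset N) (hS : ∀ g, g ∉ S → ∀ x, a g x = 0)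
    (g : N) (x : ι → ℝ) : tw ρ a b g x = ∑ h ∈ S, a h x * b (h⁻¹ * g) (act ρ h⁻¹ x) := by
  unfold tw
  refine finsum_eq_sum_of_support_subset _ fun h hh => ?_
  by_contra hc
  exact hh (by simp only []; rw [hS h hc, zero_mul])

theorem tw_add_left {a a' : Fn ι N} (ha : FS a) (ha' : FS a') (b : Fn ι N) :
    tw ρ (a + a') b = tw ρ a b + tw ρ a' b := by
  classical
  obtain ⟨S, hS⟩ := ha
  obtain ⟨S', hS'⟩ := ha'
  funext g x
  have h1 : ∀ g, g ∉ S ∪ S' → ∀ x, a g x = 0 :=
    fun g hg => hS g fun e => hg (Finset.mem_union_left _ e)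
  have h2 : ∀ g, g ∉ S ∪ S' → ∀ x, a' g x = 0 :=
    fun g hg => hS' g fun e => hg (Finset.mem_union_right _ e)
  simp only [Pi.add_apply]
  rw [tw_eq_sum b _ h1, tw_eq_sum b _ h2, tw_eq_sum b (S ∪ S') (fun g hg x => by
    simp only [Pi.add_apply, h1 g hg, h2 g hg, add_zero]), ← Finset.sum_add_distrib]
  exact Finset.sum_congr rfl fun h _ => by simp only [Pi.add_apply]; ring

theorem tw_add_right {a : Fn ι N} (ha : FS a) (b b' : Fn ι N) :
    tw ρ a (b + b') = tw ρ a b + tw ρ a b' := by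
  obtain ⟨S, hS⟩ := ha
  funext g x
  simp only [Pi.add_apply]
  rw [tw_eq_sum _ _ hS, tw_eq_sum _ _ hS, tw_eq_sum _ _ hS, ← Finset.sum_add_distrib]
  exact Finset.sum_congr rfl fun h _ => by simp only [Pi.add_apply]; ring

theorem fs_ev (a : MonoidAlgebra ℂ (HG ρ)) : FS (ev a) := by
  classical
  refine ⟨a.coeff.support.image HG.g, fun g hg x => ?_⟩
  unfold ev
  refine Finset.sum_eq_zero fun h hh => if_neg fun e => hg ?_
  rw [← e]
  exact Finset.mem_image_of_mem _ hh

theorem tw_single (h : HG ρ) (c : ℂ) (b : Fn ι N) (g : N) (x : ι → ℝ) :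
    tw ρ (ev (MonoidAlgebra.single h c)) b g x =
      c * ch h.k x * b (h.g⁻¹ * g) (act ρ h.g⁻¹ x) := by
  rw [tw_eq_sum b {h.g} (fun g' hg' x => by
    rw [ev_single, if_neg (fun e => hg' (by rw [e]; exact Finset.mem_singleton_self _))]),
    Finset.sum_singleton, ev_single, if_pos rfl]

/-- Induction on `a` and `b` (`MonoidAlgebra.induction_linear`); `tw` is additive in both
arguments when the left argument vanishes outside a finite set of `h`. -/
theorem ev_mul (a b : MonoidAlgebra ℂ (HG ρ)) : ev (a * b) = tw ρ (ev a) (ev b) := by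
  induction a using MonoidAlgebra.induction_linear with
  | zero =>
    rw [zero_mul, ev_zero]
    funext g x
    simp [tw]
  | add a a' ha ha' => rw [add_mul, ev_add, ev_add, ha, ha', tw_add_left (fs_ev a) (fs_ev a')]
  | single h c =>
    funext g x
    rw [tw_single]
    induction b using MonoidAlgebra.induction_linear with
    | zero => simp [ev_zero]
    | add b b' hb hb' =>
      rw [mul_add, ev_add, ev_add]
      simp only [Pi.add_apply]
      rw [hb, hb', mul_add]
    | single h' c' =>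
      rw [MonoidAlgebra.single_mul_single, ev_single, ev_single, HG.mul_g, HG.mul_k, ch_add, ch_act]
      by_cases e : h.g * h'.g = g
      · rw [if_pos e, if_pos (by rw [← e, inv_mul_cancel_left])]; ring
      · rw [if_neg e, if_neg (fun e' => e (by rw [e', mul_inv_cancel_left])), mul_zero]

theorem adjM_add {A : Type} [Group A] (a b : MonoidAlgebra ℂ A) :
    adjM (a + b) = adjM a + adjM b := by
  apply MonoidAlgebra.coeff_injective
  ext x
  simp only [MonoidAlgebra.coeff_add, Finsupp.add_apply, adjM_coeff, map_add]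

theorem adjM_single {A : Type} [Group A] (h : A) (c : ℂ) :
    adjM (MonoidAlgebra.single h c) = MonoidAlgebra.single h⁻¹ ((starRingEnd ℂ) c) := by
  classical
  apply MonoidAlgebra.coeff_injective
  ext x
  rw [adjM_coeff, MonoidAlgebra.coeff_single, MonoidAlgebra.coeff_single, Finsupp.single_apply,
    Finsupp.single_apply]
  by_cases e : h = x⁻¹
  · rw [if_pos e, if_pos (by rw [e, inv_inv])]
  · rw [if_neg e, if_neg (fun e' => e (by rw [← e', inv_inv])), map_zero]

theorem ev_adjM (a : MonoidAlgebra ℂ (HG ρ)) : ev (adjM a) = st ρ (ev a) := by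
  induction a using MonoidAlgebra.induction_linear with
  | zero =>
    rw [adjM_zero, ev_zero]
    funext g x
    simp [st]
  | add a b ha hb =>
    rw [adjM_add, ev_add, ev_add, ha, hb]
    funext g x
    simp [st]
  | single h c =>
    funext g x
    unfold st
    rw [adjM_single, ev_single, ev_single, HG.inv_g, HG.inv_k, ch_neg, ch_act]
    by_cases e : h.g⁻¹ = g
    · rw [if_pos e, if_pos (by rw [← e, inv_inv]), map_mul, ← e, inv_inv]
    · rw [if_neg e, if_neg (fun e' => e (by rw [e', inv_inv])), map_zero]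

open Classical in
theorem ev_fn (P : (ι → ℤ) →₀ ℂ) (g : N) (x : ι → ℝ) :
    ev (fn ρ P) g x = if g = 1 then tev P x else 0 := by
  unfold ev fn tev
  rw [MonoidAlgebra.coeff_ofCoeff, Finsupp.sum_mapDomain_index (by simp)
    (fun h c c' => by split_ifs <;> [ring; simp])]
  by_cases e : g = 1
  · simp [e]
  · simp [e, Ne.symm e]

open Classical in
theorem ev_sand (P P' : (ι → ℤ) →₀ ℂ) (g g' : N) (x : ι → ℝ) :
    ev (sand ρ P g P') g' x = if g' = g then tev P x * tev P' (act ρ g⁻¹ x) else 0 := by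
  unfold sand
  rw [mul_assoc, ev_mul, tw_eq_sum _ {1} (fun h hh x => by
    rw [ev_fn, if_neg (fun e => hh (by rw [e]; exact Finset.mem_singleton_self _))]),
    Finset.sum_singleton, ev_fn, if_pos rfl, inv_one, one_mul, act_one, ev_mul, tw_single, ev_fn,
    ch_zero]
  by_cases e : g' = g
  · rw [if_pos e, if_pos (by rw [e, inv_mul_cancel])]; ring
  · rw [if_neg e, if_neg (fun e' => e (inv_mul_eq_one.1 e').symm)]; ring

theorem l1_sand (P P' : (ι → ℤ) →₀ ℂ) (g : N) : l1 (sand ρ P g P').coeff ≤ l1 P * l1 P' := by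
  unfold sand
  have h : ∀ Q : (ι → ℤ) →₀ ℂ, l1 (fn ρ Q).coeff ≤ l1 Q := fun Q => l1_mapDomain_le _ Q
  refine (l1_mul_le _ _).trans (mul_le_mul ((l1_mul_le _ _).trans ?_) (h P') (l1_nonneg _)
    (l1_nonneg _))
  rw [MonoidAlgebra.coeff_single, l1_single, norm_one, mul_one]
  exact h P

theorem exists_of_coeff_mul_ne {A : Type} [Group A] {a b : MonoidAlgebra ℂ A} {x : A}
    (h : (a * b).coeff x ≠ 0) : ∃ y, a.coeff y ≠ 0 ∧ b.coeff (y⁻¹ * x) ≠ 0 := by
  rw [MonoidAlgebra.coeff_mul_apply_left, Finsupp.sum] at h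
  obtain ⟨y, _, hy⟩ := Finset.exists_ne_zero_of_sum_ne_zero h
  exact ⟨y, left_ne_zero_of_mul hy, right_ne_zero_of_mul hy⟩

theorem sand_support (P P' : (ι → ℤ) →₀ ℂ) (g : N) {x : HG ρ}
    (hx : (sand ρ P g P').coeff x ≠ 0) :
    ∃ k ∈ P.support, ∃ k' ∈ P'.support, x = (⟨k, 1⟩ : HG ρ) * ⟨0, g⟩ * ⟨k', 1⟩ := by
  classical
  have h : ∀ (Q : (ι → ℤ) →₀ ℂ) (y : HG ρ), (fn ρ Q).coeff y ≠ 0 →
      ∃ k ∈ Q.support, y = ⟨k, 1⟩ := fun Q y hy => by
    have := Finsupp.mapDomain_support (Finsupp.mem_support_iff.2 hy)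
    obtain ⟨k, hk, e⟩ := Finset.mem_image.1 this
    exact ⟨k, hk, e.symm⟩
  unfold sand at hx
  obtain ⟨y, hy, hy'⟩ := exists_of_coeff_mul_ne hx
  rw [MonoidAlgebra.coeff_mul_single_apply, mul_one] at hy
  obtain ⟨k, hk, e⟩ := h _ _ hy
  obtain ⟨k', hk', e'⟩ := h _ _ hy'
  refine ⟨k, hk, k', hk', ?_⟩
  rw [← e, ← e', inv_mul_cancel_right, mul_inv_cancel_left]

omit [Fintype ι] [DecidableEq ι] [Group N] in
theorem Bd.nonneg {a : Fn ι N} {r : ℝ} (h : Bd a r) : 0 ≤ r := by
  obtain ⟨S, w, _, h1, h2⟩ := h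
  exact (Finset.sum_nonneg fun g _ => (norm_nonneg _).trans (h1 g 0)).trans h2

omit [Fintype ι] [DecidableEq ι] [Group N] in
theorem Bd.mono {a : Fn ι N} {r r' : ℝ} (h : Bd a r) (hr : r ≤ r') : Bd a r' := by
  obtain ⟨S, w, h0, h1, h2⟩ := h
  exact ⟨S, w, h0, h1, h2.trans hr⟩

omit [Fintype ι] [DecidableEq ι] [Group N] in
theorem bd_zero {r : ℝ} (hr : 0 ≤ r) : Bd (0 : Fn ι N) r := by
  exact ⟨∅, fun _ => 0, fun _ _ _ => rfl, fun _ _ => by simp, by simpa using hr⟩

omit [Fintype ι] [DecidableEq ι] [Group N] in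
theorem Bd.norm {a : Fn ι N} {r : ℝ} (h : Bd a r) :
    ∃ (S : Finset N) (w : N → ℝ), (∀ g, g ∉ S → ∀ x, a g x = 0) ∧ (∀ g x, ‖a g x‖ ≤ w g) ∧
      (∀ g, g ∉ S → w g = 0) ∧ ∀ T : Finset N, ∑ g ∈ T, w g ≤ r := by
  classical
  obtain ⟨S, w, h0, h1, h2⟩ := h
  have hw : ∀ g, 0 ≤ w g := fun g => (norm_nonneg _).trans (h1 g 0)
  refine ⟨S, fun g => if g ∈ S then w g else 0, h0, fun g x => ?_, fun g hg => if_neg hg,
    fun T => ?_⟩
  · beta_reduce
    split_ifs with hg
    · exact h1 g x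
    · rw [h0 g hg, norm_zero]
  · rw [← Finset.sum_filter]
    refine (Finset.sum_le_sum_of_subset_of_nonneg (fun g hg => (Finset.mem_filter.1 hg).2)
      fun g _ _ => hw g).trans h2

omit [Fintype ι] [DecidableEq ι] [Group N] in
theorem Bd.fs {a : Fn ι N} {r : ℝ} (h : Bd a r) : FS a := by
  obtain ⟨S, w, h0, _⟩ := h
  exact ⟨S, h0⟩

omit [Fintype ι] [DecidableEq ι] [Group N] in
/-- (replace the weights by `if g ∈ S then w g else 0` before adding) -/
theorem Bd.add {a b : Fn ι N} {r r' : ℝ} (h : Bd a r) (h' : Bd b r') : Bd (a + b) (r + r') := by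
  classical
  obtain ⟨S, w, h0, h1, h2, h3⟩ := h.norm
  obtain ⟨S', w', h0', h1', h2', h3'⟩ := h'.norm
  refine ⟨S ∪ S', fun g => w g + w' g, fun g hg x => ?_, fun g x => ?_, ?_⟩
  · rw [Finset.mem_union, not_or] at hg
    simp only [Pi.add_apply, h0 g hg.1, h0' g hg.2, add_zero]
  · exact (norm_add_le _ _).trans (add_le_add (h1 g x) (h1' g x))
  · rw [Finset.sum_add_distrib]
    exact add_le_add (h3 _) (h3' _)

omit [Fintype ι] [DecidableEq ι] [Group N] in
theorem Bd.neg {a : Fn ι N} {r : ℝ} (h : Bd a r) : Bd (-a) r := by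
  obtain ⟨S, w, h0, h1, h2⟩ := h
  refine ⟨S, w, fun g hg x => ?_, fun g x => ?_, h2⟩
  · simp only [Pi.neg_apply, h0 g hg, neg_zero]
  · simp only [Pi.neg_apply, norm_neg]; exact h1 g x

omit [Fintype ι] [DecidableEq ι] [Group N] in
theorem Bd.sum {κ : Type} (s : Finset κ) {a : κ → Fn ι N} {r : κ → ℝ} (h : ∀ i ∈ s, Bd (a i) (r i)) :
    Bd (∑ i ∈ s, a i) (∑ i ∈ s, r i) := by
  classical
  induction s using Finset.induction_on with
  | empty => simpa using bd_zero (ι := ι) (N := N) le_rfl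
  | insert i s hi ih =>
    rw [Finset.sum_insert hi, Finset.sum_insert hi]
    exact (h i (Finset.mem_insert_self _ _)).add
      (ih fun j hj => h j (Finset.mem_insert_of_mem hj))

omit [Fintype ι] [DecidableEq ι] [Group N] in
/-- uniform bound on a finite support -/
theorem bd_of_card {a : Fn ι N} (S : Finset N) (c : ℝ) (hc : 0 ≤ c)
    (h0 : ∀ g, g ∉ S → ∀ x, a g x = 0) (h1 : ∀ g ∈ S, ∀ x, ‖a g x‖ ≤ c) : Bd a (S.card * c) := by
  classical
  refine ⟨S, fun _ => c, h0, fun g x => ?_, by simp⟩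
  by_cases hg : g ∈ S
  · exact h1 g hg x
  · rw [h0 g hg, norm_zero]; exact hc

theorem Bd.st {a : Fn ι N} {r : ℝ} (h : Bd a r) : Bd (st ρ a) r := by
  classical
  obtain ⟨S, w, h0, h1, h2⟩ := h
  refine ⟨S.map (Equiv.inv N).toEmbedding, fun g => w g⁻¹, fun g hg x => ?_, fun g x => ?_, ?_⟩
  · unfold A.st
    rw [h0 g⁻¹ (fun e => hg (by rw [Finset.mem_map_equiv]; exact e)), map_zero]
  · unfold A.st
    rw [RCLike.norm_conj]; exact h1 _ _
  · rw [Finset.sum_map]
    simpa using h2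

theorem st_sub (a b : Fn ι N) : st ρ (a - b) = st ρ a - st ρ b := by
  funext g x
  simp [st]

/-- support `S * S'`, weights `w'' g = ∑_{h ∈ S} w h * w' (h⁻¹ g)` -/
theorem Bd.tw {a b : Fn ι N} {r r' : ℝ} (h : Bd a r) (h' : Bd b r') : Bd (tw ρ a b) (r * r') := by
  classical
  have hr' := h'.nonneg
  obtain ⟨S, w, h0, h1, h2, h3⟩ := h.norm
  obtain ⟨S', w', h0', h1', h2', h3'⟩ := h'.norm
  have hw : ∀ g, 0 ≤ w g := fun g => (norm_nonneg _).trans (h1 g 0)
  refine ⟨Finset.image₂ (· * ·) S S', fun g => ∑ k ∈ S, w k * w' (k⁻¹ * g), fun g hg x => ?_,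
    fun g x => ?_, ?_⟩
  · rw [tw_eq_sum _ S h0]
    refine Finset.sum_eq_zero fun k hk => ?_
    rw [h0' (k⁻¹ * g) (fun e => hg ?_), mul_zero]
    have := Finset.mem_image₂_of_mem (f := (· * ·)) hk e
    simpa using this
  · rw [tw_eq_sum _ S h0]
    refine (norm_sum_le _ _).trans (Finset.sum_le_sum fun k _ => ?_)
    rw [norm_mul]
    exact mul_le_mul (h1 _ _) (h1' _ _) (norm_nonneg _) (hw k)
  · rw [Finset.sum_comm]
    calc _ ≤ ∑ k ∈ S, w k * r' := Finset.sum_le_sum fun k _ => by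
          rw [← Finset.mul_sum]
          refine mul_le_mul_of_nonneg_left ?_ (hw k)
          have := h3' ((Finset.image₂ (· * ·) S S').map (Equiv.mulLeft k⁻¹).toEmbedding)
          rw [Finset.sum_map] at this
          exact this
      _ ≤ r * r' := by
          rw [← Finset.sum_mul]
          exact mul_le_mul_of_nonneg_right (h3 S) hr'

/-- `a b c - a' b' c' = (a - a') b c + a' (b - b') c + a' b' (c - c')` by bilinearity of `tw` on
finitely supported left arguments; `a = a' + (a - a')` has `Bd` bound `r + e`. -/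
theorem Bd.tri {a b c a' b' c' : Fn ι N} {r e : ℝ} (ha : Bd a' r) (hb : Bd b' r) (hc : Bd c' r)
    (ha' : Bd (a - a') e) (hb' : Bd (b - b') e) (hc' : Bd (c - c') e) :
    Bd (A.tw ρ (A.tw ρ a b) c - A.tw ρ (A.tw ρ a' b') c') (3 * e * (r + e) ^ 2) := by
  have hr := ha.nonneg
  have he := ha'.nonneg
  have hb2 : Bd b (r + e) := by
    have := hb.add hb'
    rwa [add_sub_cancel] at this
  have hc2 : Bd c (r + e) := by
    have := hc.add hc'
    rwa [add_sub_cancel] at this
  have e1 : A.tw ρ a b = A.tw ρ (a - a') b + (A.tw ρ a' (b - b') + A.tw ρ a' b') := by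
    rw [← tw_add_right ha.fs, sub_add_cancel, ← tw_add_left ha'.fs ha.fs, sub_add_cancel]
  have e2 : A.tw ρ (A.tw ρ a b) c - A.tw ρ (A.tw ρ a' b') c' =
      A.tw ρ (A.tw ρ (a - a') b) c + (A.tw ρ (A.tw ρ a' (b - b')) c +
        A.tw ρ (A.tw ρ a' b') (c - c')) := by
    have t1 := (ha'.tw (ρ := ρ) hb2)
    have t2 := (ha.tw (ρ := ρ) hb')
    have t3 := (ha.tw (ρ := ρ) hb)
    have e3 : A.tw ρ (A.tw ρ a' b') c = A.tw ρ (A.tw ρ a' b') (c - c') +
        A.tw ρ (A.tw ρ a' b') c' := by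
      rw [← tw_add_right t3.fs, sub_add_cancel]
    rw [e1, tw_add_left t1.fs (t2.add t3).fs, tw_add_left t2.fs t3.fs, e3]
    abel
  rw [e2]
  refine (((ha'.tw hb2).tw hc2).add (((ha.tw hb').tw hc2).add ((ha.tw hb).tw hc'))).mono ?_
  nlinarith [mul_nonneg hr he, mul_nonneg (mul_nonneg hr he) he, mul_nonneg (mul_nonneg he he) he]

/-- the image in `N` has finite order, so `a = ⟨k, 1⟩`, and `⟨k, 1⟩ ^ m = ⟨m • k, 1⟩` -/
theorem HG.torsionFree (hN : ∀ g : N, IsOfFinOrder g → g = 1) (a : HG ρ) (ha : IsOfFinOrder a) :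
    a = 1 := by
  have hg : a.g = 1 := hN _ ((HG.toN ρ).isOfFinOrder ha)
  obtain ⟨m, hm, e⟩ := isOfFinOrder_iff_pow_eq_one.1 ha
  have hp : ∀ j : ℕ, (a ^ j).k = (j : ℤ) • a.k := fun j => by
    induction j with
    | zero => simp
    | succ j ih =>
      rw [pow_succ', HG.mul_k, ih, hg, inv_one, map_one, Matrix.vecMul_one]
      push_cast
      rw [add_smul, one_smul, add_comm]
  have h0 := hp m
  rw [e, HG.one_k] at h0
  refine HG.ext ?_ hg
  rw [HG.one_k]
  exact (smul_eq_zero.1 h0.symm).resolve_left (by exact_mod_cast hm.ne')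

end Crest.Agent.R129.A
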