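import Crest.Agent.R129.A.Rho
import Crest.Agent.R129.A.Sym

/-! # Polynomial growth (task R129/A-Grow). Statements frozen. -/

set_option autoImplicit false
open scoped BigOperators Matrix

namespace Crest.Agent.R129.A

/-- entries grow at most like `v ^ dist` -/
def GrowGau {n : ℕ} (g : UT n ℤ) (v : ℝ) : Prop := ∀ a, |(g.co a : ℝ)| ≤ v ^ a.dist

theorem GrowGau.mono {n : ℕ} {g : UT n ℤ} {v w : ℝ} (h : GrowGau g v) (hv : 0 ≤ v) (hw : v ≤ w) :
    GrowGau g w := fun a => (h a).trans (pow_le_pow_left₀ hv hw _)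

theorem GrowGau.mat {n : ℕ} {g : UT n ℤ} {v : ℝ} (h : GrowGau g v) (i j : Fin n) :
    |(g.mat i j : ℝ)| ≤ if (i : ℕ) ≤ j then v ^ ((j : ℕ) - i) else 0 := by
  rcases lt_trichotomy i j with hij | rfl | hij
  · rw [if_pos (Fin.le_def.1 hij.le), UT.mat, Matrix.add_apply, Matrix.one_apply_ne hij.ne, zero_add,
      su_apply_lt _ hij]
    exact h ⟨(i, j), hij⟩
  · rw [UT.mat, Matrix.add_apply, isSU_su _ i i le_rfl]
    simp
  · rw [if_neg (not_le.2 (Fin.lt_def.1 hij)), UT.mat, Matrix.add_apply, Matrix.one_apply_ne hij.ne',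
      isSU_su _ i j hij.le]
    simp

theorem GrowGau.mul {n : ℕ} {g h : UT n ℤ} {v w : ℝ} (hg : GrowGau g v) (hh : GrowGau h w)
    (hv : 0 ≤ v) (hw : 0 ≤ w) : GrowGau (g * h) (v + w) := by
  rintro ⟨⟨i, j⟩, hij⟩
  have hij' : (i : ℕ) < j := hij
  have hj := j.2
  change |((g.mat * h.mat) i j : ℝ)| ≤ (v + w) ^ ((j : ℕ) - i)
  rw [Matrix.mul_apply]
  push_cast
  have h1 : ∀ l : Fin n, |(g.mat i l : ℝ) * (h.mat l j : ℝ)| ≤
      (fun l : ℕ => if (i : ℕ) ≤ l ∧ l ≤ j then v ^ (l - i) * w ^ ((j : ℕ) - l) else 0) l := fun l => by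
    rw [abs_mul]
    refine (mul_le_mul (hg.mat i l) (hh.mat l j) (abs_nonneg _) (by positivity)).trans (le_of_eq ?_)
    by_cases a1 : (i : ℕ) ≤ l <;> by_cases a2 : (l : ℕ) ≤ j <;> simp [a1, a2]
  refine (Finset.abs_sum_le_sum_abs _ _).trans ((Finset.sum_le_sum fun l _ => h1 l).trans ?_)
  have h2 : (Finset.range n).filter (fun l => (i : ℕ) ≤ l ∧ l ≤ j) = Finset.Ico (i : ℕ) (j + 1) := by
    ext l
    simp only [Finset.mem_filter, Finset.mem_range, Finset.mem_Ico]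
    omega
  rw [Fin.sum_univ_eq_sum_range
      (fun l : ℕ => if (i : ℕ) ≤ l ∧ l ≤ j then v ^ (l - i) * w ^ ((j : ℕ) - l) else 0) n,
    ← Finset.sum_filter, h2, Finset.sum_Ico_eq_sum_range, add_pow,
    show (j : ℕ) + 1 - i = j - i + 1 by omega]
  refine Finset.sum_le_sum fun m hm => ?_
  have hm' : m ≤ (j : ℕ) - i := Nat.lt_succ_iff.1 (Finset.mem_range.1 hm)
  rw [Nat.add_sub_cancel_left, show (j : ℕ) - (i + m) = j - i - m by omega]
  exact le_mul_of_one_le_right (by positivity) (by exact_mod_cast Nat.choose_pos hm')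

theorem grow_letter {n : ℕ} {g : UT n ℤ} {Ξ : ℕ} (hΞ : 1 ≤ Ξ) (h : ∀ a, |g.co a| ≤ (Ξ : ℤ)) :
    GrowGau g ((n + 2) * Ξ) ∧ GrowGau g⁻¹ ((n + 2) * Ξ) := by
  have hΞ' : (1 : ℝ) ≤ Ξ := by exact_mod_cast hΞ
  have h1 : GrowGau g Ξ := fun a =>
    (show |(g.co a : ℝ)| ≤ Ξ by exact_mod_cast h a).trans (le_self_pow₀ hΞ' a.dist_pos.ne')
  refine ⟨h1.mono (by positivity) ?_, inv_bound g Ξ (by positivity) h1⟩
  have : (0 : ℝ) ≤ n := Nat.cast_nonneg n
  nlinarith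

theorem grow_rho {n b : ℕ} {ρ : NN n →* Matrix (I n) (I n) ℤ} (hρ : ∀ g x, act ρ g x = lin b g x)
    {g : NN n} {v : ℝ} (hv : 1 ≤ v) (hg : ∀ s, GrowGau (g s) v) (i j : I n) :
    |(ρ g i j : ℝ)| ≤ (n + 2) * (b + 1) * v ^ n := by
  have h1 : (ρ g i j : ℝ) = lin b g (Pi.single j (1 : ℝ)) i := by
    rw [← hρ, act, Matrix.mulVec_single_one]
    rfl
  have h2 : ∀ i' : I n, |(Pi.single j (1 : ℝ) : I n → ℝ) i'| ≤ 1 := fun i' => by
    by_cases h : i' = j
    · subst h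
      simp
    · simp [Pi.single_eq_of_ne h]
  have hn : (0 : ℝ) ≤ n := Nat.cast_nonneg n
  have hb : (1 : ℝ) ≤ b + 1 := by linarith [(Nat.cast_nonneg b : (0 : ℝ) ≤ b)]
  rw [h1]
  rcases i with _ | ⟨s, a⟩
  · refine (h2 none).trans ?_
    exact one_le_mul_of_one_le_of_one_le (one_le_mul_of_one_le_of_one_le (by linarith) hb)
      (one_le_pow₀ hv)
  · refine (affU_bound (g s) _ (b + 1) v (by positivity) (by positivity) _ (hg s) (fun a' => ?_) ?_
      a).trans ?_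
    · exact (h2 _).trans (one_le_mul_of_one_le_of_one_le hb (one_le_pow₀ hv))
    · rw [abs_mul]
      refine (mul_le_of_le_one_right (abs_nonneg _) (h2 none)).trans ?_
      cases s
      · simp [bet]
      · simp only [bet, if_true]
        push_cast
        exact (abs_of_nonneg (by positivity)).le
    · exact mul_le_mul_of_nonneg_left (pow_le_pow_right₀ hv a.dist_lt.le) (by positivity)

theorem grow_vecMul {ι : Type} [Fintype ι] (u : ι → ℤ) (M : Matrix ι ι ℤ) {B E : ℝ} (hB : 0 ≤ B)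
    (hu : ∀ i, |(u i : ℝ)| ≤ B) (hM : ∀ i j, |(M i j : ℝ)| ≤ E) (j : ι) :
    |((u ᵥ* M) j : ℝ)| ≤ Fintype.card ι * B * E := by
  rw [Matrix.vecMul, dotProduct]
  push_cast
  refine (Finset.abs_sum_le_sum_abs _ _).trans ((Finset.sum_le_sum (g := fun _ => B * E)
    fun i _ => ?_).trans (le_of_eq ?_))
  · rw [abs_mul]
    exact mul_le_mul (hu i) (hM i j) (abs_nonneg _) hB
  · rw [Finset.sum_const, Finset.card_univ, nsmul_eq_mul, mul_assoc]

theorem grow_list {n : ℕ} {ρ : NN n →* Matrix (I n) (I n) ℤ} {v B E : ℝ} {k : ℕ} (hv : 0 ≤ v)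
    (hB : 0 ≤ B) (hρ : ∀ g : NN n, (∀ s, GrowGau (g s) (k * v)) → ∀ i j, |(ρ g i j : ℝ)| ≤ E)
    (l : List (HG ρ)) (hl : l.length ≤ k)
    (hx : ∀ x ∈ l, (∀ s, GrowGau (x.g s) v ∧ GrowGau (x.g s)⁻¹ v) ∧ ∀ i, |(x.k i : ℝ)| ≤ B) :
    (∀ s, GrowGau (l.prod.g s) (l.length * v) ∧ GrowGau (l.prod.g s)⁻¹ (l.length * v)) ∧
      ∀ i, |(l.prod.k i : ℝ)| ≤ l.length * (Fintype.card (I n) * B * E) := by
  induction l using List.reverseRecOn with
  | nil =>
    have h1 : ∀ w : ℝ, 0 ≤ w → GrowGau (1 : UT n ℤ) w := fun w hw a => by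
      rw [UT.one_co]
      simpa using pow_nonneg hw _
    refine ⟨fun s => ⟨h1 _ (by simp), ?_⟩, fun i => by simp⟩
    simpa using h1 0 le_rfl
  | append_singleton l x ih =>
    rw [List.length_append, List.length_singleton] at hl ⊢
    obtain ⟨a1, a2⟩ := ih (by omega) fun y hy => hx y (List.mem_append_left _ hy)
    obtain ⟨b1, b2⟩ := hx x (by simp)
    have h0 : (0 : ℝ) ≤ l.length * v := by positivity
    rw [List.prod_append, List.prod_singleton]
    push_cast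
    refine ⟨fun s => ⟨?_, ?_⟩, fun i => ?_⟩
    · rw [add_one_mul]
      exact (a1 s).1.mul (b1 s).1 h0 hv
    · rw [add_one_mul, add_comm, HG.mul_g, Pi.mul_apply, mul_inv_rev]
      exact (b1 s).2.mul (a1 s).2 hv h0
    · have hk : (l.length : ℝ) ≤ k := by exact_mod_cast (by omega : l.length ≤ k)
      have c1 := grow_vecMul x.k (ρ l.prod.g⁻¹) hB b2
        (hρ _ fun s => (a1 s).2.mono h0 (mul_le_mul_of_nonneg_right hk hv)) i
      rw [HG.mul_k, Pi.add_apply, Int.cast_add, add_one_mul]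
      exact (abs_add_le _ _).trans (add_le_add (a2 i) c1)

theorem grow_le_pow (c : ℕ) {T : ℝ} (hT : 2 ≤ T) : (c : ℝ) ≤ T ^ c :=
  (show (c : ℝ) ≤ 2 ^ c by exact_mod_cast Nat.lt_two_pow_self.le).trans
    (pow_le_pow_left₀ zero_le_two hT c)

/-- Gauge `Gau g v := ∀ a, |g.co a| * (dist a)! ≤ v ^ dist a` is additive: `Gau g v → Gau h w → Gau (g h) (v + w)`
(`UT.mul_co_apply` and the binomial theorem).  If `g` or `g⁻¹` has entries `≤ Ξ` then both have entries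
`≤ ((n+2) Ξ)^dist` (`inv_bound`), hence gauge `v₁ = n! (n+2) Ξ`; products of at most `k` such elements and their inverses
have gauge `k v₁`, so entries `≤ (k v₁)^n`.  Entries of `ρ g`: evaluate `act ρ g (Pi.single j 1) = lin ..` and use
`affU_apply`: `|ρ g i j| ≤ (n+2) (b+1) E` if the entries of `g` are `≤ E`, `1 ≤ E`.  By induction on the list the
`k`-part of the product is at most `k * card (I n) * (n+2) Ξ (k v₁)^n * (bound for the k-part of a letter)`, where for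
a letter `x` with `Sz x⁻¹ Ξ` one uses `x.k = -(x⁻¹.k ᵥ* ρ x⁻¹.g)`.  All constants are absorbed because `2 ≤ Ξ k`
(`c ≤ 2 ^ c ≤ (Ξ k) ^ c`). -/
theorem sz_prod (n : ℕ) : ∃ C : ℕ, ∀ (b : ℕ) (ρ : NN n →* Matrix (I n) (I n) ℤ),
    (∀ g x, act ρ g x = lin b g x) → ∀ Ξ k : ℕ, 2 ≤ Ξ → b + 1 ≤ Ξ → 1 ≤ k →
    ∀ l : List (HG ρ), l.length ≤ k → (∀ x ∈ l, Sz x Ξ ∨ Sz x⁻¹ Ξ) → Sz l.prod ((Ξ * k) ^ C) := by
  refine ⟨2 + 2 * Fintype.card (I n) + 2 * (n + 3 + (n + 3) * n), fun b ρ hρ Ξ k hΞ hb hk l hl hx => ?_⟩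
  have hΞ' : (2 : ℝ) ≤ Ξ := by exact_mod_cast hΞ
  have hk' : (1 : ℝ) ≤ k := by exact_mod_cast hk
  have hb' : (b : ℝ) + 1 ≤ Ξ := by exact_mod_cast hb
  have hl' : (l.length : ℝ) ≤ k := by exact_mod_cast hl
  have hn : (0 : ℝ) ≤ n := Nat.cast_nonneg n
  have hc : (1 : ℝ) ≤ Fintype.card (I n) := by exact_mod_cast Fintype.card_pos
  obtain ⟨T, hT⟩ : ∃ T : ℝ, T = Ξ * k := ⟨_, rfl⟩
  have hΞT : (Ξ : ℝ) ≤ T := by rw [hT]; nlinarith
  have hkT : (k : ℝ) ≤ T := by rw [hT]; nlinarith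
  have hT2 : 2 ≤ T := hΞ'.trans hΞT
  have hT1 : 1 ≤ T := by linarith
  have hv0 : (0 : ℝ) ≤ (n + 2) * Ξ := by positivity
  have hv1 : (1 : ℝ) ≤ (n + 2) * Ξ := by nlinarith
  have hv2 : (n + 2 : ℝ) * Ξ ≤ k * ((n + 2) * Ξ) := le_mul_of_one_le_left hv0 hk'
  have hn2 : (n + 2 : ℝ) ≤ T ^ (n + 2) := by exact_mod_cast grow_le_pow (n + 2) hT2
  have hV : (k : ℝ) * ((n + 2) * Ξ) ≤ T ^ (n + 3) := by
    rw [pow_succ, show (k : ℝ) * ((n + 2) * Ξ) = (n + 2) * (Ξ * k) by ring, ← hT]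
    exact mul_le_mul_of_nonneg_right hn2 (by linarith)
  have hE : ∀ g : NN n, (∀ s, GrowGau (g s) (k * ((n + 2) * Ξ))) → ∀ i j,
      |(ρ g i j : ℝ)| ≤ T ^ (n + 3 + (n + 3) * n) := fun g hg i j => by
    refine (grow_rho hρ (hv1.trans hv2) hg i j).trans ?_
    rw [pow_add, pow_mul, pow_succ T (n + 2)]
    exact mul_le_mul (mul_le_mul hn2 (hb'.trans hΞT) (by positivity) (by positivity))
      (pow_le_pow_left₀ (by positivity) hV n) (by positivity) (by positivity)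
  have hE1 : 1 ≤ T ^ (n + 3 + (n + 3) * n) := one_le_pow₀ hT1
  obtain ⟨a1, a2⟩ := grow_list (v := (n + 2) * Ξ)
    (B := Fintype.card (I n) * Ξ * T ^ (n + 3 + (n + 3) * n)) hv0 (by positivity) hE l hl fun x hxl => by
      rcases hx x hxl with h | h
      · refine ⟨fun s => grow_letter (by omega) (h.2 s), fun i => ?_⟩
        refine (show |(x.k i : ℝ)| ≤ Ξ by exact_mod_cast h.1 i).trans ?_
        exact (le_mul_of_one_le_left (by positivity) hc).trans (le_mul_of_one_le_right (by positivity) hE1)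
      · refine ⟨fun s => ?_, fun i => ?_⟩
        · have := grow_letter (by omega) (h.2 s)
          rw [HG.inv_g, Pi.inv_apply, inv_inv] at this
          exact this.symm
        · have e : x.k = -(x⁻¹.k ᵥ* ρ x⁻¹.g) := by rw [← HG.inv_k, inv_inv]
          rw [e, Pi.neg_apply, Int.cast_neg, abs_neg]
          exact grow_vecMul _ _ (by positivity) (fun i => by exact_mod_cast h.1 i)
            (hE _ fun s => (grow_letter (by omega) (h.2 s)).1.mono hv0 hv2) i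
  have hcT := grow_le_pow (Fintype.card (I n)) hT2
  refine ⟨fun i => ?_, fun s a => ?_⟩
  · have : |(l.prod.k i : ℝ)| ≤ T ^ (2 + 2 * Fintype.card (I n) + 2 * (n + 3 + (n + 3) * n)) := by
      refine (a2 i).trans ?_
      calc (l.length : ℝ) * (Fintype.card (I n) *
            (Fintype.card (I n) * Ξ * T ^ (n + 3 + (n + 3) * n)) * T ^ (n + 3 + (n + 3) * n))
          ≤ T * (T ^ Fintype.card (I n) *
            (T ^ Fintype.card (I n) * T * T ^ (n + 3 + (n + 3) * n)) * T ^ (n + 3 + (n + 3) * n)) := by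
            gcongr
            exact hl'.trans hkT
        _ = _ := by ring
    rw [hT] at this
    exact_mod_cast this
  · have : |((l.prod.g s).co a : ℝ)| ≤
        T ^ (2 + 2 * Fintype.card (I n) + 2 * (n + 3 + (n + 3) * n)) := by
      refine (((a1 s).1.mono (by positivity) ((mul_le_mul_of_nonneg_right hl' hv0).trans hV)) a).trans ?_
      rw [← pow_mul]
      refine pow_le_pow_right₀ hT1 ?_
      have := Nat.mul_le_mul_left (n + 3) a.dist_lt.le
      omega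
    rw [hT] at this
    exact_mod_cast this

/-- the image of a product of intervals; `2 Ξ + 1 ≤ Ξ ^ 3` -/
theorem sz_count (n : ℕ) : ∃ C : ℕ, ∀ (ρ : NN n →* Matrix (I n) (I n) ℤ) (Ξ : ℕ), 2 ≤ Ξ →
    ∃ Fk : Finset (HG ρ), (∀ x, Sz x Ξ → x ∈ Fk) ∧ Fk.card ≤ Ξ ^ C := by
  classical
  refine ⟨3 * (Fintype.card (I n) + Fintype.card (Idx n) * 2), fun ρ Ξ hΞ => ?_⟩
  refine ⟨((Fintype.piFinset fun _ : I n => Finset.Icc (-(Ξ : ℤ)) Ξ) ×ˢ
    (Fintype.piFinset fun _ : Bool => Fintype.piFinset fun _ : Idx n => Finset.Icc (-(Ξ : ℤ)) Ξ)).image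
      fun q => (⟨q.1, fun s => ⟨q.2 s⟩⟩ : HG ρ), fun x hx => ?_, Finset.card_image_le.trans ?_⟩
  · refine Finset.mem_image.2 ⟨(x.k, fun s => (x.g s).co), ?_, rfl⟩
    simp only [Finset.mem_product, Fintype.mem_piFinset, Finset.mem_Icc]
    exact ⟨fun i => abs_le.1 (hx.1 i), fun s a => abs_le.1 (hx.2 s a)⟩
  · have h1 : (Finset.Icc (-(Ξ : ℤ)) Ξ).card = 2 * Ξ + 1 := by
      rw [Int.card_Icc]
      omega
    have h2 : 2 * Ξ + 1 ≤ Ξ ^ 3 := by
      have : 2 * 2 ≤ Ξ * Ξ := Nat.mul_le_mul hΞ hΞ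
      have : 2 * 2 * Ξ ≤ Ξ * Ξ * Ξ := Nat.mul_le_mul_right Ξ this
      rw [pow_three']
      omega
    simp only [Finset.card_product, Fintype.card_piFinset, Finset.prod_const, Finset.card_univ, h1,
      Fintype.card_bool]
    rw [← pow_mul, ← pow_add, pow_mul]
    exact Nat.pow_le_pow_left h2 _

end Crest.Agent.R129.A
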