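import Crest.Agent.R129.A.Est

/-! # Orbit sums of the frame functions (task R129/A-Ip). Statements frozen. -/

set_option autoImplicit false
open scoped BigOperators Matrix

namespace Crest.Agent.R129.A

/-- if `F m (aff h₀ y) ≠ 0` then every `h` in the set has `h h₀⁻¹ ∈ S m` (`adequate` with `l = j = i = m`) -/
theorem fin_supp {p : Par} (h : p.Ok) {ρ : NN p.n →* Matrix (I p.n) (I p.n) ℤ} {L : Loc ρ}
    (hc : IsConc p.b ρ L) (m : ℤ) (y : I p.n → ℝ) : {g | p.F m (L.aff g y) ≠ 0}.Finite := by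
  rcases Set.eq_empty_or_nonempty {g | p.F m (L.aff g y) ≠ 0} with h0 | ⟨g0, hg0⟩
  · rw [h0]
    exact Set.finite_empty
  · refine ((p.S m).finite_toSet.image fun g => g * g0).subset fun g hg => ?_
    refine ⟨g * g0⁻¹, ?_, inv_mul_cancel_right g g0⟩
    refine h.adequate (l := m) (j := m) (i := m) (Or.inl rfl) (Or.inl rfl) (y := L.aff g0 y) hg0 ?_
    rw [← hc.2, ← L.aff_mul, inv_mul_cancel_right]
    exact hg

/-- `aff` does not move `θ` (`F_chi`) -/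
theorem ip_eq_zero {p : Par} {ρ : NN p.n →* Matrix (I p.n) (I p.n) ℤ} {L : Loc ρ}
    (hc : IsConc p.b ρ L) {m : ℤ} {y : I p.n → ℝ} (hy : chi p.P m (p.uu (y none)) = 0) :
    ip L (p.F m) (p.F m) y = 0 := by
  refine finsum_eq_zero_of_forall_eq_zero fun g => ?_
  have h0 : p.F m (L.aff g y) = 0 := by
    by_contra h1
    rw [hc.2] at h1
    exact Par.F_chi h1 hy
  rw [h0, mul_zero]

/-- the square of a frame function -/
theorem ip_F_sq {p : Par} (h : p.Ok) (m : ℤ) (x : I p.n → ℝ) (hφ : ∀ s, 0 ≤ phi p.b s (x none)) :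
    p.F m x * p.F m x = chi p.P m (p.uu (x none)) ^ 2 *
      ∏ s : Bool, ∏ a : Idx p.n, phi p.b s (x none) / p.lam m (s, a) *
        psi (x (some (s, a)) / p.lam m (s, a)) ^ 2 := by
  have e1 : p.amp m ^ 2 = ∏ s : Bool, ∏ a : Idx p.n, ((p.vr m s : ℝ) ^ a.dist)⁻¹ := by
    unfold Par.amp
    rw [Real.sq_sqrt (Finset.prod_nonneg fun _ _ => by positivity), Fintype.prod_prod_type]
  have e2 : p.G m x = p.Th m (x none) *
      ∏ s : Bool, ∏ a : Idx p.n, psi (x (some (s, a)) / p.lam m (s, a)) := by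
    unfold Par.G
    rw [Fintype.prod_option, Fintype.prod_prod_type]
    rfl
  have e3 : p.Th m (x none) ^ 2 = chi p.P m (p.uu (x none)) ^ 2 *
      ∏ s : Bool, ∏ _a : Idx p.n, phi p.b s (x none) / p.tau m s := by
    unfold Par.Th
    rw [mul_pow, ← Finset.prod_pow]
    congr 1
    refine Finset.prod_congr rfl fun s _ => ?_
    rw [← pow_mul, mul_comm, pow_mul, Real.sq_sqrt (div_nonneg (hφ s) (h.tau_pos m s).le),
      Finset.prod_const, Finset.card_univ]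
  rw [← sq, Par.F, mul_pow, e2, mul_pow, e1, e3, mul_left_comm, mul_assoc, ← Finset.prod_pow,
    ← Finset.prod_mul_distrib, ← Finset.prod_mul_distrib]
  congr 1
  refine Finset.prod_congr rfl fun s _ => ?_
  rw [← Finset.prod_pow, ← Finset.prod_mul_distrib, ← Finset.prod_mul_distrib]
  refine Finset.prod_congr rfl fun a _ => ?_
  rw [Par.lam, div_mul_eq_div_div, div_eq_mul_inv (_ / p.tau m s)]
  ring

/-- a finite sum over a product factorises -/
theorem ip_finsum_pi {σ α : Type} [Fintype σ] [DecidableEq σ] (f : σ → α → ℝ)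
    (hf : ∀ s, {u | f s u ≠ 0}.Finite) :
    ∑ᶠ g : σ → α, ∏ s, f s (g s) = ∏ s, ∑ᶠ u, f s u := by
  have e : ∀ s, ∑ᶠ u, f s u = ∑ u ∈ (hf s).toFinset, f s u := fun s =>
    finsum_eq_sum_of_support_subset _ fun u hu => by
      rw [Finset.mem_coe, Set.Finite.mem_toFinset]
      exact hu
  simp only [e]
  rw [Finset.prod_univ_sum]
  refine finsum_eq_sum_of_support_subset _ fun g hg => ?_
  rw [Finset.mem_coe, Fintype.mem_piFinset]
  intro s
  rw [Set.Finite.mem_toFinset]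
  exact Finset.prod_ne_zero_iff.1 hg s (Finset.mem_univ s)

theorem ip_core {p : Par} (h : p.Ok) {ρ : NN p.n →* Matrix (I p.n) (I p.n) ℤ} {L : Loc ρ}
    (hc : IsConc p.b ρ L) {η : ℝ} (hη : (p.P : ℝ) ^ 2 ≤ η * p.v0) (hη1 : η ≤ 1 / 6) {m : ℤ}
    {y : I p.n → ℝ} (hy : chi p.P m (p.uu (y none)) ≠ 0) :
    ∃ A : ℝ, ip L (p.F m) (p.F m) y = chi p.P m (p.uu (y none)) ^ 2 * A ∧
      (1 - 6 * η) ^ (Fintype.card (Idx p.n) * 2) ≤ A ∧ A ≤ (1 + 6 * η) ^ (Fintype.card (Idx p.n) * 2) := by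
  have hP : (0 : ℝ) < (p.P : ℝ) ^ 2 := pow_pos (by linarith [h.two_le_P]) 2
  have hφ : ∀ s, 0 < phi p.b s (y none) := fun s =>
    (mul_pos_iff_of_pos_left hP).1 ((h.tau_pos m s).trans_le (h.phi_bounds hy s).1)
  have hv : (1 : ℝ) ≤ p.v0 := by exact_mod_cast h.v0_pos
  have hη0 : 0 < η := (mul_pos_iff_of_pos_right (by linarith)).1 (hP.trans_le hη)
  have hr : ∀ s (a : Idx p.n), phi p.b s (y none) / p.lam m (s, a) ≤ η := fun s a => by
    rw [div_le_iff₀ (h.lam_pos m (s, a))]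
    have h1 : (p.v0 : ℝ) ≤ p.vr m s := by exact_mod_cast h.v0_le_vr m s
    have h2 : (p.v0 : ℝ) ≤ (p.vr m s : ℝ) ^ a.dist :=
      h1.trans (le_self_pow₀ (hv.trans h1) a.dist_pos.ne')
    have h3 := (h.tau_pos m s).le
    calc phi p.b s (y none) ≤ (p.P : ℝ) ^ 2 * p.tau m s := (h.phi_bounds hy s).2
      _ ≤ η * p.v0 * p.tau m s := mul_le_mul_of_nonneg_right hη h3
      _ ≤ η * (p.vr m s : ℝ) ^ a.dist * p.tau m s := by gcongr
      _ = η * p.lam m (s, a) := by rw [Par.lam]; ring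
  have hR := fun s => riemU (phi p.b s (y none)) η (fun a => p.lam m (s, a)) (fun a => y (some (s, a)))
    (hφ s) (fun a => h.lam_pos m (s, a)) (hr s) hη1
  refine ⟨∏ s : Bool, ∑ᶠ g : UT p.n ℤ, ∏ a, phi p.b s (y none) / p.lam m (s, a) *
    psi (affU g (phi p.b s (y none)) (fun a => y (some (s, a))) a / p.lam m (s, a)) ^ 2, ?_, ?_, ?_⟩
  · rw [← ip_finsum_pi _ fun s => (hR s).1, mul_finsum]
    refine finsum_congr fun g => ?_
    rw [hc.2]
    exact ip_F_sq h m (aff p.b g y) fun s => (hφ s).le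
  · rw [pow_mul, ← Fintype.card_bool, ← Finset.card_univ (α := Bool), ← Finset.prod_const]
    exact Finset.prod_le_prod (fun _ _ => pow_nonneg (by linarith) _) fun s _ => (hR s).2.1
  · rw [pow_mul, ← Fintype.card_bool, ← Finset.card_univ (α := Bool), ← Finset.prod_const]
    exact Finset.prod_le_prod (fun s _ => (pow_nonneg (by linarith) _).trans (hR s).2.1)
      fun s _ => (hR s).2.2

theorem ip_eta (D : ℕ) {δ : ℝ} (hδ : 0 < δ) :
    ∃ η : ℝ, 0 < η ∧ η ≤ 1 / 6 ∧ 1 - δ ≤ (1 - 6 * η) ^ D ∧ (1 + 6 * η) ^ D ≤ 1 + δ := by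
  have h1 : ∀ᶠ η : ℝ in nhds 0, η < 1 / 6 := eventually_lt_nhds (by norm_num)
  have h2 : ∀ᶠ η : ℝ in nhds 0, 1 - δ < (1 - 6 * η) ^ D :=
    ContinuousAt.eventually_lt continuousAt_const (by fun_prop) (by simpa using hδ)
  have h3 : ∀ᶠ η : ℝ in nhds 0, (1 + 6 * η) ^ D < 1 + δ :=
    ContinuousAt.eventually_lt (by fun_prop) continuousAt_const (by simpa using hδ)
  obtain ⟨η, h0, a1, a2, a3⟩ := (h1.and (h2.and h3)).exists_gt
  exact ⟨η, h0, a1.le, a2.le, a3.le⟩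

/-- If `chi ≠ 0` then `φ_s = phi b s θ > 0` (`phi_bounds`) and
`F m (aff g y)² = chi² ∏_s ∏_a (φ_s / lam (s,a)) psi (affU (g s) φ_s X_s a / lam (s,a))²`
(`amp² = ∏ vr^(-dist)`, `sqrt (φ/tau)^(2D) = ∏_a φ/tau`, `Fintype.prod_option`, `Fintype.prod_prod_type`).
The sum over `g : Bool → UT` is the product of the two sums of `riemU` (restrict to finite supports,
`Finset.prod_univ_sum`), with `η = P² / v0` (`φ ≤ P² tau`, `lam ≥ tau v0`).  Choose `V0` such that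
`η ≤ 1/6`, `(1 + 6η)^(2D) ≤ 1 + δ`, `1 - δ ≤ (1 - 6η)^(2D)` (continuity at `η = 0`, or Bernoulli). -/
theorem ip_apx (n R : ℕ) (δ : ℝ) (hδ : 0 < δ) : ∃ V0 : ℕ, ∀ v0 b : ℕ, V0 ≤ v0 →
    (Par.mk n R v0 b).Ok → ∀ (ρ : NN n →* Matrix (I n) (I n) ℤ) (L : Loc ρ), IsConc b ρ L →
    ∀ (m : ℤ) (y : I n → ℝ),
      |ip L ((Par.mk n R v0 b).F m) ((Par.mk n R v0 b).F m) y -
        chi ((Par.mk n R v0 b).P) m ((Par.mk n R v0 b).uu (y none)) ^ 2| ≤ δ := by
  obtain ⟨η, h0, h1, h2, h3⟩ := ip_eta (Fintype.card (Idx n) * 2) hδ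
  refine ⟨⌈((R ^ n : ℕ) : ℝ) ^ 2 / η⌉₊, fun v0 b hv h ρ L hc m y => ?_⟩
  have hη : (((Par.mk n R v0 b).P : ℕ) : ℝ) ^ 2 ≤ η * (Par.mk n R v0 b).v0 := by
    have := Nat.ceil_le.1 hv
    rw [div_le_iff₀ h0, mul_comm] at this
    exact this
  by_cases hy : chi ((Par.mk n R v0 b).P) m ((Par.mk n R v0 b).uu (y none)) = 0
  · rw [ip_eq_zero (p := Par.mk n R v0 b) hc hy, hy]
    simpa using hδ.le
  · obtain ⟨A, e, a1, a2⟩ := ip_core h hc hη h1 hy
    have b1 : |chi ((Par.mk n R v0 b).P) m ((Par.mk n R v0 b).uu (y none))| ≤ 1 := abs_chi_le _ _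
    have b2 : |A - 1| ≤ δ := abs_le.2 ⟨by linarith [h2.trans a1], by linarith [a2.trans h3]⟩
    rw [e, ← mul_sub_one, abs_mul, abs_pow]
    exact (mul_le_of_le_one_left (abs_nonneg _) (pow_le_one₀ (abs_nonneg _) b1)).trans b2

end Crest.Agent.R129.A
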