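import Crest.Agent.R129.A.Band
import Crest.Agent.R129.A.Est
import Crest.Agent.R129.WQ

/-! # Label laws (task R129/A-Law). Statements frozen. -/

set_option autoImplicit false
open scoped BigOperators Matrix

namespace Crest.Agent.R129.A

theorem law_sum4 {M : Type} [AddCommMonoid M] (f : ℂ → M) :
    ∑ ω : ZMod 4, f (ph ω) = f 1 + f Complex.I + f (-1) + f (-Complex.I) := by
  have h : ∑ ω : ZMod 4, f (ph ω) = f (ph 0) + f (ph 1) + f (ph 2) + f (ph 3) :=
    Fin.sum_univ_four fun ω : Fin 4 => f (ph ω)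
  have h0 : ph 0 = 1 := pow_zero _
  have h1 : ph 1 = Complex.I := pow_one _
  have h2 : ph 2 = -1 := Complex.I_sq
  have h3 : ph 3 = -Complex.I := Complex.I_pow_three
  rw [h, h0, h1, h2, h3]

/-- Weights `ν (x, ω) = (‖a x‖ + re (conj (ph ω) * a x)) / 2 + [x = x₀] (1 - 2 l1 a) / 4`:
`∑_ω ph ω = 0`, `∑_ω ph ω * re (conj (ph ω) z) = 2 z` (sum over `ZMod 4 = Fin 4`, `ph = 1, I, -1, -I`). -/
theorem exists_law1 {A : Type} (a : A →₀ ℂ) (ha : l1 a ≤ 1 / 2) (x₀ : A) :
    ∃ ν : (A × ZMod 4) →₀ ℝ, IsLaw ν ∧ (∀ x, qco ν x = a x) ∧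
      ∀ x ω, (x, ω) ∈ ν.support → a x ≠ 0 ∨ x = x₀ := by
  classical
  let w : A × ZMod 4 → ℝ := fun p => (‖a p.1‖ + ((starRingEnd ℂ) (ph p.2) * a p.1).re) / 2 +
    if p.1 = x₀ then (1 - 2 * l1 a) / 4 else 0
  have hw : ∀ p, w p ≠ 0 → a p.1 ≠ 0 ∨ p.1 = x₀ := fun p hp => by
    by_contra h
    rw [not_or, not_not] at h
    exact hp (by simp [w, h.1, h.2])
  have hs : ∀ p, w p ≠ 0 → p ∈ insert x₀ a.support ×ˢ (Finset.univ : Finset (ZMod 4)) :=
    fun p hp => by simpa [or_comm] using hw p hp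
  refine ⟨Finsupp.onFinset _ w hs, ⟨fun p => ?_, ?_⟩, fun x => ?_,
    fun x ω h => hw _ (Finsupp.mem_support_iff.1 h)⟩
  · have h1 := Complex.abs_re_le_norm ((starRingEnd ℂ) (ph p.2) * a p.1)
    rw [norm_mul, Complex.norm_conj, norm_ph, one_mul] at h1
    refine add_nonneg (by linarith [(abs_le.1 h1).1]) ?_
    split_ifs
    · linarith
    · rfl
  · have h2 : ∀ x, ∑ ω, w (x, ω) = 2 * ‖a x‖ + if x = x₀ then 1 - 2 * l1 a else 0 := fun x => by
      refine (law_sum4 fun z => (‖a x‖ + ((starRingEnd ℂ) z * a x).re) / 2 +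
        if x = x₀ then (1 - 2 * l1 a) / 4 else 0).trans ?_
      split_ifs <;> simp <;> ring
    rw [Finsupp.onFinset_sum _ fun _ => rfl, Finset.sum_product]
    simp only [h2]
    rw [Finset.sum_add_distrib, ← Finset.mul_sum, ← l1_eq_sum a _ (Finset.subset_insert _ _),
      Finset.sum_ite_eq', if_pos (Finset.mem_insert_self _ _)]
    ring
  · refine (law_sum4 fun z => (((‖a x‖ + ((starRingEnd ℂ) z * a x).re) / 2 +
      (if x = x₀ then (1 - 2 * l1 a) / 4 else 0) : ℝ) : ℂ) * z).trans ?_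
    generalize (if x = x₀ then (1 - 2 * l1 a) / 4 else 0) = t
    generalize ‖a x‖ = r
    apply Complex.ext <;> simp <;> ring

/-- `ν = (1/|S|) ∑_{g ∈ S} ν_g` with `ν_g` from `exists_law1` for `|S| • a g` and `x₀ = σ g`. -/
theorem exists_law {A N : Type} (π : A → N) (σ : N → A) (hσ : ∀ g, π (σ g) = g) (S : Finset N)
    (hS : S.Nonempty) (a : N → A →₀ ℂ) (hsupp : ∀ g x, a g x ≠ 0 → π x = g)
    (ha : ∀ g ∈ S, (S.card : ℝ) * l1 (a g) ≤ 1 / 2) :
    ∃ ν : (A × ZMod 4) →₀ ℝ, IsLaw ν ∧ (∀ x, qco ν x = ∑ g ∈ S, a g x) ∧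
      (∀ x ω, (x, ω) ∈ ν.support → ∃ g ∈ S, a g x ≠ 0 ∨ x = σ g) ∧
      ∀ φ : N → ℝ, ν.sum (fun x w => w * φ (π x.1)) = (∑ g ∈ S, φ g) / S.card := by
  classical
  have hc : (S.card : ℝ) ≠ 0 := by exact_mod_cast hS.card_pos.ne'
  have hc' : (S.card : ℂ) ≠ 0 := by exact_mod_cast hS.card_pos.ne'
  choose! ν h1 h2 h3 using fun g (hg : g ∈ S) =>
    exists_law1 ((S.card : ℂ) • a g) (by rw [l1_smul, Complex.norm_natCast]; exact ha g hg) (σ g)
  simp only [Finsupp.smul_apply, smul_eq_mul, ne_eq, mul_eq_zero, hc', false_or] at h2 h3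
  have key : ∀ φ : N → ℝ, ((S.card : ℝ)⁻¹ • ∑ g ∈ S, ν g).sum (fun x w => w * φ (π x.1)) =
      (∑ g ∈ S, φ g) / S.card := fun φ => by
    have e : ∀ μ : (A × ZMod 4) →₀ ℝ, μ.sum (fun x w => w * φ (π x.1)) =
        Finsupp.linearCombination ℝ (fun x : A × ZMod 4 => φ (π x.1)) μ := fun μ =>
      (Finsupp.linearCombination_apply ℝ μ).symm
    rw [e, map_smul, map_sum, smul_eq_mul, div_eq_inv_mul]
    refine congrArg _ (Finset.sum_congr rfl fun g hg => ?_)
    rw [← e, Finsupp.sum_congr (g2 := fun _ w => w * φ g) fun x hx => by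
      rcases h3 g hg x.1 x.2 hx with h | h
      · rw [hsupp g _ h]
      · rw [h, hσ], ← Finsupp.sum_mul, (h1 g hg).2, one_mul]
  refine ⟨(S.card : ℝ)⁻¹ • ∑ g ∈ S, ν g, ⟨fun p => ?_, ?_⟩, fun x => ?_, fun x ω h => ?_, key⟩
  · rw [Finsupp.smul_apply, Finsupp.finsetSum_apply]
    exact mul_nonneg (by positivity) (Finset.sum_nonneg fun g hg => (h1 g hg).1 p)
  · simpa [hc] using key fun _ => 1
  · have : qco ((S.card : ℝ)⁻¹ • ∑ g ∈ S, ν g) x = (S.card : ℂ)⁻¹ * ∑ g ∈ S, qco (ν g) x := by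
      simp only [qco, Finsupp.smul_apply, Finsupp.finsetSum_apply, smul_eq_mul]
      push_cast
      rw [Finset.sum_comm, Finset.mul_sum]
      simp only [mul_assoc, Finset.sum_mul]
    rw [this, Finset.sum_congr rfl fun g hg => h2 g hg x, ← Finset.mul_sum,
      inv_mul_cancel_left₀ hc']
  · have h4 := Finsupp.mem_support_iff.1 (Finsupp.support_smul h)
    rw [Finsupp.finsetSum_apply] at h4
    obtain ⟨g, hg, h5⟩ := Finset.exists_ne_zero_of_sum_ne_zero h4
    exact ⟨g, hg, h3 g hg x ω (Finsupp.mem_support_iff.2 h5)⟩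

theorem law_pi {α : Type} (t : Bool → Finset α) (ht : ∀ s, (t s).Nonempty) (s : Bool) (f : α → ℝ) :
    (∑ g ∈ Fintype.piFinset t, f (g s)) / (Fintype.piFinset t).card =
      (∑ x ∈ t s, f x) / (t s).card := by
  have h := Finset.prod_univ_sum t fun i x => if i = s then f x else (1 : ℝ)
  have h1 : ((t true).card : ℝ) ≠ 0 := by exact_mod_cast (ht true).card_pos.ne'
  have h2 : ((t false).card : ℝ) ≠ 0 := by exact_mod_cast (ht false).card_pos.ne'
  simp only [Finset.prod_ite_eq', Finset.mem_univ, if_true] at h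
  rw [← h, Fintype.card_piFinset, Fintype.prod_bool, Fintype.prod_bool]
  cases s <;> simp <;> field_simp

theorem law_box {c : ℕ} (T : Idx (c + 1) → Finset ℤ) (T' : Finset ℤ) :
    box (fun a a' => if h : a < a' then T ⟨(a, a'), h⟩ else T') =
      ((Fintype.piFinset T).map UT.equivCo.symm.toEmbedding).map ⟨UT.mat, UT.mat_injective⟩ := by
  ext m
  refine (Fintype.mem_piFinset.trans (forall_congr' fun _ => Fintype.mem_piFinset)).trans ?_
  simp only [Fintype.mem_piFinset, Finset.mem_map, Function.Embedding.coeFn_mk,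
    exists_exists_and_eq_and]
  constructor
  · intro h
    refine ⟨co m, fun a => ?_, ?_⟩
    · have := h a.1.1 a.1.2
      rwa [if_pos a.2, dif_pos a.2] at this
    · ext i j
      change (1 : Matrix _ _ ℤ) i j + su (co m) i j = m i j
      have := h i j
      by_cases hij : i < j
      · rw [Matrix.one_apply_ne hij.ne, su_apply_lt _ hij, zero_add]
        rfl
      · rw [if_neg hij] at this
        rw [isSU_su _ _ _ (not_lt.1 hij), add_zero, Matrix.one_apply]
        split_ifs at this ⊢ <;> exact (Finset.mem_singleton.1 this).symm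
  · rintro ⟨g, hg, rfl⟩ i j
    change (1 : Matrix _ _ ℤ) i j + su g i j ∈ _
    by_cases hij : i < j
    · rw [Matrix.one_apply_ne hij.ne, su_apply_lt _ hij, zero_add, if_pos hij, dif_pos hij]
      exact hg _
    · rw [isSU_su _ _ _ (not_lt.1 hij), add_zero, Matrix.one_apply, if_neg hij]
      split_ifs <;> exact Finset.mem_singleton_self _

/-- `Sx a b = if h : a < b then Icc (-rad ⟨(a,b),h⟩) (rad ..) else Icc 0 (vr l s)`; `g ↦ g.mat` is a bijection from
`boxU l s` to `box Sx` (`Finset.sum_nbij'` with inverse `m ↦ ⟨co m⟩`), and the sum over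
`S l = piFinset boxU` of a function of the coordinate `s` factors (`Finset.sum_piFinset..` or
`Fintype.piFinset` over `Bool` written as a product). -/
theorem unif_box (c R v0 b : ℕ) (h : (Par.mk (c + 1) R v0 b).Ok) (l : ℤ) (s : Bool) :
    ∃ Sx : Fin (c + 1) → Fin (c + 1) → Finset ℤ,
      (∀ a a', (Par.mk (c + 1) R v0 b).vr l s ≤ (Sx a a').card) ∧
      ∀ φ : Matrix (Fin (c + 1)) (Fin (c + 1)) ℤ → ℝ,
        (∑ g ∈ (Par.mk (c + 1) R v0 b).S l, φ (g s).mat) / ((Par.mk (c + 1) R v0 b).S l).card =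
          (∑ m ∈ box Sx, φ m) / (box Sx).card := by
  obtain ⟨T, hT⟩ : ∃ T : Idx (c + 1) → Finset ℤ, T = fun a => Finset.Icc
    (-((Par.mk (c + 1) R v0 b).rad l s a : ℤ)) ((Par.mk (c + 1) R v0 b).rad l s a) := ⟨_, rfl⟩
  refine ⟨fun a a' => if h : a < a' then T ⟨(a, a'), h⟩
      else Finset.Icc 0 ((Par.mk (c + 1) R v0 b).vr l s), fun a a' => ?_, fun φ => ?_⟩
  · beta_reduce
    split_ifs with haa
    · have hR : 0 < R := lt_of_lt_of_le two_pos h.two_le
      have hK : 0 < (Par.mk (c + 1) R v0 b).K := by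
        unfold Par.K Par.P
        positivity
      have h1 : (Par.mk (c + 1) R v0 b).vr l s ≤ (Par.mk (c + 1) R v0 b).rad l s ⟨(a, a'), haa⟩ :=
        (Nat.le_mul_of_pos_left _ hK).trans (Nat.le_self_pow (Idx.dist_pos _).ne' _)
      rw [hT, Int.card_Icc]
      omega
    · rw [Int.card_Icc]
      omega
  · rw [law_box, Finset.sum_map, Finset.card_map, hT]
    have hne : ∀ s, ((Par.mk (c + 1) R v0 b).boxU l s).Nonempty := fun s =>
      Finset.Nonempty.map (Fintype.piFinset_nonempty.2 fun a => Finset.nonempty_Icc.2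
        (neg_le_self (Nat.cast_nonneg _)))
    exact law_pi ((Par.mk (c + 1) R v0 b).boxU l) hne s fun g => φ (UT.mat g)

/-- compare matrix entries (`mat_Qop`, `mat_Bnd`, `mat_smul`) -/
theorem Qop_eq {A : Type} [Group A] (μ : ℤ → (A × ZMod 4) →₀ ℝ) (hμ : ∀ i, IsLaw (μ i))
    (v : ℤ → MonoidAlgebra ℂ A) (c : ℂ) (hq : ∀ l x, qco (μ l) x = c * (v l).coeff x) {L : ℝ}
    (hb : Band (vM v) 1 L) : Qop μ (fun _ => True) = c • Bnd (vM v) := by
  refine mat_ext fun p q => ?_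
  rw [mat_Qop hμ, mat_smul, mat_Bnd hb, vM]
  simp only [and_true, hq]
  by_cases he : Even p.2
  · by_cases h1 : q.2 = p.2 + 1
    · rw [if_pos he, if_pos h1, if_neg (by omega), if_pos ⟨he, Or.inl h1⟩, add_zero,
        min_eq_left (by omega)]
    · by_cases h2 : q.2 = p.2 - 1
      · rw [if_pos he, if_neg h1, if_pos h2, if_pos ⟨he, Or.inr h2⟩, zero_add,
          min_eq_right (by omega), h2]
      · simp [he, h1, h2]
  · simp [he]

end Crest.Agent.R129.A
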