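import Crest.Agent.R129.A.Est
import Crest.Agent.R129.A.Br

/-! # The link elements approximate the brackets (task R129/A-Link). Statements frozen. -/

set_option autoImplicit false
open scoped BigOperators Matrix

namespace Crest.Agent.R129.A

/-- the constant of `card_amp` -/
noncomputable def Par.CS (p : Par) : ℝ :=
  (3 * ((p.K : ℝ) * p.R) ^ p.n) ^ (2 * Fintype.card (Idx p.n))

variable {p : Par} {ρ : NN p.n →* Matrix (I p.n) (I p.n) ℤ} {L : Loc ρ}

theorem aff_none (b : ℕ) {n : ℕ} (g : NN n) (x : I n → ℝ) : aff b g x none = x none := rfl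

theorem Par.CS_nonneg (p : Par) : 0 ≤ p.CS := by
  unfold Par.CS
  positivity

theorem adj_of_ne (h : p.Ok) (hc : IsConc p.b ρ L) {j i : ℤ} (hj : Even j) (hi : Odd i)
    {g : NN p.n} {y : I p.n → ℝ} (h1 : p.F j y ≠ 0) (h2 : p.F i (L.aff g y) ≠ 0) :
    i = j + 1 ∨ i = j - 1 := by
  have a := Par.F_chi h1
  have b := Par.F_chi h2
  rw [hc.2, aff_none] at b
  have := chi_far h.two_le_P a b
  obtain ⟨a, rfl⟩ := hj
  obtain ⟨b, rfl⟩ := hi
  rw [abs_le] at this
  omega

theorem mem_S_of_ne (h : p.Ok) (hc : IsConc p.b ρ L) {l j i : ℤ} (hj : j = l ∨ j = l + 1)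
    (hi : i = l ∨ i = l + 1) {g : NN p.n} {y : I p.n → ℝ} (h1 : p.F j y ≠ 0)
    (h2 : p.F i (L.aff g⁻¹ y) ≠ 0) : g ∈ p.S l := by
  refine h.adequate hj hi h2 ?_
  rw [← hc.2, ← L.aff_mul, mul_inv_cancel, L.aff_one]
  exact h1

theorem br_eq_zero {j i : ℤ} (m : (I p.n → ℝ) → ℝ) (g : NN p.n) (x : I p.n → ℝ)
    (H : p.F j (rep x) ≠ 0 → p.F i (L.aff g⁻¹ (rep x)) ≠ 0 → False) :
    br L (p.F j) m (p.F i) g x = 0 := by
  unfold br
  by_cases h1 : p.F j (rep x) = 0
  · simp [h1]
  · by_cases h2 : p.F i (L.aff g⁻¹ (rep x)) = 0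
    · simp [h2]
    · exact (H h1 h2).elim

theorem row_cases (l : ℤ) : row l = l ∨ row l = l + 1 := by
  unfold row
  split_ifs <;> simp

theorem col_cases (l : ℤ) : col l = l ∨ col l = l + 1 := by
  unfold col
  split_ifs <;> simp

theorem row_min {j i : ℤ} (hj : Even j) (hadj : i = j + 1 ∨ i = j - 1) : row (min j i) = j := by
  unfold row
  rcases hadj with rfl | rfl
  · rw [min_eq_left (by omega), if_pos hj]
  · rw [min_eq_right (by omega), if_neg (by rw [Int.even_iff] at hj ⊢; omega)]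
    omega

theorem col_min {j i : ℤ} (hj : Even j) (hadj : i = j + 1 ∨ i = j - 1) : col (min j i) = i := by
  unfold col
  rcases hadj with rfl | rfl
  · rw [min_eq_left (by omega), if_pos hj]
  · rw [min_eq_right (by omega), if_neg (by rw [Int.even_iff] at hj ⊢; omega)]

open Classical in
theorem ev_vL (f : ℤ → (I p.n → ℤ) →₀ ℂ) (l : ℤ) (g : NN p.n) (x : I p.n → ℝ) :
    ev (vL p ρ f l) g x = if g ∈ p.S l then ((p.amp (row l) * p.amp (col l) : ℝ) : ℂ) *
      (tev (f (row l)) x * tev (f (col l)) (act ρ g⁻¹ x)) else 0 := by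
  unfold vL
  rw [ev_smul, ev_sum]
  simp only [Pi.smul_apply, Finset.sum_apply, smul_eq_mul]
  split_ifs with hg
  · rw [Finset.sum_eq_single g, ev_sand, if_pos rfl]
    · intro g' _ hne
      rw [ev_sand, if_neg (Ne.symm hne)]
    · intro hn
      exact (hn hg).elim
  · rw [Finset.sum_eq_zero, mul_zero]
    intro g' hg'
    rw [ev_sand, if_neg]
    rintro rfl
    exact hg hg'

/-- If `|j - i| ≠ 1` then `|j - i| ≥ 3` (parity) and the bracket vanishes (`F_chi`, `chi_far`; `aff` fixes `θ`).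
Otherwise put `l = min j i`; the bracket vanishes off `S l` (`adequate` applied to the point
`aff g⁻¹ (rep x)`, `aff_mul`), and `bd_of_card`, `card_amp` apply. -/
theorem br_bd (h : p.Ok) (hc : IsConc p.b ρ L) {B : ℝ} (hG : ∀ m x, |p.G m x| ≤ B) {j i : ℤ}
    (hj : Even j) (hi : Odd i) (m : (I p.n → ℝ) → ℝ) (c : ℝ) (hc0 : 0 ≤ c)
    (hm : ∀ y, chi p.P j (p.uu (y none)) ≠ 0 → chi p.P i (p.uu (y none)) ≠ 0 → |m y| ≤ c) :
    Bd (br L (p.F j) m (p.F i)) (p.CS * B ^ 2 * c) := by
  have hB : 0 ≤ B := (abs_nonneg _).trans (hG 0 0)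
  have hCS := p.CS_nonneg
  by_cases hadj : i = j + 1 ∨ i = j - 1
  · have hj' : j = min j i ∨ j = min j i + 1 := by omega
    have hi' : i = min j i ∨ i = min j i + 1 := by omega
    have aj := h.amp_pos j
    have ai := h.amp_pos i
    refine (bd_of_card (p.S (min j i)) (p.amp j * p.amp i * (B ^ 2 * c)) (by positivity)
      (fun g hg x => br_eq_zero m g x fun h1 h2 => hg (mem_S_of_ne h hc hj' hi' h1 h2))
      (fun g _ x => ?_)).mono ?_
    · by_cases H : p.F j (rep x) ≠ 0 ∧ p.F i (L.aff g⁻¹ (rep x)) ≠ 0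
      · have a := Par.F_chi H.1
        have b := Par.F_chi H.2
        rw [hc.2, aff_none] at b
        have hmy := hm _ a b
        unfold br
        rw [Complex.norm_real, Real.norm_eq_abs]
        unfold Par.F
        rw [abs_mul, abs_mul, abs_mul, abs_mul, abs_of_pos aj, abs_of_pos ai]
        calc p.amp j * |p.G j (rep x)| * |m (rep x)| * (p.amp i * |p.G i (L.aff g⁻¹ (rep x))|)
            ≤ p.amp j * B * c * (p.amp i * B) := by
              gcongr
              · exact hG _ _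
              · exact hG _ _
          _ = _ := by ring
      · rw [br_eq_zero m g x fun h1 h2 => H ⟨h1, h2⟩, norm_zero]
        positivity
    · have := h.card_amp hj' hi'
      calc ((p.S (min j i)).card : ℝ) * (p.amp j * p.amp i * (B ^ 2 * c))
          = ((p.S (min j i)).card : ℝ) * (p.amp j * p.amp i) * (B ^ 2 * c) := by ring
        _ ≤ p.CS * (B ^ 2 * c) := mul_le_mul_of_nonneg_right this (by positivity)
        _ = _ := by ring
  · have e : br L (p.F j) m (p.F i) = 0 := by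
      funext g x
      exact br_eq_zero m g x fun h1 h2 => hadj (adj_of_ne h hc hj hi h1 h2)
    rw [e]
    exact bd_zero (by positivity)

/-- Non-adjacent `j, i`: both terms vanish.  Adjacent, `l = min j i`, `row l = j`, `col l = i`: by `ev_smul`,
`ev_sum`, `ev_sand` the symbol at `g ∈ S l` is `amp j amp i tev (f j) x * tev (f i) (act g⁻¹ x)` and `0` off `S l`;
the bracket at `g ∈ S l` is `amp j amp i G j (rep x) G i (rep (act g⁻¹ x))` (`contain`, `rep_act`; trivial if
`F j (rep x) = 0`).  The difference is at most `amp j amp i 2 ε B` (`norm_tev_le`). -/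
theorem link_bd (h : p.Ok) (hc : IsConc p.b ρ L) {B ε : ℝ} (hε : 0 ≤ ε)
    {f : ℤ → (I p.n → ℤ) →₀ ℂ} (hl : ∀ m, l1 (f m) ≤ B) (hG : ∀ m x, |p.G m x| ≤ B)
    (herr : ∀ m x, ‖tev (f m) x - ((p.G m (rep x) : ℝ) : ℂ)‖ ≤ ε) {j i : ℤ}
    (hj : Even j) (hi : Odd i) :
    Bd (ev (vM (vL p ρ f) j i) - br L (p.F j) (fun _ => 1) (p.F i)) (p.CS * (2 * ε * B)) := by
  have hB : 0 ≤ B := (abs_nonneg _).trans (hG 0 0)
  have hCS := p.CS_nonneg
  by_cases hadj : i = j + 1 ∨ i = j - 1
  · have hj' : j = min j i ∨ j = min j i + 1 := by omega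
    have hi' : i = min j i ∨ i = min j i + 1 := by omega
    have aj := h.amp_pos j
    have ai := h.amp_pos i
    have ev' : vM (vL p ρ f) j i = vL p ρ f (min j i) := by
      unfold vM
      rw [if_pos ⟨hj, hadj⟩]
    rw [ev']
    refine (bd_of_card (p.S (min j i)) (p.amp j * p.amp i * (2 * ε * B)) (by positivity)
      (fun g hg x => ?_) (fun g hg x => ?_)).mono ?_
    · rw [Pi.sub_apply, Pi.sub_apply, ev_vL, if_neg hg,
        br_eq_zero _ g x fun h1 h2 => hg (mem_S_of_ne h hc hj' hi' h1 h2), sub_zero]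
    · rw [Pi.sub_apply, Pi.sub_apply, ev_vL, if_pos hg, row_min hj hadj, col_min hj hadj]
      have e : br L (p.F j) (fun _ => 1) (p.F i) g x = ((p.amp j * p.amp i : ℝ) : ℂ) *
          (((p.G j (rep x) : ℝ) : ℂ) * ((p.G i (rep (act ρ g⁻¹ x)) : ℝ) : ℂ)) := by
        by_cases h1 : p.F j (rep x) = 0
        · have h0 : p.G j (rep x) = 0 := by
            unfold Par.F at h1
            exact (mul_eq_zero.1 h1).resolve_left aj.ne'
          rw [br_eq_zero _ g x fun h1' _ => h1' h1, h0]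
          simp
        · have hq := h.contain hj' hg h1
          rw [← hc.2] at hq
          rw [rep_act L g⁻¹ x hq]
          unfold br Par.F
          push_cast
          ring
      rw [e, ← mul_sub, norm_mul, Complex.norm_real, Real.norm_eq_abs, abs_of_pos (mul_pos aj ai)]
      refine mul_le_mul_of_nonneg_left ?_ (mul_pos aj ai).le
      have e1 := herr j x
      have e2 := herr i (act ρ g⁻¹ x)
      have e3 : ‖tev (f i) (act ρ g⁻¹ x)‖ ≤ B := (norm_tev_le _ _).trans (hl i)
      have e4 : ‖((p.G j (rep x) : ℝ) : ℂ)‖ ≤ B := by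
        rw [Complex.norm_real, Real.norm_eq_abs]
        exact hG _ _
      calc _ = ‖(tev (f j) x - ((p.G j (rep x) : ℝ) : ℂ)) * tev (f i) (act ρ g⁻¹ x) +
            ((p.G j (rep x) : ℝ) : ℂ) *
              (tev (f i) (act ρ g⁻¹ x) - ((p.G i (rep (act ρ g⁻¹ x)) : ℝ) : ℂ))‖ := by
            congr 1
            ring
        _ ≤ ε * B + B * ε := by
            refine (norm_add_le _ _).trans (add_le_add ?_ ?_)
            · rw [norm_mul]
              exact mul_le_mul e1 e3 (norm_nonneg _) hε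
            · rw [norm_mul]
              exact mul_le_mul e4 e2 (norm_nonneg _) hB
        _ = _ := by ring
    · have := h.card_amp hj' hi'
      calc ((p.S (min j i)).card : ℝ) * (p.amp j * p.amp i * (2 * ε * B))
          = ((p.S (min j i)).card : ℝ) * (p.amp j * p.amp i) * (2 * ε * B) := by ring
        _ ≤ p.CS * (2 * ε * B) := mul_le_mul_of_nonneg_right this (by positivity)
  · have e : br L (p.F j) (fun _ => 1) (p.F i) = 0 := by
      funext g x
      exact br_eq_zero _ g x fun h1 h2 => hadj (adj_of_ne h hc hj hi h1 h2)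
    have ev' : vM (vL p ρ f) j i = 0 := by
      unfold vM
      rw [if_neg fun H => hadj H.2]
    rw [e, ev', ev_zero, sub_zero]
    exact bd_zero (by positivity)

/-- `l1_sand`, `card_amp` -/
theorem card_l1_sand (h : p.Ok) {B : ℝ} {f : ℤ → (I p.n → ℤ) →₀ ℂ} (hl : ∀ m, l1 (f m) ≤ B)
    (l : ℤ) (g : NN p.n) :
    ((p.S l).card : ℝ) * (p.amp (row l) * p.amp (col l)) *
      l1 (sand ρ (f (row l)) g (f (col l))).coeff ≤ p.CS * B ^ 2 := by
  have hB : 0 ≤ B := (l1_nonneg _).trans (hl 0)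
  refine mul_le_mul (h.card_amp (row_cases l) (col_cases l)) ?_ (l1_nonneg _) p.CS_nonneg
  refine (l1_sand _ _ _).trans ?_
  rw [sq]
  exact mul_le_mul (hl _) (hl _) (l1_nonneg _) hB

theorem l1_vL (h : p.Ok) {B : ℝ} {f : ℤ → (I p.n → ℤ) →₀ ℂ} (hl : ∀ m, l1 (f m) ≤ B) (l : ℤ) :
    l1 (vL p ρ f l).coeff ≤ p.CS * B ^ 2 := by
  have hB : 0 ≤ B := (l1_nonneg _).trans (hl 0)
  have ha : 0 < p.amp (row l) * p.amp (col l) := mul_pos (h.amp_pos _) (h.amp_pos _)
  unfold vL
  rw [MonoidAlgebra.coeff_smul, l1_smul, MonoidAlgebra.coeff_sum, Complex.norm_real,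
    Real.norm_eq_abs, abs_of_pos ha]
  have h1 : ∀ g, l1 (sand ρ (f (row l)) g (f (col l))).coeff ≤ B ^ 2 := fun g => by
    refine (l1_sand _ _ _).trans ?_
    rw [sq]
    exact mul_le_mul (hl _) (hl _) (l1_nonneg _) hB
  have h2 := (l1_sum_le (p.S l) fun g => (sand ρ (f (row l)) g (f (col l))).coeff).trans
    (Finset.sum_le_sum fun g _ => h1 g)
  rw [Finset.sum_const, nsmul_eq_mul] at h2
  have h3 := h.card_amp (row_cases l) (col_cases l)
  calc _ ≤ p.amp (row l) * p.amp (col l) * (((p.S l).card : ℝ) * B ^ 2) :=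
        mul_le_mul_of_nonneg_left h2 ha.le
    _ = ((p.S l).card : ℝ) * (p.amp (row l) * p.amp (col l)) * B ^ 2 := by ring
    _ ≤ p.CS * B ^ 2 := mul_le_mul_of_nonneg_right h3 (by positivity)

end Crest.Agent.R129.A
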