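import Crest.Agent.R129.A.Sym

/-! # Fibre representations are dominated by the regular one (task R129/A-Low). Statements frozen. -/

set_option autoImplicit false
open scoped BigOperators Matrix

namespace Crest.Agent.R129.A
variable {ι N : Type} [Fintype ι] [DecidableEq ι] [Group N] {ρ : N →* Matrix ι ι ℤ}

theorem adjM_mul {A : Type} [Group A] (a b : MonoidAlgebra ℂ A) :
    adjM (a * b) = adjM b * adjM a := by
  induction a using MonoidAlgebra.induction_linear with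
  | zero => rw [zero_mul, adjM_zero, mul_zero]
  | add a a' ha ha' => rw [add_mul, adjM_add, adjM_add, ha, ha', mul_add]
  | single h c =>
    induction b using MonoidAlgebra.induction_linear with
    | zero => rw [mul_zero, adjM_zero, zero_mul]
    | add b b' hb hb' => rw [mul_add, adjM_add, adjM_add, hb, hb', add_mul]
    | single h' c' =>
      rw [MonoidAlgebra.single_mul_single, adjM_single, adjM_single, adjM_single,
        MonoidAlgebra.single_mul_single, mul_inv_rev, map_mul, mul_comm ((starRingEnd ℂ) c)]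

theorem adjM_sum {A κ : Type} [Group A] (s : Finset κ) (a : κ → MonoidAlgebra ℂ A) :
    adjM (∑ i ∈ s, a i) = ∑ i ∈ s, adjM (a i) := by
  classical
  induction s using Finset.induction_on with
  | empty => simp [adjM_zero]
  | insert i s hi ih => rw [Finset.sum_insert hi, Finset.sum_insert hi, adjM_add, ih]

theorem low_key {A : Type} [Group A] (a c b : MonoidAlgebra ℂ A) :
    ‖(adjM c * (a * b)).coeff 1‖ ≤ ‖cvop a‖ * Real.sqrt ‖(adjM c * c).coeff 1‖ *
      Real.sqrt ‖(adjM b * b).coeff 1‖ := by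
  have hv : ∀ (b : MonoidAlgebra ℂ A) (y : A), (cvop b (dl 1) : A → ℂ) y = b.coeff y :=
    fun b y => by
      have := mat_cvop b y 1
      rwa [inv_one, mul_one] at this
  have h1 : ∀ b : MonoidAlgebra ℂ A, cvop a (cvop b (dl 1)) = cvop (a * b) (dl 1) := fun b => by
    ext y
    have := hasSum_apply (cvop a) (cvop b (dl 1)) y
    simp only [mat_cvop, hv] at this
    have h2 := hasSum_conv a b y 1
    simp only [inv_one, mul_one] at h2
    rw [hv]
    exact this.unique h2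
  have h2 : ∀ c b : MonoidAlgebra ℂ A,
      (adjM c * b).coeff 1 = inner ℂ (cvop c (dl 1)) (cvop b (dl 1)) := fun c b => by
    have h2 := hasSum_conv (adjM c) b 1 1
    simp only [inv_one, mul_one, one_mul, adjM_coeff, inv_inv] at h2
    have h3 := lp.hasSum_inner (𝕜 := ℂ) (cvop c (dl 1)) (cvop b (dl 1))
    simp only [hv, RCLike.inner_apply'] at h3
    exact h2.unique h3
  have h3 : ∀ b : MonoidAlgebra ℂ A,
      Real.sqrt ‖(adjM b * b).coeff 1‖ = ‖cvop b (dl 1)‖ := fun b => by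
    rw [h2, inner_self_eq_norm_sq_to_K, norm_pow, RCLike.norm_ofReal, abs_norm,
      Real.sqrt_sq (norm_nonneg _)]
  rw [h3, h3, h2, ← h1]
  refine (norm_inner_le_norm _ _).trans ?_
  have := (cvop a).le_opNorm (cvop b (dl 1))
  calc _ ≤ ‖cvop c (dl 1)‖ * (‖cvop a‖ * ‖cvop b (dl 1)‖) :=
        mul_le_mul_of_nonneg_left this (norm_nonneg _)
    _ = _ := by ring

/-- the modulated box -/
noncomputable def fej (ρ : N →* Matrix ι ι ℤ) (L : ℕ) (x₀ : ι → ℝ) : MonoidAlgebra ℂ (HG ρ) :=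
  ∑ k ∈ Fintype.piFinset fun _ : ι => Finset.Ico (0 : ℤ) L,
    MonoidAlgebra.single (⟨k, 1⟩ : HG ρ) ((starRingEnd ℂ) (ch k x₀))

theorem low_count (κ : ℤ) : Filter.Tendsto (fun L : ℕ =>
    (∑ j ∈ Finset.Ico (0 : ℤ) L, if j + κ ∈ Finset.Ico (0 : ℤ) L then (1 : ℂ) else 0) / L)
    Filter.atTop (nhds 1) := by
  have h : Filter.Tendsto (fun L : ℕ => (1 : ℂ) - (|κ| : ℤ) / (L : ℂ)) Filter.atTop
      (nhds (1 - 0)) :=
    tendsto_const_nhds.sub (tendsto_const_div_atTop_nhds_zero_nat _)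
  rw [sub_zero] at h
  refine h.congr' ?_
  filter_upwards [Filter.eventually_gt_atTop κ.natAbs] with L hL
  have hL0 : (L : ℂ) ≠ 0 := by exact_mod_cast (by omega : L ≠ 0)
  rw [Finset.sum_boole]
  have : (Finset.Ico (0 : ℤ) L).filter (fun j => j + κ ∈ Finset.Ico (0 : ℤ) L) =
      Finset.Ico (max 0 (-κ)) (min L (L - κ)) := by
    ext j
    simp only [Finset.mem_filter, Finset.mem_Ico]
    omega
  rw [this, Int.card_Ico]
  have e : (((min (L : ℤ) (L - κ) - max 0 (-κ)).toNat : ℕ) : ℤ) = L - |κ| := by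
    rw [Int.abs_eq_natAbs]; omega
  have e' : (((min (L : ℤ) (L - κ) - max 0 (-κ)).toNat : ℕ) : ℂ) = L - ((|κ| : ℤ) : ℂ) := by
    exact_mod_cast congrArg (Int.cast : ℤ → ℂ) e
  rw [e']
  field_simp

theorem low_lim (e : MonoidAlgebra ℂ (HG ρ)) (x₀ : ι → ℝ) : Filter.Tendsto
    (fun L : ℕ => (adjM (fej ρ L x₀) * e * fej ρ L x₀).coeff 1 / (L : ℂ) ^ Fintype.card ι)
    Filter.atTop (nhds (ev e 1 x₀)) := by
  classical
  induction e using MonoidAlgebra.induction_linear with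
  | zero => simp [ev_zero]
  | add e e' he he' =>
    simp only [mul_add, add_mul, MonoidAlgebra.coeff_add, Finsupp.add_apply, add_div, ev_add,
      Pi.add_apply]
    exact he.add he'
  | single y c =>
    have e1 : ∀ L : ℕ, (adjM (fej ρ L x₀) * MonoidAlgebra.single y c * fej ρ L x₀).coeff 1 =
        ∑ k ∈ Fintype.piFinset fun _ : ι => Finset.Ico (0 : ℤ) L,
          ∑ k' ∈ Fintype.piFinset fun _ : ι => Finset.Ico (0 : ℤ) L,
            if y.g = 1 ∧ k + y.k = k' then ch k' x₀ * c * (starRingEnd ℂ) (ch k x₀) else 0 := by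
      intro L
      unfold fej
      rw [adjM_sum]
      simp only [Finset.mul_sum, Finset.sum_mul, adjM_single, MonoidAlgebra.single_mul_single,
        MonoidAlgebra.coeff_sum, Finsupp.finsetSum_apply, MonoidAlgebra.coeff_single,
        Finsupp.single_apply, Complex.conj_conj]
      refine Finset.sum_congr rfl fun k _ => Finset.sum_congr rfl fun k' _ => ?_
      refine if_congr ?_ rfl rfl
      rw [mul_assoc, inv_mul_eq_one, HG.ext_iff]
      simp only [HG.mul_k, HG.mul_g, mul_one]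
      constructor
      · rintro ⟨h1, h2⟩
        rw [← h2, inv_one, map_one, Matrix.vecMul_one] at h1
        exact ⟨h2.symm, by rw [h1, add_comm]⟩
      · rintro ⟨h1, h2⟩
        rw [h1, inv_one, map_one, Matrix.vecMul_one, ← h2, add_comm]
        exact ⟨rfl, rfl⟩
    simp only [e1]
    rw [ev_single]
    by_cases hy : y.g = 1
    · simp only [hy, true_and, if_true, Finset.sum_ite_eq]
      have e2 : ∀ L : ℕ, (∑ k ∈ Fintype.piFinset fun _ : ι => Finset.Ico (0 : ℤ) L,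
          if k + y.k ∈ Fintype.piFinset (fun _ : ι => Finset.Ico (0 : ℤ) L) then
            ch (k + y.k) x₀ * c * (starRingEnd ℂ) (ch k x₀) else 0) / (L : ℂ) ^ Fintype.card ι =
          c * ch y.k x₀ * ∏ i, ((∑ j ∈ Finset.Ico (0 : ℤ) L,
            if j + y.k i ∈ Finset.Ico (0 : ℤ) L then (1 : ℂ) else 0) / L) := fun L => by
        rw [Finset.prod_div_distrib, Finset.prod_const, Finset.card_univ, ← mul_div_assoc,
          Finset.prod_univ_sum, Finset.mul_sum]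
        congr 1
        refine Finset.sum_congr rfl fun k _ => ?_
        rw [Finset.prod_boole]
        simp only [Fintype.mem_piFinset, Pi.add_apply, Finset.mem_univ, forall_const]
        split_ifs
        · rw [ch_add]
          have : ch k x₀ * (starRingEnd ℂ) (ch k x₀) = 1 := by
            rw [← ch_neg, ← ch_add, add_neg_cancel, ch_zero]
          linear_combination c * ch y.k x₀ * this
        · rw [mul_zero]
      simp only [e2]
      have := (tendsto_finsetProd (Finset.univ : Finset ι)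
        fun i _ => low_count (y.k i)).const_mul (c * ch y.k x₀)
      simpa using this
    · simp [hy]

/-- a vector on the fibre -/
noncomputable def beta (ρ : N →* Matrix ι ι ℤ) (t : Finset N) (η : N → ℂ) :
    MonoidAlgebra ℂ (HG ρ) :=
  ∑ h ∈ t, MonoidAlgebra.single (⟨0, h⟩ : HG ρ) (η h)

theorem ev_mul_single (a : MonoidAlgebra ℂ (HG ρ)) (h : N) (c : ℂ) (g : N) (x : ι → ℝ) :
    ev (a * MonoidAlgebra.single (⟨0, h⟩ : HG ρ) c) g x = ev a (g * h⁻¹) x * c := by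
  rw [ev_mul]
  unfold tw
  rw [finsum_eq_single _ (g * h⁻¹)]
  · rw [ev_single, if_pos (by simp), ch_zero, mul_one]
  · intro k hk
    rw [ev_single, if_neg, mul_zero]
    intro e
    apply hk
    simp only at e
    rw [e]; simp

theorem ev_beta (a : MonoidAlgebra ℂ (HG ρ)) (x₀ : ι → ℝ) (s t : Finset N) (η' η : N → ℂ) :
    ev (adjM (beta ρ s η') * (a * beta ρ t η)) 1 x₀ =
      ∑ g ∈ s, ∑ h ∈ t, (starRingEnd ℂ) (η' g) * ev a (g * h⁻¹) (act ρ g x₀) * η h := by
  unfold beta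
  rw [adjM_sum, Finset.sum_mul, ev_sum, Finset.sum_apply, Finset.sum_apply]
  refine Finset.sum_congr rfl fun g _ => ?_
  rw [adjM_single, ev_mul, tw_single, HG.inv_g, HG.inv_k, inv_inv, mul_one, Matrix.zero_vecMul,
    neg_zero, ch_zero, mul_one, Finset.mul_sum, ev_sum, Finset.sum_apply, Finset.sum_apply,
    Finset.mul_sum]
  refine Finset.sum_congr rfl fun h _ => ?_
  rw [ev_mul_single, mul_assoc]

/-- Følner argument.  For `L ≥ 1` let `B_L = (Finset.Ico 0 L)^ι` and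
`ξ_L = ∑_{h ∈ t} ∑_{k ∈ B_L} η h * conj (ch k x₀) • dl ⟨k ᵥ* ρ h⁻¹, h⟩`, `ξ'_L` likewise from `η'`, `s`.
The basis vectors are distinct, so `‖ξ_L‖² = L^|ι| ∑ ‖η h‖²`.  With `mat_cvop`,
`⟪ξ'_L, cvop a ξ_L⟫ = ∑_{g,h} conj (η' g) η h ∑_{y ∈ supp a, y.g = g h⁻¹} a y * ch (y.k ᵥ* ρ g) x₀ *
#{k ∈ B_L | k + y.k ᵥ* ρ g ∈ B_L}` because
`y * ⟨k ᵥ* ρ h⁻¹, h⟩ = ⟨(k + y.k ᵥ* ρ g) ᵥ* ρ g⁻¹, g⟩` for `g = y.g * h`.  The count divided by `L^|ι|` tends
to `1` (it is `∏_i (L - |κ i|)` for large `L`), and `ch (y.k ᵥ* ρ g) x₀ = ch y.k (act ρ g x₀)`.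
Finish with `le_of_tendsto'`. -/
theorem fibre_le (a : MonoidAlgebra ℂ (HG ρ)) (x₀ : ι → ℝ) (s t : Finset N) (η' η : N → ℂ) :
    ‖∑ g ∈ s, ∑ h ∈ t, (starRingEnd ℂ) (η' g) * ev a (g * h⁻¹) (act ρ g x₀) * η h‖ ≤
      ‖cvop a‖ * Real.sqrt (∑ g ∈ s, ‖η' g‖ ^ 2) * Real.sqrt (∑ h ∈ t, ‖η h‖ ^ 2) := by
  classical
  have hn : ∀ (t : Finset N) (η : N → ℂ),
      ‖ev (adjM (beta ρ t η) * (1 * beta ρ t η)) 1 x₀‖ = ∑ h ∈ t, ‖η h‖ ^ 2 := fun t η => by
    rw [ev_beta]
    have : ∑ g ∈ t, ∑ h ∈ t, (starRingEnd ℂ) (η g) *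
        ev (1 : MonoidAlgebra ℂ (HG ρ)) (g * h⁻¹) (act ρ g x₀) * η h =
        ((∑ h ∈ t, ‖η h‖ ^ 2 : ℝ) : ℂ) := by
      rw [Complex.ofReal_sum]
      refine Finset.sum_congr rfl fun g hg => ?_
      rw [Finset.sum_eq_single g]
      · rw [MonoidAlgebra.one_def, ev_single, if_pos (by simp), HG.one_k, ch_zero,
          ← Complex.normSq_eq_norm_sq, ← Complex.mul_conj]
        ring
      · intro h _ hne
        rw [MonoidAlgebra.one_def, ev_single, if_neg, mul_zero, zero_mul]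
        intro e
        exact hne (mul_inv_eq_one.1 e.symm).symm
      · intro h; exact absurd hg h
    rw [this, Complex.norm_real, Real.norm_of_nonneg (Finset.sum_nonneg fun _ _ => by positivity)]
  rw [← ev_beta, ← hn, ← hn]
  have l1 := (low_lim (adjM (beta ρ s η') * (a * beta ρ t η)) x₀).norm
  have l2 := (low_lim (adjM (beta ρ s η') * (1 * beta ρ s η')) x₀).norm.sqrt
  have l3 := (low_lim (adjM (beta ρ t η) * (1 * beta ρ t η)) x₀).norm.sqrt
  refine le_of_tendsto_of_tendsto l1 ((l2.const_mul ‖cvop a‖).mul l3) ?_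
  filter_upwards [Filter.eventually_gt_atTop 0] with L hL
  have hN : (0 : ℝ) < (L : ℝ) ^ Fintype.card ι := by positivity
  have k := low_key a (beta ρ s η' * fej ρ L x₀) (beta ρ t η * fej ρ L x₀)
  simp only [adjM_mul, one_mul, mul_assoc, norm_div, norm_pow, Complex.norm_natCast] at k ⊢
  rw [Real.sqrt_div' _ hN.le, Real.sqrt_div' _ hN.le, div_mul_div_comm,
    Real.mul_self_sqrt hN.le, ← mul_div_assoc]
  exact div_le_div_of_nonneg_right k hN.le

/-- Schur: bound each term by `w (g h⁻¹) ‖η' g‖ ‖η h‖` and use Cauchy–Schwarz twice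
(`∑_h w (g h⁻¹) ≤ r`, `∑_g w (g h⁻¹) ≤ r` after cutting `w` to the support `S`). -/
theorem fibre_bd {a : Fn ι N} {r : ℝ} (ha : Bd a r) (x₀ : ι → ℝ) (s t : Finset N)
    (η' η : N → ℂ) :
    ‖∑ g ∈ s, ∑ h ∈ t, (starRingEnd ℂ) (η' g) * a (g * h⁻¹) (act ρ g x₀) * η h‖ ≤
      r * Real.sqrt (∑ g ∈ s, ‖η' g‖ ^ 2) * Real.sqrt (∑ h ∈ t, ‖η h‖ ^ 2) := by
  have hr := ha.nonneg
  obtain ⟨S, w, -, h1, -, h3⟩ := ha.norm
  have hw : ∀ g, 0 ≤ w g := fun g => (norm_nonneg _).trans (h1 g 0)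
  have a1 : ‖∑ g ∈ s, ∑ h ∈ t, (starRingEnd ℂ) (η' g) * a (g * h⁻¹) (act ρ g x₀) * η h‖ ≤
      ∑ p ∈ s ×ˢ t, w (p.1 * p.2⁻¹) * ‖η' p.1‖ * ‖η p.2‖ := by
    rw [Finset.sum_product]
    refine (norm_sum_le _ _).trans (Finset.sum_le_sum fun g _ => (norm_sum_le _ _).trans
      (Finset.sum_le_sum fun h _ => ?_))
    rw [norm_mul, norm_mul, RCLike.norm_conj, mul_comm ‖η' g‖]
    exact mul_le_mul_of_nonneg_right (mul_le_mul_of_nonneg_right (h1 _ _) (norm_nonneg _))
      (norm_nonneg _)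
  have a2 := Finset.sum_sq_le_sum_mul_sum_of_sq_le_mul (s ×ˢ t)
    (r := fun p => w (p.1 * p.2⁻¹) * ‖η' p.1‖ * ‖η p.2‖)
    (f := fun p => w (p.1 * p.2⁻¹) * ‖η' p.1‖ ^ 2) (g := fun p => w (p.1 * p.2⁻¹) * ‖η p.2‖ ^ 2)
    (fun p _ => mul_nonneg (hw _) (by positivity)) (fun p _ => mul_nonneg (hw _) (by positivity))
    (fun p _ => le_of_eq (by ring))
  have hA : 0 ≤ ∑ g ∈ s, ‖η' g‖ ^ 2 := Finset.sum_nonneg fun _ _ => by positivity
  have hB : 0 ≤ ∑ g ∈ t, ‖η g‖ ^ 2 := Finset.sum_nonneg fun _ _ => by positivity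
  have a3 : ∑ p ∈ s ×ˢ t, w (p.1 * p.2⁻¹) * ‖η' p.1‖ ^ 2 ≤ r * ∑ g ∈ s, ‖η' g‖ ^ 2 := by
    rw [Finset.sum_product, Finset.mul_sum]
    refine Finset.sum_le_sum fun g _ => ?_
    simp only []
    rw [← Finset.sum_mul]
    refine mul_le_mul_of_nonneg_right ?_ (by positivity)
    have := h3 (t.map ((Equiv.inv N).trans (Equiv.mulLeft g)).toEmbedding)
    rw [Finset.sum_map] at this
    exact this
  have a4 : ∑ p ∈ s ×ˢ t, w (p.1 * p.2⁻¹) * ‖η p.2‖ ^ 2 ≤ r * ∑ g ∈ t, ‖η g‖ ^ 2 := by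
    rw [Finset.sum_product_right, Finset.mul_sum]
    refine Finset.sum_le_sum fun h _ => ?_
    simp only []
    rw [← Finset.sum_mul]
    refine mul_le_mul_of_nonneg_right ?_ (by positivity)
    have := h3 (s.map (Equiv.mulRight h⁻¹).toEmbedding)
    rw [Finset.sum_map] at this
    exact this
  refine a1.trans (le_of_sq_le_sq (a2.trans ?_) (by positivity))
  rw [mul_pow, mul_pow, Real.sq_sqrt hA, Real.sq_sqrt hB]
  calc _ ≤ (r * ∑ g ∈ s, ‖η' g‖ ^ 2) * (r * ∑ g ∈ t, ‖η g‖ ^ 2) :=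
        mul_le_mul a3 a4 (Finset.sum_nonneg fun p _ => mul_nonneg (hw _) (by positivity))
          (mul_nonneg hr hA)
    _ = _ := by ring

end Crest.Agent.R129.A
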