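import Crest.Agent.R129.A.Link
import Crest.Agent.R129.A.Ip
import Crest.Agent.R129.A.Low

/-! # `V V* V - V` is small, `V` is not (task R129/A-Tri). Statements frozen. -/

set_option autoImplicit false
open scoped BigOperators Matrix

namespace Crest.Agent.R129.A
variable {p : Par} {ρ : NN p.n →* Matrix (I p.n) (I p.n) ℤ} {L : Loc ρ}

/-- If `j` is odd or `i` is even then `tri X j i = 0`.  Otherwise write `X° j i = br L (F j) 1 (F i)`,
`m k = ip L (F k) (F k)` (invariant: `ip_aff`).  By `ev_sub, ev_sum, ev_mul, ev_adjM`, `Bd.tri`, `Bd.st`, `st_sub`, each of the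
four terms is within `3 e (r+e)²` of `tw (tw (X° j i') (st (X° j' i'))) (X° j' i) = br (F j) (m i' * m j') (F i)`
(`st_br`, `tw_br` twice, `F_inQ`, `fin_supp`).  The four brackets minus `X° j i` add up to
`br (F j) ((m (j-1) + m (j+1)) (m (i-1) + m (i+1)) - 1) (F i)`, and where `chi j, chi i ≠ 0` both sums are within `2δ`
of `1` (`chi_sq`), so the middle function is at most `8 δ`; use `hbr`. -/
theorem tri_bd (h : p.Ok) (hc : IsConc p.b ρ L) (X : ℤ → ℤ → MonoidAlgebra ℂ (HG ρ)) {r e δ : ℝ}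
    (hδ0 : 0 ≤ δ) (hδ : δ ≤ 1)
    (hX : ∀ j i, X j i ≠ 0 → Even j ∧ Odd i)
    (hbr : ∀ j i, Even j → Odd i → ∀ (m : (I p.n → ℝ) → ℝ) (c : ℝ), 0 ≤ c →
      (∀ y, chi p.P j (p.uu (y none)) ≠ 0 → chi p.P i (p.uu (y none)) ≠ 0 → |m y| ≤ c) →
      Bd (br L (p.F j) m (p.F i)) (r * c))
    (hlink : ∀ j i, Even j → Odd i → Bd (ev (X j i) - br L (p.F j) (fun _ => 1) (p.F i)) e)
    (hip : ∀ m y, |ip L (p.F m) (p.F m) y - chi p.P m (p.uu (y none)) ^ 2| ≤ δ) (j i : ℤ) :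
    Bd (ev (tri X j i)) (12 * e * (r + e) ^ 2 + e + 8 * δ * r) := by
  have hr : 0 ≤ r := by
    simpa using (hbr 0 1 Even.zero odd_one (fun _ => 0) 1 zero_le_one (by simp)).nonneg
  have he : 0 ≤ e := (hlink 0 1 Even.zero odd_one).nonneg
  by_cases hji : Even j ∧ Odd i
  swap
  · have h0 : tri X j i = 0 := by
      have a0 : X j i = 0 := by_contra fun hne => hji (hX _ _ hne)
      rw [tri, a0, sub_zero]
      refine Finset.sum_eq_zero fun i' _ => Finset.sum_eq_zero fun j' _ => ?_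
      rcases not_and_or.1 hji with h1 | h1
      · rw [show X j i' = 0 from by_contra fun hne => h1 (hX _ _ hne).1, zero_mul, zero_mul]
      · rw [show X j' i = 0 from by_contra fun hne => h1 (hX _ _ hne).2, mul_zero]
    rw [h0, ev_zero]
    exact bd_zero (by positivity)
  obtain ⟨hj, hi⟩ := hji
  have hQ : ∀ m y, p.F m y ≠ 0 → InQ y := fun m y hy => h.F_inQ hy
  have b1 : ∀ j i, Even j → Odd i → Bd (br L (p.F j) (fun _ => 1) (p.F i)) r := fun j i hj hi => by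
    simpa using hbr j i hj hi (fun _ => 1) 1 zero_le_one (by simp)
  set m : ℤ → (I p.n → ℝ) → ℝ := fun k => ip L (p.F k) (p.F k) with hm
  have term : ∀ i' j', Odd i' → Even j' → Bd (ev (X j i' * adjM (X j' i') * X j' i) -
      br L (p.F j) (fun y => m i' y * m j' y) (p.F i)) (3 * e * (r + e) ^ 2) := by
    intro i' j' hi' hj'
    have t := Bd.tri (ρ := ρ) (b1 j i' hj hi') ((b1 j' i' hj' hi').st (ρ := ρ)) (b1 j' i hj' hi)
      (hlink j i' hj hi') (by rw [← st_sub]; exact (hlink j' i' hj' hi').st) (hlink j' i hj' hi)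
    rw [st_br L _ _ _ (hQ j') (hQ i') (fun _ _ => rfl),
      tw_br L _ _ _ _ _ _ (hQ i') (fin_supp h hc i') (fun _ _ => rfl),
      tw_br L _ _ _ _ _ _ (hQ j') (fin_supp h hc j') (fun _ _ => rfl)] at t
    rw [ev_mul, ev_mul, ev_adjM]
    simpa only [one_mul, mul_one] using t
  have o1 : Odd (j - 1) := hj.sub_odd odd_one
  have o2 : Odd (j + 1) := hj.add_one
  have e1 : Even (i - 1) := hi.sub_odd odd_one
  have e2 : Even (i + 1) := hi.add_one
  have mid := hbr j i hj hi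
    (fun y => (m (j - 1) y + m (j + 1) y) * (m (i - 1) y + m (i + 1) y) - 1) (8 * δ)
    (by positivity) (fun y hy hy' => by
      have a1 := chi_sq h.two_le_P hy
      have a2 := chi_sq h.two_le_P hy'
      have c1 := abs_le.1 (hip (j - 1) y)
      have c2 := abs_le.1 (hip (j + 1) y)
      have c3 := abs_le.1 (hip (i - 1) y)
      have c4 := abs_le.1 (hip (i + 1) y)
      have d1 : |m (j - 1) y + m (j + 1) y - 1| ≤ 2 * δ :=
        abs_le.2 ⟨by simp only [hm]; linarith, by simp only [hm]; linarith⟩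
      have d2 : |m (i - 1) y + m (i + 1) y - 1| ≤ 2 * δ :=
        abs_le.2 ⟨by simp only [hm]; linarith, by simp only [hm]; linarith⟩
      generalize m (j - 1) y + m (j + 1) y = u at d1
      generalize m (i - 1) y + m (i + 1) y = v at d2
      have d3 : |(u - 1) * (v - 1)| ≤ 2 * δ * (2 * δ) := by
        rw [abs_mul]; gcongr
      rw [show u * v - 1 = (u - 1) * (v - 1) + (u - 1) + (v - 1) by ring]
      refine (abs_add_three _ _ _).trans ?_
      nlinarith)
  have tot := ((((term _ _ o1 e1).add (term _ _ o1 e2)).add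
    ((term _ _ o2 e1).add (term _ _ o2 e2))).add mid).add (hlink j i hj hi).neg
  have n1 : j - 1 ≠ j + 1 := by omega
  have n2 : i - 1 ≠ i + 1 := by omega
  rw [tri, Finset.sum_pair n1, Finset.sum_pair n2, Finset.sum_pair n2, ev_sub, ev_add, ev_add,
    ev_add]
  refine Bd.mono ?_ (le_of_eq (show 3 * e * (r + e) ^ 2 + 3 * e * (r + e) ^ 2 +
    (3 * e * (r + e) ^ 2 + 3 * e * (r + e) ^ 2) + r * (8 * δ) + e = _ by ring))
  convert tot using 1
  funext g x
  simp only [Pi.add_apply, Pi.sub_apply, Pi.neg_apply, br]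
  push_cast
  ring

/-- `x₀ = (θ₀, 0, 0)` with `uu θ₀ = wp 1` (`exists_theta`, `chi_one`, `theta_mem`), `η' g = F 0 (aff g x₀)`,
`η h = F 1 (aff h x₀)` on their finite supports (`fin_supp`).  By `fibre_br` the pairing of the bracket is
`m₀ m₁` with `m_k = ip (F k) (F k) x₀ = ∑ η²  ≥ 7/8`; split `br = ev a - (ev a - br)`, `fibre_le`, `fibre_bd`:
`m₀ m₁ ≤ (‖cvop a‖ + 1/8) √m₀ √m₁`. -/
theorem low_bd (h : p.Ok) (hc : IsConc p.b ρ L) (a : MonoidAlgebra ℂ (HG ρ))
    (hlink : Bd (ev a - br L (p.F 0) (fun _ => 1) (p.F 1)) (1 / 8))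
    (hip : ∀ m y, |ip L (p.F m) (p.F m) y - chi p.P m (p.uu (y none)) ^ 2| ≤ 1 / 8) :
    3 / 4 ≤ ‖cvop a‖ := by
  obtain ⟨θ, hθ⟩ := h.exists_theta (wp p.P 1)
  obtain ⟨c0, c1⟩ := chi_one h.two_le_P
  obtain ⟨t0, t1⟩ := h.theta_mem (m := 0) (θ := θ) (by rw [hθ, c0]; exact one_ne_zero)
  let x₀ : I p.n → ℝ := fun i => Option.elim i θ fun _ => 0
  have hx : InQ x₀ := by
    rintro (_ | i)
    · exact ⟨by simp only [x₀, Option.elim]; linarith, by simp only [x₀, Option.elim]; linarith⟩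
    · exact ⟨by simp [x₀], by simp [x₀]⟩
  have hip' : ∀ k, chi p.P k (wp p.P 1) = 1 → 7 / 8 ≤
      ∑ g ∈ (fin_supp h hc k x₀).toFinset, p.F k (L.aff g x₀) ^ 2 := by
    intro k hk
    have a1 := (abs_le.1 (hip k x₀)).1
    rw [show x₀ none = θ from rfl, hθ, hk, ip,
      finsum_eq_sum_of_support_subset (s := (fin_supp h hc k x₀).toFinset)] at a1
    · simp only [sq]; linarith
    · intro g hg
      simpa using hg
  set s := (fin_supp h hc 0 x₀).toFinset
  set t := (fin_supp h hc 1 x₀).toFinset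
  have m0 : 7 / 8 ≤ ∑ g ∈ s, p.F 0 (L.aff g x₀) ^ 2 := hip' 0 c0
  have m1 : 7 / 8 ≤ ∑ g ∈ t, p.F 1 (L.aff g x₀) ^ 2 := hip' 1 c1
  have f1 := fibre_le a x₀ s t (fun g => ((p.F 0 (L.aff g x₀) : ℝ) : ℂ))
    (fun g => ((p.F 1 (L.aff g x₀) : ℝ) : ℂ))
  have f2 := fibre_bd (ρ := ρ) hlink x₀ s t (fun g => ((p.F 0 (L.aff g x₀) : ℝ) : ℂ))
    (fun g => ((p.F 1 (L.aff g x₀) : ℝ) : ℂ))
  have f3 := norm_sub_le_of_le f1 f2
  simp only [← Finset.sum_sub_distrib, ← sub_mul, ← mul_sub, Pi.sub_apply, sub_sub_cancel,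
    fibre_br L (p.F 0) (p.F 1) (fun y hy => h.F_inQ hy) hx, Complex.norm_real, Real.norm_eq_abs,
    sq_abs] at f3
  simp only [← Complex.ofReal_sum, Complex.norm_real, Real.norm_eq_abs] at f3
  rw [← Finset.sum_mul_sum] at f3
  generalize ∑ g ∈ s, p.F 0 (L.aff g x₀) ^ 2 = u at m0 f3
  generalize ∑ g ∈ t, p.F 1 (L.aff g x₀) ^ 2 = v at m1 f3
  have hu : 0 ≤ u := by linarith
  have hv : 0 ≤ v := by linarith
  rw [abs_of_nonneg (mul_nonneg hu hv), mul_assoc, mul_assoc, ← add_mul, ← Real.sqrt_mul hu] at f3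
  have hw : 7 / 8 ≤ √(u * v) := Real.le_sqrt_of_sq_le (by nlinarith)
  have := Real.mul_self_sqrt (mul_nonneg hu hv)
  nlinarith

end Crest.Agent.R129.A
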