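import Crest.Agent.R129.A.Sym

/-! # Upper bound for convolution operators by symbols (task R129/A-Up). Statement frozen. -/

set_option autoImplicit false
open scoped BigOperators Matrix

namespace Crest.Agent.R129.A
variable {ι N : Type} [Fintype ι] [DecidableEq ι] [Group N] {ρ : N →* Matrix ι ι ℤ}

theorem up_geom (k : ℤ) (hk : k ≠ 0) (L : ℕ) (hL : |k| < L) :
    ∑ j ∈ Finset.range L, Complex.exp (2 * Real.pi * Complex.I * (k * (j / L))) = 0 := by
  have hL0 : (L : ℂ) ≠ 0 := by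
    have : 0 < L := by have := abs_nonneg k; omega
    exact_mod_cast this.ne'
  set z := Complex.exp (2 * Real.pi * Complex.I * (k / L)) with hz
  have e : ∀ j : ℕ, Complex.exp (2 * Real.pi * Complex.I * (k * (j / L))) = z ^ j := fun j => by
    rw [hz, ← Complex.exp_nat_mul]
    congr 1; ring
  simp only [e]
  have h1 : z ^ L = 1 := by
    rw [hz, ← Complex.exp_nat_mul, Complex.exp_eq_one_iff]
    exact ⟨k, by field_simp⟩
  have h2 : z - 1 ≠ 0 := by
    intro h
    rw [sub_eq_zero, hz, Complex.exp_eq_one_iff] at h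
    obtain ⟨n, hn⟩ := h
    have hpi : (2 * Real.pi * Complex.I : ℂ) ≠ 0 := Complex.two_pi_I_ne_zero
    have : (k : ℂ) = n * L := by
      rw [mul_comm (n : ℂ) (2 * Real.pi * Complex.I)] at hn
      have := mul_left_cancel₀ hpi hn
      field_simp at this
      rw [this]; ring
    have hk' : k = n * L := by exact_mod_cast this
    have hn0 : n ≠ 0 := fun e => hk (by rw [hk', e, zero_mul])
    rw [hk', abs_mul, Nat.abs_cast] at hL
    have : 1 ≤ |n| := Int.one_le_abs hn0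
    have hLp : (0 : ℤ) ≤ L := Int.natCast_nonneg L
    nlinarith
  have := geom_sum_mul z L
  rw [h1, sub_self] at this
  exact (mul_eq_zero.1 this).resolve_right h2

/-- the grid -/
def grid (ι : Type) [Fintype ι] [DecidableEq ι] (L : ℕ) : Finset (ι → ℕ) :=
  Fintype.piFinset fun _ => Finset.range L

theorem up_grid (k : ι → ℤ) : ∀ᶠ L : ℕ in Filter.atTop,
    ∑ ω ∈ grid ι L, ch k (fun i => (ω i : ℝ) / L) =
      if k = 0 then ((grid ι L).card : ℂ) else 0 := by
  by_cases hk : k = 0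
  · refine Filter.Eventually.of_forall fun L => ?_
    rw [if_pos hk, hk]
    simp [ch_zero]
  · obtain ⟨i, hi⟩ := Function.ne_iff.1 hk
    filter_upwards [Filter.eventually_gt_atTop (k i).natAbs] with L hL
    rw [if_neg hk]
    have e : ∀ ω : ι → ℕ, ch k (fun i => (ω i : ℝ) / L) =
        ∏ i, Complex.exp (2 * Real.pi * Complex.I * (k i * (ω i / L))) := fun ω => by
      unfold ch
      rw [← Complex.exp_sum]
      congr 1
      push_cast
      rw [Finset.mul_sum]
    simp only [e]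
    unfold grid
    rw [← Finset.prod_univ_sum (fun _ : ι => Finset.range L)
      (fun i (j : ℕ) => Complex.exp (2 * Real.pi * Complex.I * (k i * (j / L))))]
    refine Finset.prod_eq_zero (Finset.mem_univ i) (up_geom _ hi _ ?_)
    rw [Int.abs_eq_natAbs]
    exact_mod_cast hL

theorem up_vecMul_inj (g : N) {k k' : ι → ℤ} (h : k ᵥ* ρ g = k' ᵥ* ρ g) : k = k' := by
  have := congrArg (fun v => v ᵥ* ρ g⁻¹) h
  simpa only [Matrix.vecMul_vecMul, ← map_mul, mul_inv_cancel, map_one, Matrix.vecMul_one]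
    using this

theorem up_parseval (b : MonoidAlgebra ℂ (HG ρ)) (T : Finset N)
    (hT : ∀ y ∈ b.coeff.support, y.g ∈ T) : ∀ᶠ L : ℕ in Filter.atTop,
    ∑ ω ∈ grid ι L, ∑ g ∈ T, ‖ev b g (act ρ g fun i => (ω i : ℝ) / L)‖ ^ 2 =
      (grid ι L).card * ∑ y ∈ b.coeff.support, ‖b.coeff y‖ ^ 2 := by
  classical
  have hev : ∀ᶠ L : ℕ in Filter.atTop, ∀ y ∈ b.coeff.support, ∀ y' ∈ b.coeff.support,
      ∑ ω ∈ grid ι L, ch (y.k ᵥ* ρ y.g + -(y'.k ᵥ* ρ y.g)) (fun i => (ω i : ℝ) / L) =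
        if y.k ᵥ* ρ y.g + -(y'.k ᵥ* ρ y.g) = 0 then ((grid ι L).card : ℂ) else 0 := by
    rw [Filter.eventually_all_finset]
    intro y _
    rw [Filter.eventually_all_finset]
    intro y' _
    exact up_grid _
  filter_upwards [hev] with L hL
  apply Complex.ofReal_injective
  have e1 : ∀ x : ι → ℝ, ((∑ g ∈ T, ‖ev b g (act ρ g x)‖ ^ 2 : ℝ) : ℂ) =
      ∑ y ∈ b.coeff.support, ∑ y' ∈ b.coeff.support, if y'.g = y.g then
        b.coeff y * (starRingEnd ℂ) (b.coeff y') * ch (y.k ᵥ* ρ y.g + -(y'.k ᵥ* ρ y.g)) x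
        else 0 := fun x => by
    have e2 : ∀ g, ((‖ev b g (act ρ g x)‖ ^ 2 : ℝ) : ℂ) =
        ∑ y ∈ b.coeff.support, if y.g = g then ∑ y' ∈ b.coeff.support, (if y'.g = y.g then
          b.coeff y * (starRingEnd ℂ) (b.coeff y') * ch (y.k ᵥ* ρ y.g + -(y'.k ᵥ* ρ y.g)) x
          else 0) else 0 := fun g => by
      rw [← Complex.normSq_eq_norm_sq, ← Complex.mul_conj]
      unfold ev Finsupp.sum
      beta_reduce
      rw [map_sum, Finset.sum_mul]
      refine Finset.sum_congr rfl fun y _ => ?_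
      split_ifs with hy
      · rw [Finset.mul_sum]
        refine Finset.sum_congr rfl fun y' _ => ?_
        rw [hy]
        split_ifs with hy'
        · rw [ch_add, ch_neg, ch_act, ch_act, map_mul]; ring
        · simp
      · simp
    rw [Complex.ofReal_sum]
    simp only [e2]
    rw [Finset.sum_comm]
    refine Finset.sum_congr rfl fun y hy => ?_
    rw [Finset.sum_ite_eq, if_pos (hT y hy)]
  rw [Complex.ofReal_sum]
  simp only [e1]
  rw [Finset.sum_comm]
  push_cast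
  rw [Finset.mul_sum]
  refine Finset.sum_congr rfl fun y hy => ?_
  rw [Finset.sum_comm, Finset.sum_eq_single y]
  · simp only [if_true]
    rw [← Finset.mul_sum, hL y hy y hy, if_pos (add_neg_cancel _), Complex.mul_conj,
      Complex.normSq_eq_norm_sq]
    push_cast; ring
  · intro y' hy' hne
    by_cases hg : y'.g = y.g
    · simp only [if_pos hg]
      rw [← Finset.mul_sum, hL y hy y' hy', if_neg, mul_zero]
      intro e
      rw [add_neg_eq_zero] at e
      exact hne (HG.ext (up_vecMul_inj _ e).symm hg)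
    · simp only [if_neg hg, Finset.sum_const_zero]
  · intro h; exact absurd hy h

omit [Fintype ι] [DecidableEq ι] in
theorem up_schur (S T T' : Finset N) (w : N → ℝ) (r : ℝ) (α : N → N → ℂ) (u : N → ℂ)
    (hα : ∀ g h, ‖α g h‖ ≤ w h) (hw : ∑ h ∈ S, w h ≤ r) (hu : ∀ g, g ∉ T → u g = 0) :
    ∑ g ∈ T', ‖∑ h ∈ S, α g h * u (h⁻¹ * g)‖ ^ 2 ≤ r ^ 2 * ∑ g ∈ T, ‖u g‖ ^ 2 := by
  classical
  have hw0 : ∀ h, 0 ≤ w h := fun h => (norm_nonneg _).trans (hα 1 h)
  have hr : 0 ≤ r := (Finset.sum_nonneg fun h _ => hw0 h).trans hw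
  have hU : 0 ≤ ∑ g ∈ T, ‖u g‖ ^ 2 := Finset.sum_nonneg fun _ _ => by positivity
  have h1 : ∀ g, ‖∑ h ∈ S, α g h * u (h⁻¹ * g)‖ ^ 2 ≤
      r * ∑ h ∈ S, w h * ‖u (h⁻¹ * g)‖ ^ 2 := fun g => by
    have a1 : ‖∑ h ∈ S, α g h * u (h⁻¹ * g)‖ ≤ ∑ h ∈ S, w h * ‖u (h⁻¹ * g)‖ :=
      (norm_sum_le _ _).trans (Finset.sum_le_sum fun h _ => by
        rw [norm_mul]; exact mul_le_mul_of_nonneg_right (hα g h) (norm_nonneg _))
    refine (pow_le_pow_left₀ (norm_nonneg _) a1 2).trans ?_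
    refine (Finset.sum_sq_le_sum_mul_sum_of_sq_le_mul S (f := w)
      (g := fun h => w h * ‖u (h⁻¹ * g)‖ ^ 2) (fun h _ => hw0 h)
      (fun h _ => mul_nonneg (hw0 h) (by positivity)) (fun h _ => le_of_eq (by ring))).trans ?_
    exact mul_le_mul_of_nonneg_right hw
      (Finset.sum_nonneg fun h _ => mul_nonneg (hw0 h) (by positivity))
  have h2 : ∀ h, ∑ g ∈ T', ‖u (h⁻¹ * g)‖ ^ 2 ≤ ∑ g ∈ T, ‖u g‖ ^ 2 := fun h => by
    have : ∑ g ∈ T', ‖u (h⁻¹ * g)‖ ^ 2 =
        ∑ g ∈ T'.map (Equiv.mulLeft h⁻¹).toEmbedding, ‖u g‖ ^ 2 := by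
      rw [Finset.sum_map]; rfl
    rw [this, ← Finset.sum_filter_of_ne (p := fun g => g ∈ T)
      (fun g _ hg => by by_contra hc; exact hg (by rw [hu g hc]; simp))]
    exact Finset.sum_le_sum_of_subset_of_nonneg (fun j hj => (Finset.mem_filter.1 hj).2)
      fun _ _ _ => by positivity
  calc _ ≤ ∑ g ∈ T', r * ∑ h ∈ S, w h * ‖u (h⁻¹ * g)‖ ^ 2 := Finset.sum_le_sum fun g _ => h1 g
    _ = r * ∑ h ∈ S, w h * ∑ g ∈ T', ‖u (h⁻¹ * g)‖ ^ 2 := by
        rw [← Finset.mul_sum, Finset.sum_comm]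
        simp only [Finset.mul_sum]
    _ ≤ r * ∑ h ∈ S, w h * ∑ g ∈ T, ‖u g‖ ^ 2 :=
        mul_le_mul_of_nonneg_left
          (Finset.sum_le_sum fun h _ => mul_le_mul_of_nonneg_left (h2 h) (hw0 h)) hr
    _ ≤ r * (r * ∑ g ∈ T, ‖u g‖ ^ 2) := by
        rw [← Finset.sum_mul]
        exact mul_le_mul_of_nonneg_left (mul_le_mul_of_nonneg_right hw hU) hr
    _ = _ := by ring

theorem up_fin (a b : MonoidAlgebra ℂ (HG ρ)) {r : ℝ} (h : Bd (ev a) r) :
    ∑ y ∈ (a * b).coeff.support, ‖(a * b).coeff y‖ ^ 2 ≤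
      r ^ 2 * ∑ y ∈ b.coeff.support, ‖b.coeff y‖ ^ 2 := by
  classical
  obtain ⟨S, w, h0, h1, h2⟩ := h
  have p1 := up_parseval b (b.coeff.support.image HG.g) fun y hy => Finset.mem_image_of_mem _ hy
  have p2 := up_parseval (a * b) ((a * b).coeff.support.image HG.g)
    fun y hy => Finset.mem_image_of_mem _ hy
  obtain ⟨L, ⟨q1, q2⟩, hL⟩ := ((p1.and p2).and (Filter.eventually_gt_atTop 0)).exists
  have hc : (0 : ℝ) < (grid ι L).card := by
    have : (grid ι L).Nonempty := ⟨fun _ => 0, by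
      unfold grid
      rw [Fintype.mem_piFinset]
      exact fun _ => Finset.mem_range.2 hL⟩
    exact_mod_cast this.card_pos
  refine le_of_mul_le_mul_left ?_ hc
  rw [← q2, mul_left_comm, ← q1, Finset.mul_sum]
  refine Finset.sum_le_sum fun ω _ => ?_
  generalize (fun i => (ω i : ℝ) / L) = x
  have e : ∀ g, ev (a * b) g (act ρ g x) =
      ∑ h ∈ S, ev a h (act ρ g x) * (fun g => ev b g (act ρ g x)) (h⁻¹ * g) := fun g => by
    rw [ev_mul, tw_eq_sum _ S h0]
    simp only [act_mul]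
  simp only [e]
  refine up_schur S _ _ w r (fun g h => ev a h (act ρ g x)) (fun g => ev b g (act ρ g x))
    (fun g h => h1 h _) h2 (fun g hg => ?_)
  unfold ev
  refine Finset.sum_eq_zero fun h hh => if_neg fun e => hg ?_
  rw [← e]
  exact Finset.mem_image_of_mem _ hh

/-- Suggested route.
(1) For a bounded `T` on `L2 A`: if `‖T ξ‖ ≤ r ‖ξ‖` for all finitely supported `ξ` then `‖T‖ ≤ r`
(finite partial sums of `lp.hasSum_single` converge).  For `ξ : MonoidAlgebra ℂ (HG ρ)` viewed in `L2`,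
`cvop a ξ = a * ξ` (`mat_cvop`, `hasSum_apply`).
(2) Parseval: for a trigonometric polynomial `P`, `∑_k ‖P k‖² = avg_x ‖tev P x‖²`, where `avg` is either the
integral over the unit cube / `UnitAddTorus` (`UnitAddTorus.orthonormal_mFourier`), or the average over the
grid `x = y / L`, `y ∈ (Fin L)^ι`, with `L` larger than all frequency differences (geometric sums).
Since `x ↦ ev ξ g (act ρ g x)` is the polynomial with the coefficients of `ξ` on the fibre over `g`
relabelled by the injective map `k ↦ k ᵥ* ρ g` (`ch_act`),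
`‖ξ‖² = avg_x ∑_g ‖ξ^x g‖²` with `ξ^x g = ev ξ g (act ρ g x)`.
(3) `(a ξ)^x g = ∑_h ev a h (act ρ g x) * ξ^x (h⁻¹ g)` (`ev_mul`, `act_mul`), so by Cauchy–Schwarz with the
weights `w` of `Bd`, `∑_g ‖(a ξ)^x g‖² ≤ r² ∑_g ‖ξ^x g‖²`. -/
theorem norm_cvop_le (a : MonoidAlgebra ℂ (HG ρ)) {r : ℝ} (h : Bd (ev a) r) : ‖cvop a‖ ≤ r := by
  classical
  have hr := h.nonneg
  refine ContinuousLinearMap.opNorm_le_bound _ hr fun ξ => ?_
  refine lp.norm_le_of_forall_sum_le (p := 2) (by norm_num) (by positivity) fun t => ?_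
  simp only [ENNReal.toReal_ofNat, Real.rpow_ofNat]
  have ht : Filter.Tendsto
      (fun s : Finset (HG ρ) => ∑ j ∈ t, ‖∑ i ∈ s, mat (cvop a) j i * (ξ : HG ρ → ℂ) i‖ ^ 2)
      Filter.atTop (nhds (∑ j ∈ t, ‖(cvop a ξ : HG ρ → ℂ) j‖ ^ 2)) := by
    refine tendsto_finsetSum _ fun j _ => ?_
    have := hasSum_apply (cvop a) ξ j
    unfold HasSum at this
    simp only [SummationFilter.unconditional_filter] at this
    exact this.norm.pow 2
  refine le_of_tendsto' ht fun s => ?_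
  let b : MonoidAlgebra ℂ (HG ρ) := ∑ i ∈ s, MonoidAlgebra.single i ((ξ : HG ρ → ℂ) i)
  have hb : ∀ y, b.coeff y = if y ∈ s then (ξ : HG ρ → ℂ) y else 0 := fun y => by
    simp only [b, MonoidAlgebra.coeff_sum, Finsupp.finsetSum_apply, MonoidAlgebra.coeff_single,
      Finsupp.single_apply]
    rw [Finset.sum_ite_eq']
  have e1 : ∀ j, ∑ i ∈ s, mat (cvop a) j i * (ξ : HG ρ → ℂ) i = (a * b).coeff j := fun j => by
    simp only [b, Finset.mul_sum, MonoidAlgebra.coeff_sum, Finsupp.finsetSum_apply,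
      MonoidAlgebra.coeff_mul_single_apply, mat_cvop]
  simp only [e1]
  have h1 : ∑ j ∈ t, ‖(a * b).coeff j‖ ^ 2 ≤
      ∑ j ∈ (a * b).coeff.support, ‖(a * b).coeff j‖ ^ 2 := by
    rw [← Finset.sum_filter_of_ne (s := t) (p := fun j => j ∈ (a * b).coeff.support)
      (fun j _ hj => Finsupp.mem_support_iff.2 fun e => hj (by rw [e]; simp))]
    exact Finset.sum_le_sum_of_subset_of_nonneg (fun j hj => (Finset.mem_filter.1 hj).2)
      fun _ _ _ => by positivity
  have h2 : ∑ j ∈ b.coeff.support, ‖b.coeff j‖ ^ 2 ≤ ‖ξ‖ ^ 2 := by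
    refine le_trans (Finset.sum_le_sum fun j _ => ?_)
      (sum_le_hasSum b.coeff.support (fun _ _ => by positivity) (hasSum_norm_sq ξ))
    rw [hb]
    split_ifs
    · exact le_rfl
    · simp
  refine h1.trans ((up_fin a b h).trans ?_)
  rw [mul_pow]
  exact mul_le_mul_of_nonneg_left h2 (by positivity)

end Crest.Agent.R129.A
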