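import Crest.Agent.R129.A.Num
import Crest.Agent.R129.A.Apx
import Crest.Agent.R129.A.Tri
import Crest.Agent.R129.A.Law
import Crest.Agent.R129.A.Grow
import Crest.Agent.R129.A.Up

/-! # Part A: assembly -/

set_option autoImplicit false
open scoped BigOperators Matrix

namespace Crest.Agent.R129.A

theorem Sz.mono {n : ℕ} {ρ : NN n →* Matrix (I n) (I n) ℤ} {x : HG ρ} {Ξ Ξ' : ℕ} (h : Sz x Ξ)
    (hΞ : Ξ ≤ Ξ') : Sz x Ξ' :=
  ⟨fun i => (h.1 i).trans (by exact_mod_cast hΞ), fun s a => (h.2 s a).trans (by exact_mod_cast hΞ)⟩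

theorem vM_ne {A : Type} [Group A] (v : ℤ → MonoidAlgebra ℂ A) {j i : ℤ} (h : vM v j i ≠ 0) :
    Even j ∧ (i = j + 1 ∨ i = j - 1) := by
  by_contra hc
  exact h (if_neg hc)

theorem natAbs_row_le (l : ℤ) : (row l).natAbs ≤ l.natAbs + 1 := by
  unfold row; split_ifs <;> omega

theorem natAbs_col_le (l : ℤ) : (col l).natAbs ≤ l.natAbs + 1 := by
  unfold col; split_ifs <;> omega

/-- the analytic core -/
theorem core (n R : ℕ) : ∃ r : ℝ, 1 ≤ r ∧ ∃ V0 C : ℕ, ∀ v0 b : ℕ, V0 ≤ v0 →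
    (Par.mk n R v0 b).Ok → ∀ (ρ : NN n →* Matrix (I n) (I n) ℤ) (L : Loc ρ), IsConc b ρ L →
    ∃ f : ℤ → (I n → ℤ) →₀ ℂ,
      (∀ m, ∀ k ∈ (f m).support, ∀ i,
        |k i| ≤ ((C * (b + 1) ^ 2 * (R ^ n) ^ m.natAbs : ℕ) : ℤ)) ∧
      (∀ l g, (((Par.mk n R v0 b).S l).card : ℝ) *
        ((Par.mk n R v0 b).amp (row l) * (Par.mk n R v0 b).amp (col l)) *
        l1 (sand ρ (f (row l)) g (f (col l))).coeff ≤ r) ∧
      Band (vM (vL (Par.mk n R v0 b) ρ f)) 1 r ∧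
      Gap (adj (Bnd (vM (vL (Par.mk n R v0 b) ρ f))) ∘L Bnd (vM (vL (Par.mk n R v0 b) ρ f)))
        (1 / 2) (1 / 4) ∧
      3 / 4 ≤ ‖Bnd (vM (vL (Par.mk n R v0 b) ρ f))‖ := by
  obtain ⟨B, hB, hapx⟩ := exists_apx n R
  set CS : ℝ := max 1 (Par.mk n R 0 0).CS with hCS
  have hCS1 : 1 ≤ CS := le_max_left _ _
  set r : ℝ := CS * B ^ 2 with hr
  have hr1 : 1 ≤ r := by rw [hr]; nlinarith [sq_nonneg (B - 1)]
  set e : ℝ := 1 / (4032 * (r + 1) ^ 2) with he
  have he0 : 0 < e := by positivity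
  have hr2 : 4 ≤ (r + 1) ^ 2 := by nlinarith
  have he1 : e ≤ 1 / 336 := by
    rw [he]
    exact one_div_le_one_div_of_le (by norm_num) (by nlinarith)
  set ε : ℝ := e / (2 * CS * B) with hε
  have hε0 : 0 < ε := by positivity
  set δ : ℝ := 1 / (2688 * r) with hδ
  have hδ0 : 0 < δ := by positivity
  have hδ1 : δ ≤ 1 / 8 := by
    rw [hδ]
    exact one_div_le_one_div_of_le (by norm_num) (by linarith)
  obtain ⟨C, hC⟩ := hapx ε hε0
  obtain ⟨V0, hV0⟩ := ip_apx n R δ hδ0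
  refine ⟨r, hr1, V0, C, fun v0 b hv hok ρ L hc => ?_⟩
  obtain ⟨f, hf⟩ := hC v0 b hok
  have hip := hV0 v0 b hv hok ρ L hc
  set p : Par := Par.mk n R v0 b with hp
  have hCSle : p.CS ≤ CS := le_max_right _ _
  have hB2 : 0 ≤ B ^ 2 := sq_nonneg B
  have hrle : p.CS * B ^ 2 ≤ r := mul_le_mul_of_nonneg_right hCSle hB2
  have hl : ∀ m, l1 (f m) ≤ B := fun m => (hf m).1
  have hG : ∀ m x, |p.G m x| ≤ B := fun m => (hf m).2.1
  have herr : ∀ m x, ‖tev (f m) x - ((p.G m (rep x) : ℝ) : ℂ)‖ ≤ ε := fun m => (hf m).2.2.1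
  have hlink : ∀ j i, Even j → Odd i →
      Bd (ev (vM (vL p ρ f) j i) - br L (p.F j) (fun _ => 1) (p.F i)) e := fun j i hj hi => by
    refine (link_bd (p := p) hok hc hε0.le hl hG herr hj hi).mono ?_
    have : CS * (2 * ε * B) = e := by rw [hε]; field_simp
    rw [← this]
    exact mul_le_mul_of_nonneg_right hCSle (by positivity)
  have hL : ∀ j i, l1 (vM (vL p ρ f) j i).coeff ≤ r := fun j i => by
    unfold vM
    split_ifs
    · exact (l1_vL (p := p) hok hl _).trans hrle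
    · rw [MonoidAlgebra.coeff_zero, l1_zero]; linarith
  obtain ⟨hband, ⟨L', hband3⟩, htri⟩ := Bnd_tri (X := vM (vL p ρ f))
    (fun j i h => (vM_ne _ h).2) hL
  have hbd : ∀ j i, Bd (ev (tri (vM (vL p ρ f)) j i)) (1 / 112) := fun j i => by
    refine (tri_bd (p := p) hok hc (vM (vL p ρ f)) (r := r) (e := e) hδ0.le (by linarith)
      (fun j i h => ?_) (fun j i hj hi m c hc0 hm => ?_) hlink hip j i).mono ?_
    · obtain ⟨h1, h2⟩ := vM_ne _ h
      refine ⟨h1, ?_⟩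
      rcases h2 with rfl | rfl
      · exact h1.add_one
      · exact h1.sub_odd odd_one
    · exact (br_bd (p := p) hok hc hG hj hi m c hc0 hm).mono
        (mul_le_mul_of_nonneg_right hrle hc0)
    · have h1 : 8 * δ * r = 1 / 336 := by rw [hδ]; field_simp; norm_num
      have h2 : 12 * e * (r + 1) ^ 2 = 1 / 336 := by rw [he]; field_simp; norm_num
      have h3 : (r + e) ^ 2 ≤ (r + 1) ^ 2 := by
        apply pow_le_pow_left₀ (by positivity); linarith
      have h4 : 12 * e * (r + e) ^ 2 ≤ 12 * e * (r + 1) ^ 2 :=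
        mul_le_mul_of_nonneg_left h3 (by positivity)
      linarith
  refine ⟨f, fun m => (hf m).2.2.2, fun l g => (card_l1_sand (p := p) hok hl l g).trans hrle,
    hband, gap_of_tri _ ?_, ?_⟩
  · rw [htri]
    refine (norm_Bnd_le hband3 (1 / 112) fun j i => norm_cvop_le _ (hbd j i)).trans ?_
    norm_num
  · refine le_trans ?_ (norm_cvop_le_Bnd hband 0 1)
    refine low_bd (p := p) hok hc _ ((hlink 0 1 Even.zero odd_one).mono (by linarith)) ?_
    exact fun m y => (hip m y).trans hδ1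

theorem partA' (c R : ℕ) (hR : 2 ≤ R) : ∃ (γ₀ r₀ : ℝ) (CA : ℕ), 0 < γ₀ ∧ 0 < r₀ ∧
    ∀ M₀ : ℕ, 2 ≤ M₀ → ∃ (A : Type) (_ : Group A) (μ : ℤ → (A × ZMod 4) →₀ ℝ),
      (∀ a : A, IsOfFinOrder a → a = 1) ∧ (∀ i, IsLaw (μ i)) ∧
      GenHyp μ (fun _ => True) c M₀ R ∧ Growth μ (fun _ => True) CA M₀ ∧
      Gap (adj (Qop μ fun _ => True) ∘L Qop μ fun _ => True) γ₀ r₀ ∧
      γ₀ ≤ ‖Qop μ fun _ => True‖ ^ 2 := by
  classical
  obtain ⟨r, hr1, V0, C, hcore⟩ := core (c + 1) R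
  obtain ⟨Cs, hCs⟩ := sz_prod (c + 1)
  obtain ⟨Cc, hCc⟩ := sz_count (c + 1)
  set K : ℕ := (Par.mk (c + 1) R 0 0).K with hK
  set P : ℕ := R ^ (c + 1) with hP
  let v0 : ℕ → ℕ := fun M => (V0 + 1) * M
  let b : ℕ → ℕ := fun M =>
    4 * (c + 1 + 2) ^ (c + 1 + 1) * K ^ (c + 1) * P ^ 5 * v0 M ^ (c + 1)
  have pv : PB fun M _ => v0 M := (PB.const _).mul PB.id
  have pb : PB fun M _ => b M + 1 := ((PB.const _).mul (pv.pow _)).add (PB.const 1)
  let Ξ : ℕ → ℕ → ℕ := fun M l =>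
    C * (b M + 1) ^ 2 * (P ^ l * P) + (K * v0 M * R ^ l) ^ (c + 1) + (b M + 1) + 2
  have pΞ : PB Ξ :=
    (((((PB.const C).mul (pb.pow 2)).mul ((PB.exp P).mul (PB.const P))).add
      ((((PB.const K).mul pv).mul (PB.exp R)).pow _)).add pb).add (PB.const 2)
  obtain ⟨C1, hC1⟩ : PB fun M l => (Ξ M l * 3) ^ Cs + Ξ M l :=
    ((pΞ.mul (PB.const 3)).pow Cs).add pΞ
  set cc : ℝ := 1 / (2 * r) with hcc
  have hcc0 : 0 < cc := by positivity
  refine ⟨cc ^ 2 * (1 / 2), cc ^ 2 * (1 / 4), (C1 + 1) * (Cs + 1) * Cc, by positivity,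
    by positivity, fun M hM => ?_⟩
  set p : Par := Par.mk (c + 1) R (v0 M) (b M) with hp
  have hMv : M ≤ v0 M := Nat.le_mul_of_pos_left _ (by omega)
  have hok : p.Ok := ⟨Nat.succ_pos c, hR, by change 1 ≤ v0 M; omega, le_rfl⟩
  obtain ⟨ρ, L, hc⟩ := exists_conc (c + 1) (b M)
  obtain ⟨f, hfreq, hsand, hband, hgap, hnorm⟩ := hcore (v0 M) (b M)
    ((Nat.le_succ V0).trans (Nat.le_mul_of_pos_right _ (by omega))) hok ρ L hc
  let a : ℤ → NN (c + 1) → HG ρ →₀ ℂ := fun l g =>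
    ((cc * (p.amp (row l) * p.amp (col l)) : ℝ) : ℂ) • (sand ρ (f (row l)) g (f (col l))).coeff
  have hane : ∀ l g x, a l g x ≠ 0 → (sand ρ (f (row l)) g (f (col l))).coeff x ≠ 0 :=
    fun l g x h h' => h (by simp only [a, Finsupp.smul_apply, h', smul_zero])
  have hlaw : ∀ l, ∃ ν : (HG ρ × ZMod 4) →₀ ℝ, IsLaw ν ∧
      (∀ x, qco ν x = ∑ g ∈ p.S l, a l g x) ∧
      (∀ x ω, (x, ω) ∈ ν.support → ∃ g ∈ p.S l, a l g x ≠ 0 ∨ x = (⟨0, g⟩ : HG ρ)) ∧
      ∀ φ : NN (c + 1) → ℝ,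
        ν.sum (fun x w => w * φ x.1.g) = (∑ g ∈ p.S l, φ g) / (p.S l).card := fun l => by
    refine exists_law HG.g (fun g => (⟨0, g⟩ : HG ρ)) (fun _ => rfl) (p.S l) (Par.S_nonempty l)
      (a l) (fun g x hx => ?_) (fun g _ => ?_)
    · obtain ⟨k, -, k', -, rfl⟩ := sand_support _ _ _ (hane l g x hx)
      simp
    · have h0 : 0 ≤ cc * (p.amp (row l) * p.amp (col l)) :=
        mul_nonneg hcc0.le (mul_pos (hok.amp_pos _) (hok.amp_pos _)).le
      have h1 := hsand l g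
      have h2 : cc * r = 1 / 2 := by rw [hcc]; field_simp
      simp only [a]
      rw [l1_smul, Complex.norm_real, Real.norm_of_nonneg h0]
      calc ((p.S l).card : ℝ) * (cc * (p.amp (row l) * p.amp (col l)) *
            l1 (sand ρ (f (row l)) g (f (col l))).coeff)
          = cc * (((p.S l).card : ℝ) * (p.amp (row l) * p.amp (col l)) *
            l1 (sand ρ (f (row l)) g (f (col l))).coeff) := by ring
        _ ≤ cc * r := mul_le_mul_of_nonneg_left h1 hcc0.le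
        _ = 1 / 2 := h2
  choose μ hμ hq hsupp hmarg using hlaw
  have hQ : Qop μ (fun _ => True) = ((cc : ℝ) : ℂ) • Bnd (vM (vL p ρ f)) := by
    refine Qop_eq μ hμ (vL p ρ f) _ (fun l x => ?_) hband
    rw [hq]
    simp only [a, vL, MonoidAlgebra.coeff_smul, MonoidAlgebra.coeff_sum, Finsupp.smul_apply,
      Finsupp.finsetSum_apply, smul_eq_mul, Finset.mul_sum, Complex.ofReal_mul, mul_assoc]
  refine ⟨HG ρ, inferInstance, μ, HG.torsionFree NN.torsionFree, hμ, ?_, ?_, ?_, ?_⟩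
  · -- genericity
    intro i₀ _
    let s : Bool := decide (i₀ < 0)
    refine ⟨ℤ, inferInstance, inferInstance, inferInstance,
      UT.matHom.comp ((Pi.evalMonoidHom (fun _ : Bool => UT (c + 1) ℤ) s).comp (HG.toN ρ)),
      fun i _ => ?_⟩
    obtain ⟨Sx, h1, h2⟩ := unif_box c R (v0 M) (b M) hok i s
    refine ⟨Sx, fun x y => le_trans ?_ (h1 x y), fun φ => ?_⟩
    · change _ ≤ v0 M * R ^ (-(sgn s i)).toNat
      refine Nat.mul_le_mul hMv (Nat.pow_le_pow_right (by omega) ?_)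
      by_cases h0 : i₀ < 0
      · have : sgn s i = i := by simp [s, sgn, h0]
        rw [this]; omega
      · have : sgn s i = -i := by simp [s, sgn, h0]
        rw [this]; omega
    · rw [← h2 φ]
      exact hmarg i fun g => φ (g s).mat
  · -- growth
    intro l _ k hk
    set W : ℕ := M * 2 ^ l.natAbs with hW
    have hW2 : 2 ≤ W := two_le_W hM _
    have hΞ2 : 2 ≤ Ξ M l.natAbs := by simp only [Ξ]; omega
    have hΞb : b M + 1 ≤ Ξ M l.natAbs := by simp only [Ξ]; omega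
    have hP1 : 1 ≤ P := Nat.pow_pos (by omega)
    have hfr : ∀ m : ℤ, m.natAbs ≤ l.natAbs + 1 → ∀ k ∈ (f m).support,
        Sz (⟨k, 1⟩ : HG ρ) (Ξ M l.natAbs) := fun m hm k hk => by
      refine ⟨fun i => (hfreq m k hk i).trans ?_, fun s a => ?_⟩
      · have h1 : P ^ m.natAbs ≤ P ^ l.natAbs * P := by
          rw [← pow_succ]; exact Nat.pow_le_pow_right hP1 hm
        have h2 := Nat.mul_le_mul_left (C * (b M + 1) ^ 2) h1
        have h3 : C * (b M + 1) ^ 2 * P ^ m.natAbs ≤ Ξ M l.natAbs := by simp only [Ξ]; omega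
        exact_mod_cast h3
      · change |(0 : ℤ)| ≤ _
        simp
    have hg : ∀ g ∈ p.S l, Sz (⟨0, g⟩ : HG ρ) (Ξ M l.natAbs) := fun g hg => by
      refine ⟨fun i => by simp, fun s a => (Par.mem_S.1 hg s a).trans ?_⟩
      have h1 : p.rad l s a ≤ (K * v0 M * R ^ l.natAbs) ^ (c + 1) := hok.rad_le l s a
      have h3 : p.rad l s a ≤ Ξ M l.natAbs := by simp only [Ξ]; omega
      exact_mod_cast h3
    have hW1 := hC1 M l.natAbs hM
    have hsz : ∀ x ω, (x, ω) ∈ (μ l).support → Sz x (W ^ C1) := fun x ω hx => by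
      obtain ⟨g, hgS, h | rfl⟩ := hsupp l x ω hx
      · obtain ⟨k, hk, k', hk', rfl⟩ := sand_support _ _ _ (hane l g x h)
        have := hCs (b M) ρ hc.1 _ 3 hΞ2 hΞb (by norm_num) [⟨k, 1⟩, ⟨0, g⟩, ⟨k', 1⟩] le_rfl (by
          intro x hx
          simp only [List.mem_cons, List.not_mem_nil, or_false] at hx
          rcases hx with rfl | rfl | rfl
          · exact Or.inl (hfr _ (natAbs_row_le l) _ hk)
          · exact Or.inl (hg g hgS)
          · exact Or.inl (hfr _ (natAbs_col_le l) _ hk'))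
        simp only [List.prod_cons, List.prod_nil, mul_one, ← mul_assoc] at this
        exact this.mono (le_trans (Nat.le_add_right _ _) hW1)
      · exact (hg g hgS).mono (le_trans (Nat.le_add_left _ _) hW1)
    have hΞW : Ξ M l.natAbs ≤ W ^ C1 := le_trans (Nat.le_add_left _ _) hW1
    have hWk : 2 ≤ W ^ C1 * k := (hΞ2.trans hΞW).trans (Nat.le_mul_of_pos_right _ hk)
    obtain ⟨Fk, hF1, hF2⟩ := hCc ρ ((W ^ C1 * k) ^ (Cs + 1))
      (hWk.trans (Nat.le_self_pow (by omega) _))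
    refine ⟨Fk, fun l' hlen hl' => hF1 _ ?_, hF2.trans ?_⟩
    · refine (hCs (b M) ρ hc.1 (W ^ C1) k (hΞ2.trans hΞW) (hΞb.trans hΞW) hk l' hlen
        fun x hx => ?_).mono (Nat.pow_le_pow_right (by omega) (Nat.le_succ _))
      obtain ⟨ω, h | h⟩ := hl' x hx
      · exact Or.inl (hsz _ _ h)
      · exact Or.inr (hsz _ _ h)
    · rw [pow_mul, pow_mul]
      refine Nat.pow_le_pow_left (Nat.pow_le_pow_left ?_ _) _
      rw [pow_succ]
      exact Nat.mul_le_mul (Nat.pow_le_pow_left (Nat.le_mul_of_pos_right _ hk) _)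
        (Nat.le_mul_of_pos_left _ (by omega))
  · have h1 := hgap.smul (c := cc ^ 2) (by positivity)
    have h2 : adj (Qop μ fun _ => True) ∘L (Qop μ fun _ => True) =
        ((cc ^ 2 : ℝ) : ℂ) • (adj (Bnd (vM (vL p ρ f))) ∘L Bnd (vM (vL p ρ f))) := by
      rw [hQ]
      simp only [adj, LinearIsometryEquiv.map_smulₛₗ, ContinuousLinearMap.smul_comp,
        ContinuousLinearMap.comp_smul, smul_smul, Complex.conj_ofReal]
      congr 1
      push_cast
      ring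
    rw [h2]
    exact h1
  · rw [hQ, norm_smul, Complex.norm_real, Real.norm_of_nonneg hcc0.le, mul_pow]
    refine mul_le_mul_of_nonneg_left ?_ (by positivity)
    nlinarith

end Crest.Agent.R129.A
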