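import Mathlib

/-! # Polynomial bounds in `M * 2 ^ l` -/

set_option autoImplicit false

namespace Crest.Agent.R129.A

/-- `f M l` is bounded by a power of `M * 2 ^ l` -/
def PB (f : ℕ → ℕ → ℕ) : Prop := ∃ C : ℕ, ∀ M l : ℕ, 2 ≤ M → f M l ≤ (M * 2 ^ l) ^ C

theorem two_le_W {M : ℕ} (hM : 2 ≤ M) (l : ℕ) : 2 ≤ M * 2 ^ l :=
  hM.trans (Nat.le_mul_of_pos_right _ (Nat.pow_pos (by norm_num)))

theorem PB.const (c : ℕ) : PB fun _ _ => c :=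
  ⟨c, fun _ l hM => (Nat.lt_two_pow_self.le).trans (Nat.pow_le_pow_left (two_le_W hM l) c)⟩

theorem PB.id : PB fun M _ => M :=
  ⟨1, fun M l _ => by
    rw [pow_one]; exact Nat.le_mul_of_pos_right _ (Nat.pow_pos (by norm_num))⟩

theorem PB.exp (R : ℕ) : PB fun _ l => R ^ l :=
  ⟨R, fun M l hM => by
    calc R ^ l ≤ (2 ^ R) ^ l := Nat.pow_le_pow_left Nat.lt_two_pow_self.le l
      _ = (2 ^ l) ^ R := by rw [← pow_mul, ← pow_mul, mul_comm]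
      _ ≤ (M * 2 ^ l) ^ R := Nat.pow_le_pow_left (Nat.le_mul_of_pos_left _ (by omega)) R⟩

theorem PB.mul {f g : ℕ → ℕ → ℕ} (hf : PB f) (hg : PB g) : PB fun M l => f M l * g M l := by
  obtain ⟨C, hC⟩ := hf
  obtain ⟨D, hD⟩ := hg
  exact ⟨C + D, fun M l hM => by
    rw [pow_add]; exact Nat.mul_le_mul (hC M l hM) (hD M l hM)⟩

theorem PB.pow {f : ℕ → ℕ → ℕ} (hf : PB f) (k : ℕ) : PB fun M l => f M l ^ k := by
  obtain ⟨C, hC⟩ := hf
  exact ⟨C * k, fun M l hM => by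
    rw [pow_mul]; exact Nat.pow_le_pow_left (hC M l hM) k⟩

theorem PB.add {f g : ℕ → ℕ → ℕ} (hf : PB f) (hg : PB g) : PB fun M l => f M l + g M l := by
  obtain ⟨C, hC⟩ := hf
  obtain ⟨D, hD⟩ := hg
  refine ⟨C + D + 1, fun M l hM => ?_⟩
  have h2 := two_le_W hM l
  have h3 : (M * 2 ^ l) ^ C ≤ (M * 2 ^ l) ^ (C + D) := Nat.pow_le_pow_right (by omega) (by omega)
  have h4 : (M * 2 ^ l) ^ D ≤ (M * 2 ^ l) ^ (C + D) := Nat.pow_le_pow_right (by omega) (by omega)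
  have h5 := hC M l hM
  have h6 := hD M l hM
  calc f M l + g M l ≤ (M * 2 ^ l) ^ (C + D) * 2 := by omega
    _ ≤ (M * 2 ^ l) ^ (C + D) * (M * 2 ^ l) := Nat.mul_le_mul_left _ h2
    _ = _ := (pow_succ _ _).symm

end Crest.Agent.R129.A
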