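import Crest.Agent.R129.A.Defs

/-! # The concrete action (task R129/A-Rho). Statements frozen. -/

set_option autoImplicit false
open scoped BigOperators Matrix

namespace Crest.Agent.R129.A
variable {n : ℕ}

theorem rho_su_map {R R' : Type} [CommRing R] [CommRing R'] (f : R →+* R') (X : Idx n → R)
    (i j : Fin n) : f (su X i j) = su (fun a => f (X a)) i j := by
  by_cases h : i < j <;> simp [su, h]

theorem rho_su_cast {R : Type} [CommRing R] (X : Idx n → ℤ) (i j : Fin n) :
    ((su X i j : ℤ) : R) = su (fun a => (X a : R)) i j :=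
  rho_su_map (Int.castRingHom R) X i j

theorem rho_mat_map {R : Type} [CommRing R] (g : UT n ℤ) :
    g.mat.map (Int.cast : ℤ → R) = 1 + su fun a => (g.co a : R) := by
  ext i j
  rw [Matrix.map_apply, UT.mat, Matrix.add_apply, Matrix.add_apply, Int.cast_add, rho_su_cast]
  by_cases h : i = j <;> simp [Matrix.one_apply, h]

theorem rho_expand {R : Type} [CommRing R] (g : UT n ℤ) (t : R) (X : Idx n → R) :
    g.mat.map (Int.cast : ℤ → R) * (t • (1 : Matrix (Fin n) (Fin n) R) + su X) =
      t • (1 : Matrix (Fin n) (Fin n) R) +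
        (su X + t • su (fun a => (g.co a : R)) + su (fun a => (g.co a : R)) * su X) := by
  rw [rho_mat_map, add_mul, one_mul, mul_add, Matrix.mul_smul, mul_one]
  abel

theorem rho_affU {R : Type} [CommRing R] (g : UT n ℤ) (t : R) (X : Idx n → R) :
    affU g t X =
      co (su X + t • su (fun a => (g.co a : R)) + su (fun a => (g.co a : R)) * su X) := by
  rw [affU, rho_expand, co_add, co_smul, co_one, smul_zero, zero_add]

theorem rho_key {R : Type} [CommRing R] (g : UT n ℤ) (t : R) (X : Idx n → R) :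
    g.mat.map (Int.cast : ℤ → R) * (t • (1 : Matrix (Fin n) (Fin n) R) + su X) =
      t • (1 : Matrix (Fin n) (Fin n) R) + su (affU g t X) := by
  rw [rho_expand, rho_affU,
    su_co (((isSU_su _).add ((isSU_su _).smul t)).add ((isSU_su _).mul (isSU_su _)))]

theorem affU_apply {R : Type} [CommRing R] (g : UT n ℤ) (t : R) (X : Idx n → R) (a : Idx n) :
    affU g t X a = X a + t * (g.co a : R) +
      ∑ l, ((su g.co a.1.1 l : ℤ) : R) * su X l a.1.2 := by
  rw [rho_affU, co_add, co_add, co_smul, co_su, co_su]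
  simp only [rho_su_cast]
  rfl

theorem affU_one {R : Type} [CommRing R] (t : R) (X : Idx n → R) : affU (1 : UT n ℤ) t X = X := by
  funext a
  rw [affU_apply]
  simp [UT.one_co]

/-- `g (t + su X) = t + su (affU g t X)` because `g (t + su X) - t` is strictly upper triangular. -/
theorem affU_mul {R : Type} [CommRing R] (g h : UT n ℤ) (t : R) (X : Idx n → R) :
    affU (g * h) t X = affU g t (affU h t X) := by
  have h1 : (g * h).mat.map (Int.cast : ℤ → R) =
      g.mat.map (Int.cast : ℤ → R) * h.mat.map (Int.cast : ℤ → R) := by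
    rw [UT.mat_mul]
    exact Matrix.map_mul (f := Int.castRingHom R)
  rw [affU, h1, mul_assoc, rho_key h]
  rfl

theorem rho_affU_add {R : Type} [CommRing R] (g : UT n ℤ) (t t' : R) (X X' : Idx n → R) :
    affU g (t + t') (X + X') = affU g t X + affU g t' X' := by
  funext a
  simp only [Pi.add_apply, affU_apply, su_add, Matrix.add_apply, mul_add, Finset.sum_add_distrib]
  ring

theorem rho_affU_smul {R : Type} [CommRing R] (g : UT n ℤ) (c t : R) (X : Idx n → R) :
    affU g (c * t) (c • X) = c • affU g t X := by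
  funext a
  simp only [Pi.smul_apply, affU_apply, su_smul, Matrix.smul_apply, smul_eq_mul, mul_add,
    Finset.mul_sum]
  congr 1
  · ring
  · exact Finset.sum_congr rfl fun l _ => by ring

theorem rho_affU_cast {R : Type} [CommRing R] (g : UT n ℤ) (t : ℤ) (X : Idx n → ℤ) (a : Idx n) :
    ((affU g t X a : ℤ) : R) = affU g (t : R) (fun a => (X a : R)) a := by
  rw [affU_apply, affU_apply]
  push_cast
  simp only [rho_su_cast (R := R) X]

/-- `lin` as a linear map -/
def rhoLin (R : Type) [CommRing R] (b : ℕ) (g : NN n) : (I n → R) →ₗ[R] (I n → R) where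
  toFun := lin b g
  map_add' x y := by
    funext i
    cases i with
    | none => rfl
    | some sa =>
      have := congrFun (rho_affU_add (g sa.1) ((bet b sa.1 : R) * x none) ((bet b sa.1 : R) * y none)
        (fun a => x (some (sa.1, a))) (fun a => y (some (sa.1, a)))) sa.2
      rw [← mul_add] at this
      exact this
  map_smul' c x := by
    funext i
    cases i with
    | none => rfl
    | some sa =>
      have := congrFun (rho_affU_smul (g sa.1) c ((bet b sa.1 : R) * x none)
        (fun a => x (some (sa.1, a)))) sa.2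
      rw [mul_left_comm] at this
      exact this

theorem rho_lin_one {R : Type} [CommRing R] (b : ℕ) (x : I n → R) : lin b (1 : NN n) x = x := by
  funext i
  cases i with
  | none => rfl
  | some sa => exact congrFun (affU_one _ _) sa.2

theorem rho_lin_mul {R : Type} [CommRing R] (b : ℕ) (g h : NN n) (x : I n → R) :
    lin b (g * h) x = lin b g (lin b h x) := by
  funext i
  cases i with
  | none => rfl
  | some sa => exact congrFun (affU_mul (g sa.1) (h sa.1) _ _) sa.2

theorem rho_lin_cast {R : Type} [CommRing R] (b : ℕ) (g : NN n) (x : I n → ℤ) (i : I n) :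
    ((lin b g x i : ℤ) : R) = lin b g (fun i => (x i : R)) i := by
  cases i with
  | none => rfl
  | some sa =>
    have := rho_affU_cast (R := R) (g sa.1) ((bet b sa.1 : ℤ) * x none)
      (fun a => x (some (sa.1, a))) sa.2
    rw [Int.cast_mul] at this
    exact this

/-- the integral matrix of `lin` -/
def rhoHom (n b : ℕ) : NN n →* Matrix (I n) (I n) ℤ where
  toFun g := LinearMap.toMatrix' (rhoLin ℤ b g)
  map_one' := by
    rw [← LinearMap.toMatrix'_id]
    congr 1
    exact LinearMap.ext fun x => rho_lin_one b x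
  map_mul' g h := by
    rw [← LinearMap.toMatrix'_comp]
    congr 1
    exact LinearMap.ext fun x => rho_lin_mul b g h x

theorem rho_act (b : ℕ) (g : NN n) (x : I n → ℝ) : act (rhoHom n b) g x = lin b g x := by
  have h1 : (rhoHom n b g).map (Int.cast : ℤ → ℝ) = LinearMap.toMatrix' (rhoLin ℝ b g) := by
    ext i j
    change ((LinearMap.toMatrix' (rhoLin ℤ b g) i j : ℤ) : ℝ) = _
    rw [LinearMap.toMatrix'_apply, LinearMap.toMatrix'_apply]
    change ((lin b g _ i : ℤ) : ℝ) = lin b g _ i
    rw [rho_lin_cast]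
    congr 1
    funext l
    by_cases h : l = j <;> simp [h]
  rw [act, h1, ← Matrix.toLin'_apply, Matrix.toLin'_toMatrix']
  rfl

/-- `lin b g` is linear over `ℝ` and commutes with the cast `ℤ → ℝ`; take
`ρ g = Matrix.of fun i j => lin b g (Pi.single j 1) i` over `ℤ`.  For `aff_act` use
`k none = 0`, `k (some (s, a)) = - kap s * (g s).co a`. -/
theorem exists_conc (n b : ℕ) :
    ∃ (ρ : NN n →* Matrix (I n) (I n) ℤ) (L : Loc ρ), IsConc b ρ L := by
  refine ⟨rhoHom n b, ⟨aff b, fun x => ?_, fun g h x => ?_, fun g x => ?_⟩, rho_act b, fun _ _ => rfl⟩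
  · funext i
    cases i with
    | none => rfl
    | some sa => exact congrFun (affU_one _ _) sa.2
  · funext i
    cases i with
    | none => rfl
    | some sa => exact congrFun (affU_mul (g sa.1) (h sa.1) _ _) sa.2
  · refine ⟨fun i => i.elim 0 fun sa => -kap sa.1 * (g sa.1).co sa.2, ?_⟩
    rw [rho_act]
    funext i
    cases i with
    | none => simp [aff, lin]
    | some sa =>
      simp only [aff, lin, Pi.add_apply, affU_apply, phi, Option.elim_some]
      push_cast
      ring

theorem rho_mul_co (g h : UT n ℤ) (a : Idx n) (hg : ∀ a' : Idx n, a'.dist < a.dist → g.co a' = 0) :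
    (g * h).co a = g.co a + h.co a := by
  rw [UT.mul_co_apply, Finset.sum_eq_zero, add_zero]
  intro l _
  by_cases h1 : a.1.1 < l
  · by_cases h2 : l < a.1.2
    · rw [su_apply_lt _ h1, hg, zero_mul]
      rw [Fin.lt_def] at h1 h2
      simp only [Idx.dist]
      omega
    · rw [isSU_su _ _ _ (not_lt.1 h2), mul_zero]
  · rw [isSU_su _ _ _ (not_lt.1 h1), zero_mul]

/-- if `g ≠ 1` take `a` of minimal `dist` with `g.co a ≠ 0`; then `(g ^ m).co a' = m * g.co a'` for all
`a'` with `dist a' ≤ dist a` (`UT.mul_co_apply`, induction on `m`). -/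
theorem UT.torsionFree (g : UT n ℤ) (hg : IsOfFinOrder g) : g = 1 := by
  obtain ⟨m, hm, h1⟩ := isOfFinOrder_iff_pow_eq_one.1 hg
  have key : ∀ (d : ℕ) (a : Idx n), a.dist = d → g.co a = 0 := by
    intro d
    induction d using Nat.strong_induction_on with
    | _ d ih =>
      intro a ha
      have h2 : ∀ k : ℕ, (g ^ k).co a = k * g.co a := by
        intro k
        induction k with
        | zero => simp [UT.one_co]
        | succ k ihk =>
          rw [pow_succ', rho_mul_co g _ a fun a' h => ih _ (ha ▸ h) a' rfl, ihk]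
          push_cast
          ring
      have h3 := h2 m
      rw [h1, UT.one_co, Pi.zero_apply] at h3
      exact (mul_eq_zero.1 h3.symm).resolve_left (by exact_mod_cast hm.ne')
  ext a
  exact key _ a rfl

theorem NN.torsionFree (g : NN n) (hg : IsOfFinOrder g) : g = 1 := by
  funext s
  exact UT.torsionFree _ ((Pi.evalMonoidHom (fun _ : Bool => UT n ℤ) s).isOfFinOrder hg)

theorem rho_sum_le (A : Idx n → ℤ) (X : Idx n → ℝ) (a : Idx n) (C : ℝ) (hC : 0 ≤ C)
    (h : ∀ a' a'' : Idx n, a'.dist + a''.dist = a.dist → |(A a' : ℝ)| * |X a''| ≤ C) :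
    |∑ l, ((su A a.1.1 l : ℤ) : ℝ) * su X l a.1.2| ≤ n * C := by
  refine (Finset.abs_sum_le_sum_abs _ _).trans ?_
  have h1 : ∀ l ∈ (Finset.univ : Finset (Fin n)), |((su A a.1.1 l : ℤ) : ℝ) * su X l a.1.2| ≤ C := by
    intro l _
    by_cases h1 : a.1.1 < l
    · by_cases h2 : l < a.1.2
      · rw [su_apply_lt _ h1, su_apply_lt _ h2, abs_mul]
        refine h _ _ ?_
        rw [Fin.lt_def] at h1 h2
        simp only [Idx.dist]
        omega
      · rw [isSU_su _ _ _ (not_lt.1 h2), mul_zero, abs_zero]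
        exact hC
    · rw [isSU_su _ _ _ (not_lt.1 h1), Int.cast_zero, zero_mul, abs_zero]
      exact hC
  simpa using Finset.sum_le_card_nsmul _ _ _ h1

/-- Strong induction on `dist a` in
`φ g_{ij} = affU_{ij} - X_{ij} - ∑_{i<l<j} g_{il} X_{lj}`:
`|g_{ij}| ≤ 2 κ v^d + n ((n+2) κ)^(d-1) κ v^d ≤ ((n+2) κ v)^d`. -/
theorem tri_bound (g : UT n ℤ) (φ t κ v : ℝ) (ht : 0 < t) (hφ : t ≤ φ) (hκ : 1 ≤ κ) (hv : 0 ≤ v)
    (X : Idx n → ℝ) (h1 : ∀ a, |X a| ≤ κ * t * v ^ a.dist)
    (h2 : ∀ a, |affU g φ X a| ≤ κ * t * v ^ a.dist) (a : Idx n) :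
    |(g.co a : ℝ)| ≤ ((n + 2) * κ * v) ^ a.dist := by
  have key : ∀ (d : ℕ) (a : Idx n), a.dist = d → |(g.co a : ℝ)| ≤ ((n + 2) * κ * v) ^ d := by
    intro d
    induction d using Nat.strong_induction_on with
    | _ d ih =>
      intro a ha
      obtain ⟨e, rfl⟩ : ∃ e, d = e + 1 := ⟨d - 1, by have := a.dist_pos; omega⟩
      have hn : (0 : ℝ) ≤ n := Nat.cast_nonneg n
      have hq : (1 : ℝ) ≤ (n + 2) * κ := by nlinarith
      have hq1 : (1 : ℝ) ≤ ((n + 2) * κ) ^ e := one_le_pow₀ hq
      have hD : 0 ≤ κ * t * v ^ (e + 1) := by positivity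
      have hs := rho_sum_le g.co X a (((n + 2) * κ) ^ e * (κ * t * v ^ (e + 1))) (by positivity)
        (fun a' a'' hd => by
          have p1 := a''.dist_pos
          have i1 := ih a'.dist (by omega) a' rfl
          have i2 := h1 a''
          have i3 : ((n + 2) * κ) ^ a'.dist ≤ ((n + 2) * κ) ^ e :=
            pow_le_pow_right₀ hq (by omega)
          calc |(g.co a' : ℝ)| * |X a''|
              ≤ ((n + 2) * κ * v) ^ a'.dist * (κ * t * v ^ a''.dist) :=
                mul_le_mul i1 i2 (abs_nonneg _) (by positivity)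
            _ = ((n + 2) * κ) ^ a'.dist * (κ * t * v ^ (e + 1)) := by
                rw [← ha, ← hd, mul_pow, pow_add]
                ring
            _ ≤ _ := mul_le_mul_of_nonneg_right i3 hD)
      have j1 := h1 a
      have j2 := h2 a
      rw [affU_apply] at j2
      rw [ha] at j1 j2
      have j3 : |φ * (g.co a : ℝ)| ≤ 2 * (κ * t * v ^ (e + 1)) +
          n * (((n + 2) * κ) ^ e * (κ * t * v ^ (e + 1))) := by
        rw [abs_le] at j1 j2 hs ⊢
        constructor <;> linarith [j1.1, j1.2, j2.1, j2.2, hs.1, hs.2]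
      rw [abs_mul, abs_of_pos (ht.trans_le hφ)] at j3
      refine le_of_mul_le_mul_left ?_ ht
      calc t * |(g.co a : ℝ)| ≤ φ * |(g.co a : ℝ)| := mul_le_mul_of_nonneg_right hφ (abs_nonneg _)
        _ ≤ 2 * (((n + 2) * κ) ^ e * (κ * t * v ^ (e + 1))) +
          n * (((n + 2) * κ) ^ e * (κ * t * v ^ (e + 1))) := by
            have := mul_le_mul_of_nonneg_right hq1 hD
            linarith
        _ = t * ((n + 2) * κ * v) ^ (e + 1) := by
            rw [mul_pow ((n + 2) * κ), pow_succ ((n + 2) * κ)]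
            ring
  exact key _ a rfl

/-- `tri_bound` for `g⁻¹` with `φ = t = κ = 1`, `X = g.co`, `affU g⁻¹ 1 g.co = 0`. -/
theorem inv_bound (g : UT n ℤ) (v : ℝ) (hv : 0 ≤ v) (h : ∀ a, |(g.co a : ℝ)| ≤ v ^ a.dist)
    (a : Idx n) : |((g⁻¹).co a : ℝ)| ≤ ((n + 2) * v) ^ a.dist := by
  have h0 : ∀ a, affU g⁻¹ (1 : ℝ) (fun a => (g.co a : ℝ)) a = 0 := by
    intro a
    have h1 := UT.mul_co_apply g⁻¹ g a
    rw [inv_mul_cancel, UT.one_co, Pi.zero_apply] at h1
    have h2 := congrArg (Int.cast : ℤ → ℝ) h1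
    push_cast at h2
    simp only [rho_su_cast (R := ℝ) g.co] at h2
    rw [affU_apply]
    linarith
  have := tri_bound g⁻¹ 1 1 1 v one_pos le_rfl le_rfl hv (fun a => (g.co a : ℝ))
    (fun a => by simpa using h a) (fun a => by rw [h0, abs_zero]; positivity) a
  simpa using this

theorem affU_bound (g : UT n ℤ) (φ κ v : ℝ) (hκ : 0 ≤ κ) (hv : 0 ≤ v) (X : Idx n → ℝ)
    (hg : ∀ a, |(g.co a : ℝ)| ≤ v ^ a.dist) (hX : ∀ a, |X a| ≤ κ * v ^ a.dist) (hφ : |φ| ≤ κ)
    (a : Idx n) : |affU g φ X a| ≤ (n + 2) * κ * v ^ a.dist := by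
  have hD : 0 ≤ v ^ a.dist := by positivity
  have hs := rho_sum_le g.co X a (κ * v ^ a.dist) (by positivity) fun a' a'' hd => by
    calc |(g.co a' : ℝ)| * |X a''| ≤ v ^ a'.dist * (κ * v ^ a''.dist) :=
          mul_le_mul (hg a') (hX a'') (abs_nonneg _) (by positivity)
      _ = κ * v ^ a.dist := by
          rw [← hd, pow_add]
          ring
  have h1 : |φ * (g.co a : ℝ)| ≤ κ * v ^ a.dist := by
    rw [abs_mul]
    exact mul_le_mul hφ (hg a) (abs_nonneg _) hκ
  have h2 := hX a
  rw [affU_apply]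
  rw [abs_le] at h1 h2 hs ⊢
  constructor <;> linarith [h1.1, h1.2, h2.1, h2.2, hs.1, hs.2]

end Crest.Agent.R129.A
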